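import Vale.Agent.P032.R2.H784.Lim
import Vale.Agent.P032.S5.H843.Core7
import Vale.Agent.P032.S5.H172.Rhombus
import Vale.Agent.P032.S5.H827.Edge
import Vale.Agent.P032.S5.H394.Ends
import Vale.Agent.P032.S5.H205.Contact

/-!
# P032: the frame with two-pair points

`Hub U T` : at most four colours; the contacts of two-pair points with four-coloured points are of
type S3 (`tie`), the exact arcs of two-pair points end in three-coloured points (`end3`), and all
kinds of ends occur (`full`).
-/

open Set Filter Topology Metric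

noncomputable section

namespace Vale.Agent.P032.Six

variable {U : Fin 6 → Set ℂ} {T : ℂ → Set (Fin 6)}

/-- the frame with two-pair points -/
structure Hub (U : Fin 6 → Set ℂ) (T : ℂ → Set (Fin 6)) : Prop where
  irr : Irr U T
  min : MinF U T
  le4 : ∀ x, (T x).ncard ≤ 4
  tie : ∀ {z : ℂ} {a b c d : Fin 6}, DPt T z a b c d → ∀ {y : ℂ}, dist y z = 1 →
    (T y).ncard = 4 → (T y ∩ T z = {a, b} ∨ T y ∩ T z = {c, d}) ∧
      ∀ p P, P.ncard = 2 → P ⊆ T y → Arc T y p P → P = T y ∩ T z ∨ P = T y \ T z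
  end3 : ∀ {z : ℂ} {a b c d : Fin 6}, DPt T z a b c d → ∀ {v : ℂ}, Acc T z {a, b} v →
    {a, b} ⊂ T v → (T v).ncard ≤ 3
  full : ∀ {z : ℂ} {a b c d e : Fin 6}, DPt T z a b c d → e ∉ T z →
    ∃ v, T v = {e, a, b} ∧ Acc T z {a, b} v

namespace Hub

/-- a four-coloured point is harmless or a two-pair point -/
theorem cases (F : Hub U T) {x : ℂ} (hx : (T x).ncard = 4) :
    (∃ A, Harm T x A) ∨ ∃ a b c d, DPt T x a b c d := by
  by_cases hD : ∃ a b c d, DPt T x a b c d
  · exact Or.inr hD
  · left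
    exact F.irr.harm_of_noD (fun z hz s hs hne => F.min z hz s hs hne) hx
      (F.irr.exists_inside hx fun y _ => F.le4 y) fun a b c d h => hD ⟨a, b, c, d, h⟩

/-- a harmless point is not a two-pair point -/
theorem _root_.Vale.Agent.P032.Six.Harm.not_dpt {z : ℂ} {A : Set (Fin 6)} (hz : Harm T z A)
    {a b c d : Fin 6} (h : DPt T z a b c d) : False := by
  obtain ⟨p, hp⟩ := h.arc1
  obtain ⟨q, hq⟩ := h.arc2
  have h1 : A ⊆ {a, b} := by
    have := hz.h1 p hp.1 (by rw [hp.mem, h.pal]; intro i hi; rcases hi with rfl | rfl <;> simp)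
    rwa [hp.mem] at this
  have h2 : A ⊆ {c, d} := by
    have := hz.h1 q hq.1 (by rw [hq.mem, h.pal]; intro i hi; rcases hi with rfl | rfl <;> simp)
    rwa [hq.mem] at this
  have hne : A.Nonempty := by
    rw [← Set.ncard_pos (Set.toFinite _), hz.cardA]; norm_num
  obtain ⟨i, hi⟩ := hne
  rcases h1 hi with rfl | hib
  · rcases h2 hi with h3 | h3
    · exact h.ac h3
    · exact h.ad h3
  · rw [mem_singleton_iff] at hib
    subst hib
    rcases h2 hi with h3 | h3
    · exact h.bc h3
    · exact h.bd h3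

/-- three common colours exclude a two-pair point -/
theorem not_three (F : Hub U T) {z y : ℂ} (hd : dist y z = 1) (hy : (T y).ncard = 4)
    (h3 : 3 ≤ (T y ∩ T z).ncard) {a b c d : Fin 6} (h : DPt T z a b c d) : False := by
  rcases (F.tie h hd hy).1 with h1 | h1
  · rw [h1, Set.ncard_pair h.ab] at h3; omega
  · rw [h1, Set.ncard_pair h.cd] at h3; omega

/-- relabelling: the pair of common colours first -/
theorem _root_.Vale.Agent.P032.Six.DPt.first {z : ℂ} {a b c d : Fin 6} (h : DPt T z a b c d)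
    {S : Set (Fin 6)} (hS : S = {a, b} ∨ S = {c, d}) :
    ∃ a' b' c' d', DPt T z a' b' c' d' ∧ S = {a', b'} := by
  rcases hS with h1 | h1
  · exact ⟨a, b, c, d, h, h1⟩
  · exact ⟨c, d, a, b, h.swap, h1⟩

end Hub

end Vale.Agent.P032.Six
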