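import Vale.Agent.P032.R2.H479.Hub

/-!
# P032: limits of two-pair points: the arcs of the second pair shrink
-/

open Set Filter Topology Metric

noncomputable section

namespace Vale.Agent.P032.Six

section K

variable {k : ℕ} {U : Fin k → Set ℂ} {T : ℂ → Set (Fin k)}

/-- one ray at a point with an exact `ab`-arc and an arc with both colours `c`, `d` -/
theorem Irr.ray_one (h : Irr U T) {z p g u : ℂ} {a b c d : Fin k} (hpal : T z = {a, b, c, d})
    (hab : a ≠ b) (hp : Arc T z p {a, b}) (hg : dist g z = 1)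
    (hJ : ∀ᶠ q in 𝓝[sphere z 1] g, c ∈ T q ∧ d ∈ T q)
    {σ : ℝ} (hσ : σ = 1 ∨ σ = -1) (hu : u = σ * (Complex.I * (g - z))) :
    Ray (U a) z u ∨ Ray (U b) z u := by
  obtain ⟨t0, ht0⟩ := exists_cis (u := g - z) (by rw [← dist_eq_norm]; exact hg)
  obtain ⟨η, hη, hb⟩ := Metric.eventually_nhds_iff.1 ((eventually_circle hg).1 hJ)
  have hJ' : ∀ t : ℝ, |t - t0| < η → c ∈ T (z + cis t) ∧ d ∈ T (z + cis t) := by
    intro t ht
    have h1 := hb (y := t - t0) (by rw [Real.dist_eq, sub_zero]; exact ht)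
    rw [ht0, ← cis_add394, show t0 + (t - t0) = t by ring] at h1
    exact h1
  rw [ht0] at hu
  have hnl := h.no_layer (z := z) (q := p) hp.1
  have hcont : Tendsto (fun r : ℝ => z + r * u) (𝓝[>] 0) (𝓝 z) := by
    have : Continuous fun r : ℝ => z + r * u := by fun_prop
    have h2 := this.tendsto 0
    simp only [Complex.ofReal_zero, zero_mul, add_zero] at h2
    exact h2.mono_left nhdsWithin_le_nhds
  refine h.ray_solid ?_
  have hc := h.mx.ray_avoid hη (i := c) (fun t ht => h.sub _ (hJ' t ht).1) hσ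
  have hd := h.mx.ray_avoid hη (i := d) (fun t ht => h.sub _ (hJ' t ht).2) hσ
  filter_upwards [hc, hd, hcont.eventually (h.nhd z), hcont.eventually hnl] with r h1 h2 h3 h4
  rw [← hu] at h1 h2
  have h5 : T (z + r * u) ⊆ {a, b} := by
    intro i hi
    have := h3 hi
    rw [hpal] at this
    rcases this with rfl | rfl | rfl | hid
    · simp
    · simp
    · exact absurd (h.sub _ hi) h1
    · rw [mem_singleton_iff] at hid
      subst hid
      exact absurd (h.sub _ hi) h2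
  refine ⟨h5, fun h6 => ?_⟩
  have h7 := h4 (by rw [hp.mem, h6])
  rw [h6, Set.ncard_pair hab] at h7
  omega

/-- a limit `z` of points with both colours `a`, `b`, with an exact `ab`-arc: no arc of `S(z)` has
both other colours -/
theorem Irr.no_arc (h : Irr U T) {z p g : ℂ} {a b c d : Fin k} (hpal : T z = {a, b, c, d})
    (hab : a ≠ b) (hp : Arc T z p {a, b}) (hz : ∃ᶠ x in 𝓝 z, x ≠ z ∧ a ∈ T x ∧ b ∈ T x)
    (hg : dist g z = 1) : ¬ ∀ᶠ q in 𝓝[sphere z 1] g, c ∈ T q ∧ d ∈ T q := by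
  intro hJ
  have h1 := h.ray_one hpal hab hp hg hJ (σ := 1) (Or.inl rfl) rfl
  have h2 := h.ray_one hpal hab hp hg hJ (σ := -1) (Or.inr rfl) rfl
  rw [Complex.ofReal_one, one_mul] at h1
  have e : ((-1 : ℝ) : ℂ) * (Complex.I * (g - z)) = -(Complex.I * (g - z)) := by push_cast; ring
  rw [e] at h2
  obtain ⟨y, hy, hyg, hyg2⟩ := hp.exists_off_line (y := g)
  have hyT : T y = {a, b} := hy.mem
  have hip : ip (Complex.I * (g - z)) (y - z) ≠ 0 := by
    intro h0
    rw [ip_I] at h0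
    rcases cr_zero (by rw [← dist_eq_norm]; exact hg) (by rw [← dist_eq_norm]; exact hy.1) h0
      with h4 | h4
    · exact hyg (by linear_combination -h4)
    · exact hyg2 (by linear_combination h4)
  have hzy : dist z y = 1 := by rw [dist_comm]; exact hy.1
  have hno : ∀ i ∈ ({a, b} : Set (Fin k)), Ray (U i) z (Complex.I * (g - z)) →
      Ray (U i) z (-(Complex.I * (g - z))) → False := fun i hi r1 r2 =>
    h.mx.not_both_rays r1 r2 hzy (h.sub y (by rw [hyT]; exact hi)) hip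
  have key : ∀ {i j : Fin k}, ({i, j} : Set (Fin k)) = {a, b} →
      Ray (U i) z (Complex.I * (g - z)) → Ray (U j) z (-(Complex.I * (g - z))) → False := by
    intro i j hij r1 r2
    have hy' : Arc T z y {i, j} := by rw [hij]; exact hy
    have hij' : ∀ x, a ∈ T x ∧ b ∈ T x → i ∈ Pal U x ∧ j ∈ Pal U x := by
      intro x hx
      have h3 : ({a, b} : Set (Fin k)) ⊆ T x := by
        rintro m (rfl | hm)
        · exact hx.1
        · rw [mem_singleton_iff] at hm; subst hm; exact hx.2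
      rw [← hij] at h3
      exact ⟨h.sub x (h3 (by simp)), h.sub x (h3 (by simp))⟩
    rcases lt_or_gt_of_ne hip with h3 | h3
    · have hs := h.mx.sd_of_rays' r1 r2 hy.1 h3
      obtain ⟨x, ⟨hx1, hx2⟩, hx3⟩ := (hz.and_eventually
        (h.iso_of_sd (by rw [pair_comm]; exact hy') hs)).exists
      exact hx3 hx1 ⟨(hij' x hx2).2, (hij' x hx2).1⟩
    · have hs := h.mx.sd_of_rays r1 r2 hy.1 h3
      obtain ⟨x, ⟨hx1, hx2⟩, hx3⟩ := (hz.and_eventually (h.iso_of_sd hy' hs)).exists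
      exact hx3 hx1 (hij' x hx2)
  rcases h1 with h1 | h1 <;> rcases h2 with h2 | h2
  · exact hno a (by simp) h1 h2
  · exact key rfl h1 h2
  · exact key (pair_comm _ _) h1 h2
  · exact hno b (by simp) h1 h2

/-- long arcs with two colours have a limit -/
theorem Irr.lim_arc (h : Irr U T) {z q : ℂ} {c d : Fin k} {α β : ℝ} (hαβ : α < β)
    (hf : ∃ᶠ pr : ℂ × ℂ in 𝓝 (z, q), dist pr.2 pr.1 = 1 ∧
      ∀ s ∈ Ioo α β, c ∈ T (pr.1 + (pr.2 - pr.1) * cis s) ∧ d ∈ T (pr.1 + (pr.2 - pr.1) * cis s)) :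
    ∃ g, dist g z = 1 ∧ ∀ᶠ q' in 𝓝[sphere z 1] g, c ∈ T q' ∧ d ∈ T q' := by
  have hqz : dist q z = 1 := by
    have hc : IsClosed {pr : ℂ × ℂ | dist pr.2 pr.1 = 1} :=
      isClosed_eq (continuous_snd.dist continuous_fst) continuous_const
    exact hc.mem_of_frequently_of_tendsto (hf.mono fun pr hpr => hpr.1) tendsto_id
  have key : ∀ s ∈ Ioo α β, ∀ i : Fin k, (i = c ∨ i = d) → i ∈ T (z + (q - z) * cis s) := by
    intro s hs i hi
    have hc : IsClosed {pr : ℂ × ℂ | i ∈ T (pr.1 + (pr.2 - pr.1) * cis s)} :=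
      (h.closed i).preimage (by fun_prop)
    refine hc.mem_of_frequently_of_tendsto (hf.mono fun pr hpr => ?_) tendsto_id
    rcases hi with rfl | rfl
    · exact (hpr.2 s hs).1
    · exact (hpr.2 s hs).2
  have hg : dist (z + (q - z) * cis ((α + β) / 2)) z = 1 := by
    rw [dist_eq_norm, add_sub_cancel_left, norm_mul, norm_cis, mul_one, ← dist_eq_norm]
    exact hqz
  refine ⟨z + (q - z) * cis ((α + β) / 2), hg, (eventually_circle hg).2 ?_⟩
  filter_upwards [Ioo_mem_nhds (show -((β - α) / 2) < 0 by linarith)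
    (show 0 < (β - α) / 2 by linarith)] with t ht
  rw [add_sub_cancel_left, mul_assoc, ← cis_add394]
  have hs : (α + β) / 2 + t ∈ Ioo α β := ⟨by linarith [ht.1], by linarith [ht.2]⟩
  exact ⟨key _ hs c (Or.inl rfl), key _ hs d (Or.inr rfl)⟩

/-- one side of the maximal exact arc around a point -/
theorem Irr.arc_side (h : Irr U T) {x p : ℂ} {P : Set (Fin k)} {o : ℝ} (ho : o = 1 ∨ o = -1)
    (hP : P.ncard = 2) (hPx : P ⊆ T x) (hp : dist p x = 1) (hTp : T p = P) :
    ∃ l, 0 < l ∧ l ≤ Real.pi / 3 ∧ (∀ t ∈ Ioo 0 l, T (x + (p - x) * cis (-(o * t))) = P) ∧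
      P ⊂ T (x + (p - x) * cis (-(o * l))) ∧ Acc T x P (x + (p - x) * cis (-(o * l))) := by
  obtain ⟨θ, hθ⟩ := exists_cis (u := p - x) (by rw [← dist_eq_norm]; exact hp)
  have e : ∀ t : ℝ, x + (p - x) * cis (-(o * t)) = x + cis (θ - o * t) := by
    intro t
    rw [hθ, ← cis_add394, sub_eq_add_neg]
  obtain ⟨η, hη, hb⟩ := Metric.eventually_nhds_iff.1
    ((eventually_circle hp).1 (h.pair_open hP hPx hTp.subset))
  obtain ⟨l, hl0, -, hl3, hlt, hss⟩ := h.exists_arc (z := x) (θ := θ) ho hP hPx hη (fun t ht => by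
    rw [← e]
    refine hb (y := -(o * t)) ?_
    rw [Real.dist_eq, sub_zero, abs_neg, abs_mul]
    have : |o| = 1 := by rcases ho with rfl | rfl <;> norm_num
    rw [this, one_mul, abs_of_pos ht.1]
    exact ht.2)
  refine ⟨l, hl0, hl3, fun t ht => by rw [e]; exact hlt t ht, by rw [e]; exact hss, ?_⟩
  intro V hV
  have hc : Tendsto (fun t : ℝ => x + (p - x) * cis (-(o * t))) (𝓝[<] l)
      (𝓝 (x + (p - x) * cis (-(o * l)))) := by
    have h1 : Continuous fun t : ℝ => x + (p - x) * cis (-(o * t)) :=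
      continuous_const.add (continuous_const.mul (continuous_cis.comp (by fun_prop)))
    exact (h1.tendsto l).mono_left nhdsWithin_le_nhds
  obtain ⟨t, ht1, ht2⟩ := ((hc.eventually hV).and (Ioo_mem_nhdsLT hl0)).exists
  have hd : dist (x + (p - x) * cis (-(o * t))) x = 1 := by
    rw [dist_eq_norm, add_sub_cancel_left, norm_mul, norm_cis, mul_one, ← dist_eq_norm]
    exact hp
  refine ⟨_, ht1, hd, h.pair_open hP hPx ?_⟩
  rw [e]
  exact (hlt t ht2).subset

/-- counting at the second common point of the circles about complementary points -/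
theorem five_count {U : Fin 6 → Set ℂ} {T : ℂ → Set (Fin 6)} (h : Irr U T) {V v w : ℂ}
    (h4 : (T w).ncard ≤ 4) (hV3 : (T V).ncard ≤ 3) (hv3 : (T v).ncard ≤ 3)
    (hc : T v = (T V)ᶜ) (hne : V ≠ v) (hwV : dist w V = 1) (hwv : dist w v = 1)
    (hne2 : V + v ≠ 2 * w) : (T w ∩ T V).ncard = 2 ∧ (T w).ncard = 4 := by
  have hcov : ∀ i, i ∈ T V ∨ i ∈ T v := fun i => by rw [hc]; exact em _
  have hcov' : ∀ i, i ∈ T v ∨ i ∈ T V := fun i => (hcov i).symm
  obtain ⟨s1, hs1, hs1u, -⟩ := h.five hv3 hcov hne hwV hwv hne2 0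
  obtain ⟨s2, hs2, hs2u, hs12⟩ := h.five hv3 hcov hne hwV hwv hne2 s1
  obtain ⟨t1, ht1, ht1u, -⟩ := h.five hV3 hcov' hne.symm hwv hwV (by rw [add_comm]; exact hne2) 0
  obtain ⟨t2, ht2, ht2u, ht12⟩ :=
    h.five hV3 hcov' hne.symm hwv hwV (by rw [add_comm]; exact hne2) t1
  have hg1 : 2 ≤ (T w ∩ T V).ncard := by
    rw [← ncard_pair hs12.symm]
    refine Set.ncard_le_ncard ?_ (Set.toFinite _)
    rintro m (rfl | rfl)
    · exact ⟨hs1, hs1u⟩
    · exact ⟨hs2, hs2u⟩
  have hg2 : 2 ≤ (T w \ T V).ncard := by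
    rw [← ncard_pair ht12.symm]
    refine Set.ncard_le_ncard ?_ (Set.toFinite _)
    rintro m (rfl | rfl)
    · rw [hc] at ht1u; exact ⟨ht1, ht1u⟩
    · rw [hc] at ht2u; exact ⟨ht2, ht2u⟩
  have hsum := Set.ncard_inter_add_ncard_sdiff_eq_ncard (T w) (T V) (Set.toFinite _)
  omega

end K

end Vale.Agent.P032.Six
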