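import Vale.Agent.P032.R2.H479.Avoid

/-!
# P032: contacts of two-pair points, the bound on the orders is local

`Loc4 T` : the points at distance one of a point with at least four colours have at most four colours.
`NX.tieL`, `NX.end3L` : `NX.tie`, `NX.end3` with `Loc4`.
-/

open Set Filter Topology Metric

noncomputable section

namespace Vale.Agent.P032.Six

variable {U : Fin 6 → Set ℂ} {T : ℂ → Set (Fin 6)}

/-- the points at distance one of a point with at least four colours have at most four colours -/
def Loc4 (T : ℂ → Set (Fin 6)) : Prop :=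
  ∀ z y, dist y z = 1 → 4 ≤ (T z).ncard → (T y).ncard ≤ 4

/-- **Harmless contacts of a two-pair point.** -/
theorem Irr.harm_contactL (h : Irr U T) (hmin : MinF U T) (h4 : Loc4 T)
    {z y q : ℂ} {a b c d e f : Fin 6} (hz : DPt T z a b c d) (hyz : dist y z = 1)
    (hy : Harm T y {e, f}) (hTy : T y = {a, b, e, f})
    (hall : ∀ i : Fin 6, i = a ∨ i = b ∨ i = c ∨ i = d ∨ i = e ∨ i = f)
    (he : e ∉ T z) (hf : f ∉ T z) (hA : Acc T z {c, d} q) (hTq : T q = {c, d, f}) :
    ∃ g i, (g = c ∨ g = d) ∧ (i = a ∨ i = b) ∧ T (y + q - z) = {e, f, g, i} ∧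
      ∃ a' b' c' d', DPt T (y + q - z) a' b' c' d' := by
  have hqz : dist q z = 1 := hA.dist
  have hef : e ≠ f := by
    rintro rfl
    have := hy.cardA
    rw [show ({e, e} : Set (Fin 6)) = {e} by simp, Set.ncard_singleton] at this
    omega
  have hcy : c ∉ T y := by
    intro hcy
    rw [hTy] at hcy
    rcases hcy with h1 | h1 | h1 | h1
    · exact hz.ac h1.symm
    · exact hz.bc h1.symm
    · exact he (by rw [← h1, hz.pal]; simp)
    · rw [mem_singleton_iff] at h1; exact hf (by rw [← h1, hz.pal]; simp)
  have hdy : d ∉ T y := by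
    intro hdy
    rw [hTy] at hdy
    rcases hdy with h1 | h1 | h1 | h1
    · exact hz.ad h1.symm
    · exact hz.bd h1.symm
    · exact he (by rw [← h1, hz.pal]; simp)
    · rw [mem_singleton_iff] at h1; exact hf (by rw [← h1, hz.pal]; simp)
  have hoff : ∀ x, c ∉ T x → d ∉ T x → T x ⊆ T y := by
    intro x hc hd i hi
    rw [hTy]
    rcases hall i with rfl | rfl | rfl | rfl | rfl | rfl
    · simp
    · simp
    · exact absurd hi hc
    · exact absurd hi hd
    · simp
    · simp
  set w := y + q - z with hw
  have hwy : dist w y = 1 := by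
    rw [dist_eq_norm, show w - y = q - z by rw [hw]; ring, ← dist_eq_norm]; exact hqz
  have hqw : dist q w = 1 := by
    rw [dist_comm, dist_eq_norm, show w - q = y - z by rw [hw]; ring, ← dist_eq_norm]; exact hyz
  -- the colours `e`, `f` at `w`
  have hew : ∀ m, (m = e ∨ m = f) → m ∈ T w := by
    intro m hm
    have h1 : w ∈ closure {x | m ∈ T x} := by
      rw [mem_closure_iff_nhds]
      intro V hV
      have hcont : Tendsto (fun p : ℂ => y + p - z) (𝓝 q) (𝓝 w) := by
        have : Continuous fun p : ℂ => y + p - z := by fun_prop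
        exact this.tendsto q
      obtain ⟨N, hN, hNo, hqN⟩ := _root_.mem_nhds_iff.1 (hcont hV)
      obtain ⟨p, hpN, hpz, hp⟩ := hA N (hNo.mem_nhds hqN)
      obtain ⟨p', ⟨hp', hp'N⟩, hpz', hpy, hpy2, hJ⟩ := exists_generic (y := y) hpz
        (inter_mem hp (mem_nhdsWithin_of_mem_nhds (hNo.mem_nhds hpN)))
      have hArc : Arc T z p' {c, d} := ⟨hpz', (mem_of_superset hJ inter_subset_left)⟩
      refine ⟨y + p' - z, hN hp'N, ?_⟩
      have h2 := hy.h1 (y + p' - z) (by
        rw [dist_eq_norm, show y + p' - z - y = p' - z by ring, ← dist_eq_norm]; exact hpz')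
        (hoff _ (h.shift_off hyz hArc hpy hpy2 (Or.inl rfl))
          (h.shift_off hyz hArc hpy hpy2 (Or.inr rfl)))
      rcases hm with rfl | rfl
      · exact h2 (by simp)
      · exact h2 (by simp)
    rwa [(h.closed m).closure_eq] at h1
  have hwz : w ≠ z := by
    intro h1
    exact he (by rw [← h1]; exact hew e (Or.inl rfl))
  have hqy : q ≠ y := by
    rintro rfl
    exact hcy (by rw [hTq]; simp)
  have hne2 : w + z ≠ 2 * q := by
    intro h1
    exact hqy (by rw [hw] at h1; linear_combination -h1)
  -- one of `c`, `d` is at `w`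
  have hg : c ∈ T w ∨ d ∈ T w := by
    by_contra hcon
    push Not at hcon
    have hsub := hoff w hcon.1 hcon.2
    have h1 : ∀ᶠ x in 𝓝[sphere y 1] w, f ∈ Pal U x := by
      filter_upwards [mem_nhdsWithin_of_mem_nhds (h.nhd w), self_mem_nhdsWithin] with x h2 h3
      exact h.sub x (hy.h1 x h3 (h2.trans hsub) (by simp))
    rcases h.mx.partner_line (u := y) (p := w) (v := q) hwy h1 (by rw [dist_comm]; exact hqw)
      (h.sub _ (by rw [hTq]; simp)) with h2 | h2
    · exact hqy h2
    · exact hwz (by rw [hw] at h2 ⊢; linear_combination -h2)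
  -- symmetry between `c` and `d`
  have key : ∀ g g', DPt T z a b g g' → T q = {g, g', f} → g ∈ T w →
      (∀ x, g ∉ T x → g' ∉ T x → T x ⊆ T y) →
      (∀ i : Fin 6, i = a ∨ i = b ∨ i = g ∨ i = g' ∨ i = e ∨ i = f) →
      ∃ i, (i = a ∨ i = b) ∧ T w = {e, f, g, i} ∧ ∃ a' b' c' d', DPt T w a' b' c' d' := by
    intro g g' hz' hTq' hgw hoff' hall'
    have heg : e ≠ g := by rintro rfl; exact he (by rw [hz'.pal]; simp)
    have heg' : e ≠ g' := by rintro rfl; exact he (by rw [hz'.pal]; simp)
    have hfg : f ≠ g := by rintro rfl; exact hf (by rw [hz'.pal]; simp)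
    have hfg' : f ≠ g' := by rintro rfl; exact hf (by rw [hz'.pal]; simp)
    have hea : e ≠ a := by rintro rfl; exact he (by rw [hz'.pal]; simp)
    have heb : e ≠ b := by rintro rfl; exact he (by rw [hz'.pal]; simp)
    have hfa : f ≠ a := by rintro rfl; exact hf (by rw [hz'.pal]; simp)
    have hfb : f ≠ b := by rintro rfl; exact hf (by rw [hz'.pal]; simp)
    have hnog : ¬ ∀ᶠ x in 𝓝[sphere w 1] q, g ∈ T x :=
      h.no_carry hz'.swap hqw hqz hwz hne2 (Or.inl rfl)
    have hnog' : ¬ ∀ᶠ x in 𝓝[sphere w 1] q, g' ∈ T x :=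
      h.no_carry hz'.swap hqw hqz hwz hne2 (Or.inr rfl)
    have he' : e ∈ T w := hew e (Or.inl rfl)
    have hf' : f ∈ T w := hew f (Or.inr rfl)
    have hc3 : ({e, f, g} : Set (Fin 6)).ncard = 3 :=
      Set.ncard_eq_three.2 ⟨e, f, g, hef, heg, hfg, rfl⟩
    have hsub3 : ({e, f, g} : Set (Fin 6)) ⊆ T w := by
      rintro i (rfl | rfl | hi)
      · exact he'
      · exact hf'
      · rw [mem_singleton_iff] at hi; rw [hi]; exact hgw
    -- a fourth colour
    have h4w : (T w).ncard = 4 := by
      by_contra hcon
      have h3 : (T w).ncard ≤ 3 := by have := h4 y w hwy hy.card.ge; omega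
      refine hnog' ?_
      filter_upwards [mem_nhdsWithin_of_mem_nhds (h.nhd q), self_mem_nhdsWithin] with x h1 h2
      by_contra hg'x
      refine h.not_sub (x := w) (y := x) h2 h3 fun i hi => ?_
      have h5 := h1 hi
      rw [hTq'] at h5
      rcases h5 with rfl | rfl | h5
      · exact hgw
      · exact absurd hi hg'x
      · rw [mem_singleton_iff] at h5; rw [h5]; exact hf'
    obtain ⟨i, hiw, hi3⟩ : ∃ i ∈ T w, i ∉ ({e, f, g} : Set (Fin 6)) := by
      by_contra hcon
      push Not at hcon
      have := Set.ncard_le_ncard (show T w ⊆ {e, f, g} from fun i hi => hcon i hi) (Set.toFinite _)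
      omega
    have hTw : T w = {e, f, g, i} := by
      symm
      refine Set.eq_of_subset_of_ncard_le ?_ ?_ (Set.toFinite _)
      · rintro j (rfl | rfl | rfl | hj)
        · exact he'
        · exact hf'
        · exact hgw
        · rw [mem_singleton_iff] at hj; rw [hj]; exact hiw
      · rw [h4w, show ({e, f, g, i} : Set (Fin 6)) = insert i {e, f, g} by
          ext j; simp only [mem_insert_iff, mem_singleton_iff]; tauto,
          Set.ncard_insert_of_notMem hi3 (Set.toFinite _), hc3]
    have hcases : (∃ A, Harm T w A) ∨ ∃ a' b' c' d', DPt T w a' b' c' d' := by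
      by_cases hD : ∃ a b c d, DPt T w a b c d
      · exact Or.inr hD
      · left
        exact h.harm_of_noD (fun z hz s hs hne => hmin z hz s hs hne) h4w
          (h.exists_inside h4w fun y hy => h4 w y hy h4w.ge) fun a b c d h => hD ⟨a, b, c, d, h⟩
    have hie : i ≠ e := by rintro rfl; exact hi3 (by simp)
    have hif : i ≠ f := by rintro rfl; exact hi3 (by simp)
    have hig : i ≠ g := by rintro rfl; exact hi3 (by simp)
    have hab : (i = a ∨ i = b) → ∀ B, Harm T w B → False := by
      intro hiab B hB
      have hCy : B = {f, g} → False := by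
        intro hB2
        have hC : T w \ B ⊆ T y := by
          rintro j ⟨hj, hjB⟩
          rw [hTw] at hj
          rw [hTy]
          rcases hj with h5 | h5 | h5 | h5
          · right; right; left; exact h5
          · exact absurd (show j ∈ B by rw [hB2]; left; exact h5) hjB
          · exact absurd (show j ∈ B by rw [hB2]; right; exact h5) hjB
          · rw [mem_singleton_iff] at h5
            rcases hiab with h6 | h6
            · left; rw [h5, h6]
            · right; left; rw [h5, h6]
        rcases hB.unit_pair h hmin hy (by rw [dist_comm]; exact hwy) hC with h5 | ⟨-, h5⟩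
        · have h6 : f ∈ T w \ B := by rw [← h5]; simp
          exact h6.2 (by rw [hB2]; simp)
        · exact Set.disjoint_left.1 h5 (show e ∈ ({e, f} : Set (Fin 6)) by simp) he'
      refine hnog' ?_
      filter_upwards [mem_nhdsWithin_of_mem_nhds (h.nhd q), self_mem_nhdsWithin] with x h1 h2
      by_contra hg'x
      have h5 : T x ⊆ {f, g} := by
        intro j hj
        have h6 := h1 hj
        rw [hTq'] at h6
        rcases h6 with h6 | h6 | h6
        · right; exact h6
        · exact absurd (h6 ▸ hj) hg'x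
        · left; exact h6
      have h6 : B ⊆ T x := hB.h1 x h2 (h5.trans (by
        rintro j (h7 | h7)
        · rw [h7]; exact hf'
        · rw [mem_singleton_iff] at h7; rw [h7]; exact hgw))
      exact hCy (Set.eq_of_subset_of_ncard_le (h6.trans h5)
        (by rw [hB.cardA, Set.ncard_pair hfg]) (Set.toFinite _))
    have hg'i : i = g' → False := by
      intro hig'
      have hqsub : T q ⊆ T w := by
        rw [hTq', hTw, hig']
        rintro j (h5 | h5 | h5)
        · right; right; left; exact h5
        · right; right; right; exact h5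
        · right; left; exact h5
      rcases hcases with ⟨B, hB⟩ | ⟨a', b', c', d', hD⟩
      · have hBx : ∀ m ∈ B, ∀ᶠ x in 𝓝[sphere w 1] q, m ∈ T x := by
          intro m hm
          filter_upwards [mem_nhdsWithin_of_mem_nhds (h.nhd q), self_mem_nhdsWithin] with x h1 h2
          exact hB.h1 x h2 (h1.trans hqsub) hm
        have hBf : B ⊆ {f} := by
          intro m hm
          have h5 := hB.h1 q hqw hqsub hm
          rw [hTq'] at h5
          rcases h5 with h5 | h5 | h5
          · exact absurd (hBx m hm) (by rw [h5]; exact hnog)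
          · exact absurd (hBx m hm) (by rw [h5]; exact hnog')
          · exact h5
        have := Set.ncard_le_ncard hBf (Set.toFinite _)
        rw [hB.cardA, Set.ncard_singleton] at this
        omega
      · have hTq3 : (T q).ncard ≤ 3 := by
          rw [hTq']
          exact (Set.ncard_insert_le _ _).trans (Nat.add_le_add_right
            ((Set.ncard_insert_le _ _).trans (by rw [Set.ncard_singleton])) 1)
        have hins : T w ⊆ insert e (T q) := by
          rw [hTq', hTw, hig']
          rintro j (h5 | h5 | h5 | h5)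
          · left; exact h5
          · right; right; right; exact h5
          · right; left; exact h5
          · right; right; left; exact h5
        obtain ⟨p', hp', P, hP, heP⟩ : ∃ p', dist p' w = 1 ∧ ∃ P, (∀ᶠ x in 𝓝[sphere w 1] p',
            T x = P) ∧ e ∈ P := by
          have h5 := he'
          rw [hD.pal] at h5
          obtain ⟨p1, hp1⟩ := hD.arc1
          obtain ⟨p2, hp2⟩ := hD.arc2
          rcases h5 with h5 | h5 | h5 | h5
          · exact ⟨p1, hp1.1, _, hp1.2, Or.inl h5⟩
          · exact ⟨p1, hp1.1, _, hp1.2, Or.inr h5⟩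
          · exact ⟨p2, hp2.1, _, hp2.2, Or.inl h5⟩
          · exact ⟨p2, hp2.1, _, hp2.2, Or.inr h5⟩
        obtain ⟨r, hr, hrw, hrq, hrq2, -⟩ := exists_generic (y := q) hp' hP
        have hr : T r = P := hr
        exact h.third_notMem hqw hTq3 hins hrw (h.sub _ (by rw [hr]; exact heP)) hrq hrq2
    rcases hall' i with hia | hib | h1 | hig' | h1 | h1
    · rcases hcases with ⟨B, hB⟩ | hD
      · exact absurd hB (hab (Or.inl hia) B)
      · exact ⟨i, Or.inl hia, hTw, hD⟩
    · rcases hcases with ⟨B, hB⟩ | hD
      · exact absurd hB (hab (Or.inr hib) B)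
      · exact ⟨i, Or.inr hib, hTw, hD⟩
    · exact absurd h1 hig
    · exact absurd hig' hg'i
    · exact absurd h1 hie
    · exact absurd h1 hif
  rcases hg with hg | hg
  · obtain ⟨i, hi, hT, hD⟩ := key c d hz hTq hg hoff hall
    exact ⟨c, i, Or.inl rfl, hi, hT, hD⟩
  · obtain ⟨i, hi, hT, hD⟩ := key d c hz.swap34 (by
      rw [hTq]; ext j; simp only [mem_insert_iff, mem_singleton_iff]; tauto) hg
      (fun x h1 h2 => hoff x h2 h1) (fun i => by have := hall i; tauto)
    exact ⟨d, i, Or.inr rfl, hi, hT, hD⟩

/-- **A harmless contact of a two-pair point is not broken at the two other colours**, if the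
`cd`-arcs end at three-coloured points and no two-pair point has three colours in common with the
contact. -/
theorem Irr.no_harm_contactL (h : Irr U T) (hmin : MinF U T) (h4 : Loc4 T)
    {z y : ℂ} {a b c d e f : Fin 6} (hz : DPt T z a b c d) (hyz : dist y z = 1)
    (hTy : T y = {a, b, e, f})
    (hall : ∀ i : Fin 6, i = a ∨ i = b ∨ i = c ∨ i = d ∨ i = e ∨ i = f) (he : e ∉ T z)
    (hf : f ∉ T z) (hy : Harm T y {e, f})
    (hend : ∀ v, Acc T z {c, d} v → {c, d} ⊂ T v → (T v).ncard ≤ 3)
    (htie : ∀ w a' b' c' d', DPt T w a' b' c' d' → dist y w = 1 → (T y ∩ T w).ncard < 3) :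
    False := by
  -- an end of a `cd`-arc
  obtain ⟨p, hp⟩ := hz.arc2
  obtain ⟨l, -, -, -, hss, hA⟩ := h.arc_side (x := z) (p := p) (P := {c, d}) (o := 1) (Or.inl rfl)
    (Set.ncard_pair hz.cd) (by
      rw [hz.pal]; rintro i (h1 | h1)
      · right; right; left; exact h1
      · right; right; right; exact h1) hp.1 hp.mem
  set q := z + (p - z) * cis (-(1 * l)) with hq
  have hq3 := hend _ hA hss
  obtain ⟨x, hxz, hTq⟩ := h.third hz.swap hA.dist hq3 hss
  have hef : e ≠ f := by
    rintro rfl
    have := hy.cardA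
    rw [show ({e, e} : Set (Fin 6)) = {e} by simp, Set.ncard_singleton] at this
    omega
  -- the two-pair point `w` has three colours in common with `y`
  have key : ∀ e f : Fin 6, e ≠ f → Harm T y {e, f} → T y = {a, b, e, f} →
      (∀ i : Fin 6, i = a ∨ i = b ∨ i = c ∨ i = d ∨ i = e ∨ i = f) → e ∉ T z → f ∉ T z →
      T q = {c, d, f} → False := by
    intro e f hef hy hTy hall he hf hTq
    obtain ⟨g, i, hg, hi, hTw, a', b', c', d', hD⟩ :=
      h.harm_contactL hmin h4 hz hyz hy hTy hall he hf hA hTq
    have hyw : dist y (y + q - z) = 1 := by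
      rw [dist_comm, dist_eq_norm, show y + q - z - y = q - z by ring, ← dist_eq_norm]
      exact hA.dist
    refine absurd (htie _ _ _ _ _ hD hyw) (not_lt.2 ?_)
    have hie : i ≠ e := by
      rintro rfl
      refine he ?_
      rw [hz.pal]
      rcases hi with h1 | h1
      · left; exact h1
      · right; left; exact h1
    have hif : i ≠ f := by
      rintro rfl
      refine hf ?_
      rw [hz.pal]
      rcases hi with h1 | h1
      · left; exact h1
      · right; left; exact h1
    have h3 : ({e, f, i} : Set (Fin 6)).ncard = 3 :=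
      Set.ncard_eq_three.2 ⟨e, f, i, hef, hie.symm, hif.symm, rfl⟩
    rw [← h3]
    refine Set.ncard_le_ncard ?_ (Set.toFinite _)
    rintro j (h5 | h5 | h5)
    · exact ⟨by rw [hTy, h5]; simp, by rw [hTw, h5]; simp⟩
    · exact ⟨by rw [hTy, h5]; simp, by rw [hTw, h5]; simp⟩
    · rw [mem_singleton_iff] at h5
      refine ⟨?_, by rw [hTw, h5]; simp⟩
      rw [hTy, h5]
      rcases hi with h1 | h1
      · left; exact h1
      · right; left; exact h1
  rcases hall x with h1 | h1 | h1 | h1 | h1 | h1
  · exact hxz (by rw [h1, hz.pal]; simp)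
  · exact hxz (by rw [h1, hz.pal]; simp)
  · exact hxz (by rw [h1, hz.pal]; simp)
  · exact hxz (by rw [h1, hz.pal]; simp)
  · exact key f e hef.symm (by rw [pair_comm]; exact hy) (by
      rw [hTy]; ext j; simp only [mem_insert_iff, mem_singleton_iff]; tauto)
      (fun i => by have := hall i; tauto) hf he (by rw [hTq, h1])
  · exact key e f hef hy hTy hall he hf (by rw [hTq, h1])

namespace NX

theorem end3L (N : NX T) (h4 : Loc4 T) {z : ℂ} {a b c d : Fin 6}
    (hz : DPt T z a b c d) {v : ℂ} (hA : Acc T z {a, b} v) : (T v).ncard ≤ 3 := by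
  by_contra hcon
  have := h4 z v hA.dist hz.card.ge
  exact (N hz hA.dist (by omega)).2 hA

/-- contacts, one side -/
theorem tie_auxL (N : NX T) (h : Irr U T) (hmin : Mn U T) (h4 : Loc4 T) {z : ℂ}
    {a b c d : Fin 6} (hz : DPt T z a b c d) {y : ℂ} (hyz : dist y z = 1)
    (hy : (T y).ncard = 4) (hc : c ∉ T y) (hd : d ∉ T y) :
    T y ∩ T z = {a, b} ∧ ((∃ e f, DPt T y a b e f) ∨ Harm T y {a, b}) := by
  obtain ⟨e, f, hef, he, hf, hall⟩ := hz.exists_two
  have hea : e ≠ a := by rintro rfl; exact he (by rw [hz.pal]; simp)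
  have heb : e ≠ b := by rintro rfl; exact he (by rw [hz.pal]; simp)
  have hfa : f ≠ a := by rintro rfl; exact hf (by rw [hz.pal]; simp)
  have hfb : f ≠ b := by rintro rfl; exact hf (by rw [hz.pal]; simp)
  have hc4 : ({a, b, e, f} : Set (Fin 6)).ncard = 4 := by
    rw [Set.ncard_insert_of_notMem (by simp [hz.ab, hea.symm, hfa.symm]) (Set.toFinite _),
      Set.ncard_insert_of_notMem (by simp [heb.symm, hfb.symm]) (Set.toFinite _),
      Set.ncard_pair hef]
  have hTy : T y = {a, b, e, f} := by
    refine Set.eq_of_subset_of_ncard_le (fun i hi => ?_) (by rw [hc4, hy]) (Set.toFinite _)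
    rcases hall i with h1 | h1 | h1 | h1 | h1 | h1
    · left; exact h1
    · right; left; exact h1
    · exact absurd (h1 ▸ hi) hc
    · exact absurd (h1 ▸ hi) hd
    · right; right; left; exact h1
    · right; right; right; exact h1
  have hint : T y ∩ T z = {a, b} := by
    ext i
    constructor
    · rintro ⟨h1, h2⟩
      rw [hTy] at h1
      rcases h1 with h1 | h1 | h1 | h1
      · left; exact h1
      · right; exact h1
      · exact absurd (h1 ▸ h2) he
      · rw [mem_singleton_iff] at h1; exact absurd (h1 ▸ h2) hf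
    · rintro (h1 | h1)
      · rw [h1]; exact ⟨by rw [hTy]; simp, by rw [hz.pal]; simp⟩
      · rw [mem_singleton_iff] at h1; rw [h1]; exact ⟨by rw [hTy]; simp, by rw [hz.pal]; simp⟩
  refine ⟨hint, ?_⟩
  have hcases : (∃ A, Harm T y A) ∨ ∃ a' b' c' d', DPt T y a' b' c' d' := by
    by_cases hD : ∃ a b c d, DPt T y a b c d
    · exact Or.inr hD
    · left
      exact h.harm_of_noD hmin hy (h.exists_inside hy fun x hx => h4 y x hx hy.ge)
        fun a b c d h => hD ⟨a, b, c, d, h⟩
  rcases hcases with ⟨B, hB⟩ | ⟨p, q, r, s, hD⟩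
  · -- harmless
    right
    have hnoacc : ¬ ∃ᶠ w in 𝓝 y, T w = {a, b} := fun hfr =>
      (N hz hyz hy).2 (h.acc_of_freq hz hyz hfr)
    have hmy : ∀ s, s ⊆ T y → s ≠ T y → ¬ ∀ᶠ w in 𝓝 y, Suf U s w := hmin y (by rw [hy])
    have hab : a ∈ B ↔ b ∈ B := by
      constructor
      · intro ha
        by_contra hb
        exact hnoacc (hB.contact h hmy ha (by rw [hTy]; simp) hb)
      · intro hb
        by_contra ha
        refine hnoacc ?_
        have := hB.contact h hmy hb (show a ∈ T y by rw [hTy]; simp) ha
        rwa [pair_comm] at this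
    by_cases ha : a ∈ B
    · have : ({a, b} : Set (Fin 6)) = B := by
        refine Set.eq_of_subset_of_ncard_le ?_ (by rw [hB.cardA, Set.ncard_pair hz.ab])
          (Set.toFinite _)
        rintro i (h1 | h1)
        · rw [h1]; exact ha
        · rw [mem_singleton_iff] at h1; rw [h1]; exact hab.1 ha
      rw [this]; exact hB
    · exfalso
      have hb : b ∉ B := fun hb => ha (hab.2 hb)
      have hBef : B = {e, f} := by
        refine Set.eq_of_subset_of_ncard_le (fun i hi => ?_)
          (by rw [hB.cardA, Set.ncard_pair hef]) (Set.toFinite _)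
        have h1 := hB.sub hi
        rw [hTy] at h1
        rcases h1 with h1 | h1 | h1 | h1
        · exact absurd (h1 ▸ hi) ha
        · exact absurd (h1 ▸ hi) hb
        · left; exact h1
        · right; exact h1
      rw [hBef] at hB
      refine h.no_harm_contactL (fun z hz s hs hne => hmin z hz s hs hne) h4 hz hyz hTy hall he hf hB
        (fun v hA _ => N.end3L h4 hz.swap hA) fun w a' b' c' d' hD hyw => ?_
      by_contra h3
      push Not at h3
      refine (N hD hyw hy).1 ?_
      have hT : T y ∩ T w ⊆ {a', b'} ∪ {c', d'} := by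
        rintro i ⟨-, h2⟩
        rw [hD.pal] at h2
        rcases h2 with h2 | h2 | h2 | h2
        · exact Or.inl (Or.inl h2)
        · exact Or.inl (Or.inr h2)
        · exact Or.inr (Or.inl h2)
        · exact Or.inr (Or.inr h2)
      constructor
      · by_contra hne
        rw [Set.not_nonempty_iff_eq_empty] at hne
        have : T y ∩ T w ⊆ {c', d'} := fun i hi => (hT hi).resolve_left fun h5 => by
          have : i ∈ T y ∩ {a', b'} := ⟨hi.1, h5⟩
          rw [hne] at this; exact this
        have := Set.ncard_le_ncard this (Set.toFinite _)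
        rw [Set.ncard_pair hD.cd] at this
        omega
      · by_contra hne
        rw [Set.not_nonempty_iff_eq_empty] at hne
        have : T y ∩ T w ⊆ {a', b'} := fun i hi => (hT hi).resolve_right fun h5 => by
          have : i ∈ T y ∩ {c', d'} := ⟨hi.1, h5⟩
          rw [hne] at this; exact this
        have := Set.ncard_le_ncard this (Set.toFinite _)
        rw [Set.ncard_pair hD.ab] at this
        omega
  · -- two-pair
    left
    have hzy : dist z y = 1 := by rw [dist_comm]; exact hyz
    have hnb := (N hD hzy hz.card).1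
    have haz : a ∈ T z := by rw [hz.pal]; simp
    have hbz : b ∈ T z := by rw [hz.pal]; simp
    have hay : a ∈ T y := by rw [hTy]; simp
    have hby : b ∈ T y := by rw [hTy]; simp
    -- `a` and `b` are in the same pair
    have key : ∀ {p q r s : Fin 6}, DPt T y p q r s →
        ¬ ((T z ∩ {p, q}).Nonempty ∧ (T z ∩ {r, s}).Nonempty) → (a = p ∨ a = q) →
        ∃ e f, DPt T y a b e f := by
      intro p q r s hD hnb hap
      have hb : b = p ∨ b = q := by
        by_contra hcon
        push Not at hcon
        have h1 := hby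
        rw [hD.pal] at h1
        refine hnb ⟨⟨a, haz, hap⟩, ⟨b, hbz, ?_⟩⟩
        rcases h1 with h1 | h1 | h1 | h1
        · exact absurd h1 hcon.1
        · exact absurd h1 hcon.2
        · left; exact h1
        · right; exact h1
      refine ⟨r, s, hD.relabel (Or.inl ⟨?_, rfl⟩)⟩
      refine Set.eq_of_subset_of_ncard_le ?_ (by rw [Set.ncard_pair hz.ab, Set.ncard_pair hD.ab])
        (Set.toFinite _)
      rintro i (h1 | h1)
      · rw [h1]; exact hap
      · rw [mem_singleton_iff] at h1; rw [h1]; exact hb
    have h1 := hay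
    rw [hD.pal] at h1
    rcases h1 with h1 | h1 | h1 | h1
    · exact key hD hnb (Or.inl h1)
    · exact key hD hnb (Or.inr h1)
    · exact key hD.swap (fun h2 => hnb ⟨h2.2, h2.1⟩) (Or.inl h1)
    · exact key hD.swap (fun h2 => hnb ⟨h2.2, h2.1⟩) (Or.inr h1)

/-- **Contacts.** -/
theorem tieL (N : NX T) (h : Irr U T) (hmin : Mn U T) (h4 : Loc4 T) {z : ℂ}
    {a b c d : Fin 6} (hz : DPt T z a b c d) {y : ℂ} (hyz : dist y z = 1)
    (hy : (T y).ncard = 4) :
    (T y ∩ T z = {a, b} ∧ ((∃ e f, DPt T y a b e f) ∨ Harm T y {a, b})) ∨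
      (T y ∩ T z = {c, d} ∧ ((∃ e f, DPt T y c d e f) ∨ Harm T y {c, d})) := by
  have hnb := (N hz hyz hy).1
  by_cases hcd : (T y ∩ {c, d}).Nonempty
  · right
    have hab : ¬ (T y ∩ {a, b}).Nonempty := fun h1 => hnb ⟨h1, hcd⟩
    exact N.tie_auxL h hmin h4 hz.swap hyz hy (fun h1 => hab ⟨a, h1, by simp⟩)
      fun h1 => hab ⟨b, h1, by simp⟩
  · left
    exact N.tie_auxL h hmin h4 hz hyz hy (fun h1 => hcd ⟨c, h1, by simp⟩)
      fun h1 => hcd ⟨d, h1, by simp⟩

end NX

end Vale.Agent.P032.Six
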