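import Vale.Agent.P032.R2.H833.NetW2
import Vale.Agent.P032.S5.H843.Hand5
import Vale.Agent.P032.S5.H138.PairV

/-!
# P032, W4.TOP: the statement in the plane from the statement on frames with at most four colours
-/

open Set Filter Topology Metric

noncomputable section

namespace Vale.Agent.P032.Six

open Vale.Agent.P032.S5.H843 Vale.Agent.P032.S5.H138 Vale.Agent.P032.S5.H926

variable {U : Fin 6 → Set ℂ} {T : ℂ → Set (Fin 6)}

/-- with at most four colours there is a two-pair point -/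
theorem Irr.exists_dpt (h : Irr U T) (hmin : Mn U T) (h4 : ∀ z, (T z).ncard ≤ 4) :
    ∃ z a b c d, DPt T z a b c d := by
  by_contra hcon
  refine h.coreD_four' hmin h4 fun z v _ _ hz => ?_
  rcases hz with h5 | ⟨a, b, c, d, hD⟩
  · have := h4 z
    omega
  · exact hcon ⟨z, a, b, c, d, hD⟩

/-- **The frame with at most four colours.** -/
theorem exists_T_four {U : Fin 6 → Set ℂ}
    (hU : ∀ i, Maximal (fun W : Set ℂ => IsOpen W ∧ ∀ x ∈ W, ∀ y ∈ W, dist x y ≠ 1) (U i))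
    (hd : Dense (⋃ i, U i)) (h4 : ∀ z, z ∉ XU U 4) :
    ∃ T, Irr U T ∧ Mn U T ∧ ∀ z, (T z).ncard ≤ 4 := by
  have hex : ∀ z, ∃ s : Set (Fin 6), s.ncard ≤ 4 ∧
      ∀ᶠ w in 𝓝 z, ∃ i ∈ s, w ∈ U i ∨ (w ∈ XX U ∧ i ∈ Pal U w) := by
    intro z
    have hz := h4 z
    simp only [XU, mem_ofPred_eq] at hz
    push Not at hz
    obtain ⟨s, hs, hsz⟩ := hz
    exact ⟨s, hs, suf_of_notMem hd hsz⟩
  obtain ⟨T, hT, hmin, hle⟩ := exists_frameN (N := fun _ => 4) (Mx_of_maximal hU hd)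
    (fun i x hx => (mem_iff_of_maximal (hU i) x).2 hx) (fun x => by simp) (fun _ => by norm_num)
    (fun z _ => hex z)
  exact ⟨T, hT, hmin, hle⟩

/-- **Statement in the plane.** -/
theorem exists_fiveV_of
    (top : ∀ (V : Fin 6 → Set ℂ) (T : ℂ → Set (Fin 6)), Irr V T → Mn V T →
      (∀ z, (T z).ncard ≤ 4) → False)
    {U : Fin 6 → Set (EuclideanSpace ℝ (Fin 2))}
    (hU : ∀ i, Maximal (fun W : Set (EuclideanSpace ℝ (Fin 2)) =>
      IsOpen W ∧ ∀ x ∈ W, ∀ y ∈ W, dist x y ≠ 1) (U i))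
    (hd : Dense (⋃ i, U i)) :
    ∃ z, z ∈ XU U 4 := by
  by_contra hcon
  obtain ⟨T, h1, h2, h3⟩ := exists_T_four (U := fun i => φ ⁻¹' U i)
    (fun i => maximal_preimage (hU i) φ) (by
      rw [← preimage_iUnion]
      exact hd.preimage φ.toHomeomorph.isOpenMap)
    (fun z hz => hcon ⟨φ z, hXU 4 z hz⟩)
  exact top _ T h1 h2 h3

/-- with at most four colours, the four statements of the ring analysis are contradictory -/
theorem HubC.empty (H : HubC U T) (hmin : Mn U T) : False := by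
  obtain ⟨z, a, b, c, d, hz⟩ := H.irr.exists_dpt hmin H.le4
  exact H.false hz

/-- **W4.TOP.** If the ring analysis delivers `HubC` for all frames with at most four colours, then
every maximal family has a point near which no four of the sets suffice. -/
theorem exists_fiveV_of_ring
    (ring : ∀ (V : Fin 6 → Set ℂ) (T : ℂ → Set (Fin 6)), Irr V T → Mn V T →
      (∀ z, (T z).ncard ≤ 4) → HubC V T)
    {U : Fin 6 → Set (EuclideanSpace ℝ (Fin 2))}
    (hU : ∀ i, Maximal (fun W : Set (EuclideanSpace ℝ (Fin 2)) =>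
      IsOpen W ∧ ∀ x ∈ W, ∀ y ∈ W, dist x y ≠ 1) (U i))
    (hd : Dense (⋃ i, U i)) :
    ∃ z, ∀ s : Set (Fin 6), s.ncard ≤ 4 → z ∈ closure ((⋃ j, U j) \ ⋃ i ∈ s, U i) := by
  obtain ⟨z, hz⟩ := exists_fiveV_of (fun V T h hmin h4 => (ring V T h hmin h4).empty hmin) hU hd
  exact ⟨z, hz⟩

end Vale.Agent.P032.Six
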