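import Vale.Agent.P032.R2.H479.StopV

/-!
# P032: frames in which points with five colours see only points with three colours

`exists_open_avoid2` : neighbourhoods of two closed sets avoiding a closed relation of bounded range.
`exists_T_stop5` : the frame for the relation `XV` when points of order `> 4` have no points of order
`> 3` at distance one.
`exists_stopV5_of` : the statement in the plane.
-/

open Set Filter Topology Metric

noncomputable section

namespace Vale.Agent.P032.Six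

open Vale.Agent.P032.S5.H843 Vale.Agent.P032.S5.H138 Vale.Agent.P032.S5.H926

/-- neighbourhoods of two closed sets avoiding a closed relation of bounded range -/
theorem exists_open_avoid2 {K : Set (ℂ × ℂ)} {X Y : Set ℂ} (hK : IsClosed K) (hX : IsClosed X)
    (hY : IsClosed Y) (hK1 : ∀ p ∈ K, dist p.1 p.2 = 1) (hfree : ∀ x ∈ X, ∀ y ∈ Y, (x, y) ∉ K) :
    ∃ V W, IsOpen V ∧ IsOpen W ∧ X ⊆ V ∧ Y ⊆ W ∧ ∀ x ∈ V, ∀ y ∈ W, (x, y) ∉ K := by
  have hrad : ∀ (L : Set (ℂ × ℂ)) (X Y : Set ℂ), IsClosed L → IsClosed Y →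
      (∀ p ∈ L, dist p.1 p.2 = 1) →
      (∀ x ∈ X, ∀ y ∈ Y, (x, y) ∉ L) → ∀ x, ∃ r : ℝ, 0 < r ∧ (x ∈ X → ∀ y ∈ Y, ∀ x' y',
        (x', y') ∈ L → dist x x' < r → dist y y' < r → False) := by
    intro L X Y hL hY hL1 hLf x
    by_cases hx : x ∈ X
    · have hC : IsCompact (({x} : Set ℂ) ×ˢ (Y ∩ closedBall x 3)) :=
        isCompact_singleton.prod ((isCompact_closedBall x 3).inter_left hY)
      have hdis : Disjoint (({x} : Set ℂ) ×ˢ (Y ∩ closedBall x 3)) L := by
        rw [Set.disjoint_left]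
        rintro ⟨u, v⟩ ⟨hu, hv⟩ huv
        rw [mem_singleton_iff] at hu
        simp only at hu hv
        rw [hu] at huv
        exact hLf x hx v hv.1 huv
      obtain ⟨δ, hδ, hdd⟩ := hdis.exists_thickenings hC hL
      refine ⟨min δ 1, lt_min hδ one_pos, fun _ y hy x' y' hL' hxx hyy => ?_⟩
      have hin : (x', y') ∈ thickening δ (({x} : Set ℂ) ×ˢ (Y ∩ closedBall x 3)) := by
        rw [mem_thickening_iff]
        refine ⟨(x, y), ⟨rfl, hy, ?_⟩, ?_⟩
        · rw [mem_closedBall]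
          have h1 := dist_triangle4 y y' x' x
          have h2 : dist y' x' = 1 := by rw [dist_comm]; exact hL1 _ hL'
          have h3 := hxx.trans_le (min_le_right δ 1)
          have h4 := hyy.trans_le (min_le_right δ 1)
          rw [dist_comm] at h3
          linarith
        · rw [Prod.dist_eq]
          refine max_lt ?_ ?_
          · rw [dist_comm]; exact hxx.trans_le (min_le_left _ _)
          · rw [dist_comm]; exact hyy.trans_le (min_le_left _ _)
      exact Set.disjoint_left.1 hdd hin (self_subset_thickening hδ _ hL')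
    · exact ⟨1, one_pos, fun h => absurd h hx⟩
  choose r hr0 hr using hrad K X Y hK hY hK1 hfree
  choose t ht0 ht using hrad (Prod.swap ⁻¹' K) Y X (hK.preimage continuous_swap) hX
    (fun p hp => by rw [dist_comm]; exact hK1 _ hp) (fun x hx y hy h => hfree y hy x hx h)
  refine ⟨⋃ x ∈ X, ball x (r x), ⋃ y ∈ Y, ball y (t y), isOpen_biUnion fun x _ => isOpen_ball,
    isOpen_biUnion fun x _ => isOpen_ball,
    fun x hx => mem_iUnion₂.2 ⟨x, hx, mem_ball_self (hr0 x)⟩,
    fun x hx => mem_iUnion₂.2 ⟨x, hx, mem_ball_self (ht0 x)⟩,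
    fun p hp q hq hpq => ?_⟩
  obtain ⟨x, hx, hpx⟩ := mem_iUnion₂.1 hp
  obtain ⟨y, hy, hqy⟩ := mem_iUnion₂.1 hq
  rw [mem_ball, dist_comm] at hpx hqy
  rcases le_total (r x) (t y) with h1 | h1
  · exact ht y hy x hx q p hpq hqy (hpx.trans_le h1)
  · exact hr x hx y hy p q hpq hpx (hqy.trans_le h1)

/-- the relation holds for limits of order `> 3` only, and points of order `> 4` have no points of
order `> 3` at distance one -/
theorem exists_T_stop5 {U : Fin 6 → Set ℂ}
    (hU : ∀ i, Maximal (fun W : Set ℂ => IsOpen W ∧ ∀ x ∈ W, ∀ y ∈ W, dist x y ≠ 1) (U i))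
    (hd : Dense (⋃ i, U i)) (h5 : ∀ z, z ∉ XU U 5)
    (h54 : ∀ z ∈ XU U 4, ∀ z' ∈ XU U 3, dist z z' ≠ 1)
    (hX : ∀ z ∈ XU U 3, ∀ z' ∈ XU U 3, (z, z') ∉ closure {p : ℂ × ℂ | XV U p.1 p.2}) :
    ∃ T, Irr U T ∧ Mn U T ∧ (∀ z, (T z).ncard ≤ 5) ∧
      (∀ z y, dist y z = 1 → 4 ≤ (T z).ncard → (T y).ncard ≤ 4) ∧ NX T := by
  classical
  have hK1 : ∀ p ∈ closure {p : ℂ × ℂ | XV U p.1 p.2}, dist p.1 p.2 = 1 := by
    intro p hp
    have hc : IsClosed {p : ℂ × ℂ | dist p.1 p.2 = 1} :=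
      isClosed_eq (continuous_fst.dist continuous_snd) continuous_const
    exact closure_minimal (fun p hp => hp.1) hc hp
  obtain ⟨V0, hV0, hXV0, hfree0⟩ := exists_open_avoid isClosed_closure (isClosed_XU U 3) hK1 hX
  obtain ⟨W5, V1, hW5, hV1, hXW5, hXV1, hfree1⟩ := exists_open_avoid2
    (K := {p : ℂ × ℂ | dist p.1 p.2 = 1})
    (isClosed_eq (continuous_fst.dist continuous_snd) continuous_const)
    (isClosed_XU U 4) (isClosed_XU U 3) (fun p hp => hp) (fun x hx y hy => h54 x hx y hy)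
  set V := V0 ∩ V1 with hVdef
  have hV : IsOpen V := hV0.inter hV1
  have hXV : XU U 3 ⊆ V := fun x hx => ⟨hXV0 hx, hXV1 hx⟩
  have hfree : ∀ x ∈ V, ∀ y ∈ V, (x, y) ∉ closure {p : ℂ × ℂ | XV U p.1 p.2} :=
    fun x hx y hy => hfree0 x hx.1 y hy.1
  set W := W5 ∩ V with hWdef
  have hW : IsOpen W := hW5.inter hV
  have h43 : XU U 4 ⊆ XU U 3 := fun z hz s hs => hz s (by omega)
  have hXW : XU U 4 ⊆ W := fun x hx => ⟨hXW5 hx, hXV (h43 hx)⟩
  have hWV : ∀ x ∈ W, ∀ y ∈ V, dist x y ≠ 1 := fun x hx y hy => hfree1 x hx.1 y hy.2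
  set N : ℂ → ℕ := fun x => if x ∈ W then 5 else if x ∈ V then 4 else 3 with hNdef
  have hNs : ∀ x, ∀ᶠ w in 𝓝 x, N x ≤ N w := by
    intro x
    by_cases hx : x ∈ W
    · filter_upwards [hW.mem_nhds hx] with w hw
      simp only [hNdef, if_pos hx, if_pos hw, le_refl]
    · by_cases hx' : x ∈ V
      · filter_upwards [hV.mem_nhds hx'] with w hw
        simp only [hNdef, if_neg hx, if_pos hx', if_pos hw]
        split_ifs <;> omega
      · filter_upwards with w
        simp only [hNdef, if_neg hx, if_neg hx']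
        split_ifs <;> omega
  have hN3 : ∀ x, 3 ≤ N x := by
    intro x
    simp only [hNdef]
    split_ifs <;> omega
  have hex : ∀ n z, z ∉ XU U n → ∃ s : Set (Fin 6), s.ncard ≤ n ∧
      ∀ᶠ w in 𝓝 z, ∃ i ∈ s, w ∈ U i ∨ (w ∈ XX U ∧ i ∈ Pal U w) := by
    intro n z hz
    simp only [XU, mem_ofPred_eq] at hz
    push Not at hz
    obtain ⟨s, hs, hsz⟩ := hz
    exact ⟨s, hs, suf_of_notMem hd hsz⟩
  obtain ⟨T, hT, hmin, hle⟩ := exists_frameN (Mx_of_maximal hU hd)
    (fun i x hx => (mem_iff_of_maximal (hU i) x).2 hx) hNs hN3 (fun z _ => by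
      by_cases hz : z ∈ W
      · obtain ⟨s, h1, h2⟩ := hex 5 z (h5 z)
        exact ⟨s, by simpa only [hNdef, if_pos hz] using h1, h2⟩
      · by_cases hz' : z ∈ V
        · obtain ⟨s, h1, h2⟩ := hex 4 z fun h => hz (hXW h)
          exact ⟨s, by simpa only [hNdef, if_neg hz, if_pos hz'] using h1, h2⟩
        · obtain ⟨s, h1, h2⟩ := hex 3 z fun h => hz' (hXV h)
          exact ⟨s, by simpa only [hNdef, if_neg hz, if_neg hz'] using h1, h2⟩)
  have hV4 : ∀ v, 4 ≤ (T v).ncard → v ∈ V := by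
    intro v hv
    by_contra hcon
    have hcon' : v ∉ W := fun h => hcon h.2
    have h1 := hle v
    simp only [hNdef, if_neg hcon', if_neg hcon] at h1
    omega
  have hW5 : ∀ v, 5 ≤ (T v).ncard → v ∈ W := by
    intro v hv
    by_contra hcon
    have h1 := hle v
    simp only [hNdef, if_neg hcon, if_pos (hV4 v (by omega))] at h1
    omega
  refine ⟨T, hT, hmin, fun z => (hle z).trans ?_, fun z y hyz hz => ?_,
    fun {z a b c d} hz {y} hyz hy => ?_⟩
  · simp only [hNdef]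
    split_ifs <;> omega
  · by_contra hcon
    push Not at hcon
    exact hWV y (hW5 y (by omega)) z (hV4 z hz) hyz
  · have key : (((T y ∩ {a, b}).Nonempty ∧ (T y ∩ {c, d}).Nonempty) ∨ Acc T z {a, b} y) →
        False := fun hX =>
      hfree z (hV4 z (ncard_DPt hz)) y (hV4 y (by rw [hy]))
        (subset_closure (XV_of hT hmin hd hz hyz hy hX))
    exact ⟨fun h1 => key (Or.inl h1), fun h1 => key (Or.inr h1)⟩

section plane

variable {U : Fin 6 → Set (EuclideanSpace ℝ (Fin 2))}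

/-- **Stopped arcs, statement in the plane**, points of order `> 4` away from points of order
`> 3`. -/
theorem exists_stopV5_of
    (top : ∀ (V : Fin 6 → Set ℂ) (T : ℂ → Set (Fin 6)), Irr V T → Mn V T →
      (∀ z, (T z).ncard ≤ 5) →
      (∀ z y, dist y z = 1 → 4 ≤ (T z).ncard → (T y).ncard ≤ 4) → NX T → False)
    (hU : ∀ i, Maximal (fun W : Set (EuclideanSpace ℝ (Fin 2)) =>
      IsOpen W ∧ ∀ x ∈ W, ∀ y ∈ W, dist x y ≠ 1) (U i))
    (hd : Dense (⋃ i, U i)) :
    (∃ z, z ∈ XU U 5) ∨ ∃ z z', dist z z' = 1 ∧ z ∈ XU U 3 ∧ z' ∈ XU U 3 ∧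
      (z ∈ XU U 4 ∨ (z, z') ∈ closure {p : EuclideanSpace ℝ (Fin 2) × EuclideanSpace ℝ (Fin 2) |
        XV U p.1 p.2}) := by
  by_contra hcon
  push Not at hcon
  obtain ⟨h5, hX⟩ := hcon
  have hcl1 : ∀ z z' : ℂ, (z, z') ∈ closure {p : ℂ × ℂ | XV (fun i => φ ⁻¹' U i) p.1 p.2} →
      (φ z, φ z') ∈ closure {p : EuclideanSpace ℝ (Fin 2) × EuclideanSpace ℝ (Fin 2) |
        XV U p.1 p.2} := by
    intro z z' hz
    have hc : Continuous (Prod.map φ φ) := φ.continuous.prodMap φ.continuous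
    have h1 := image_closure_subset_closure_image hc (mem_image_of_mem _ hz)
    refine closure_mono ?_ h1
    rintro _ ⟨p, hp, rfl⟩
    exact hXV _ _ hp
  have hdist : ∀ p ∈ closure {p : ℂ × ℂ | XV (fun i => φ ⁻¹' U i) p.1 p.2},
      dist p.1 p.2 = 1 := by
    intro p hp
    have hc : IsClosed {p : ℂ × ℂ | dist p.1 p.2 = 1} :=
      isClosed_eq (continuous_fst.dist continuous_snd) continuous_const
    exact closure_minimal (fun p hp => hp.1) hc hp
  obtain ⟨T, h1, h2, h3, h4, h6⟩ := exists_T_stop5 (U := fun i => φ ⁻¹' U i)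
    (fun i => maximal_preimage (hU i) φ) (by
      rw [← preimage_iUnion]
      exact hd.preimage φ.toHomeomorph.isOpenMap)
    (fun z hz => h5 (φ z) (hXU 5 z hz))
    (fun z hz z' hz' h => (hX (φ z) (φ z') (by rw [φ.dist_map]; exact h)
      (hXU 3 z fun s hs => hz s (by omega)) (hXU 3 z' hz')).1 (hXU 4 z hz))
    (fun z hz z' hz' h => (hX (φ z) (φ z') (by rw [φ.dist_map]; exact hdist _ h) (hXU 3 z hz)
      (hXU 3 z' hz')).2 (hcl1 z z' h))
  exact top _ T h1 h2 h3 h4 h6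

end plane

end Vale.Agent.P032.Six
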