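import Vale.Agent.P032.R2.H479.Meet
import Vale.Agent.P032.S5.H920.NoDStar

/-!
# P032: no D-star pair in the frame with two-pair points; two-pair points do not accumulate
-/

open Set Filter Topology Metric

noncomputable section

namespace Vale.Agent.P032.Six

variable {U : Fin 6 → Set ℂ} {T : ℂ → Set (Fin 6)}

namespace Hub

variable {z y : ℂ} {A B : Set (Fin 6)}

/-- next partner, in terms of the rotation -/
theorem next_rot (F : Hub U T) (D : DS T z y A B) {w : ℂ} (hw : w ^ 2 = w - 1)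
    (o1 : OffS T z (z + (y - z) * w)) (o2 : OffS T z (z + (y - z) * w ^ 2)) :
    DS T z (z + (y - z) * w ^ 2) A B := by
  have h := F.irr
  have hn : ‖y - z‖ = 1 := by rw [← dist_eq_norm]; exact D.d
  have hwn := om_norm hw
  obtain ⟨w0, w1, w2, w3, w4⟩ := om_ne hw
  have hyz : y - z ≠ 0 := by
    intro h5; rw [h5, norm_zero] at hn; exact zero_ne_one hn
  have d1 : dist (z + (y - z) * w) z = 1 := by
    rw [dist_eq_norm, add_sub_cancel_left, norm_mul, hn, hwn, one_mul]
  have d2 : dist (z + (y - z) * w ^ 2) z = 1 := by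
    rw [dist_eq_norm, add_sub_cancel_left, norm_mul, norm_pow, hn, hwn]; norm_num
  have d3 : dist (z + (y - z) * w ^ 2) (z + (y - z) * w) = 1 := by
    rw [dist_eq_norm, show z + (y - z) * w ^ 2 - (z + (y - z) * w) = (y - z) * (w ^ 2 - w) by ring,
      show w ^ 2 - w = -1 by linear_combination hw, norm_mul, hn]
    norm_num
  have d4 : dist (z + (y - z) * w) y = 1 := by
    rw [dist_eq_norm, show z + (y - z) * w - y = -((y - z) * (1 - w)) by ring, norm_neg, norm_mul,
      hn, om_norm' hw]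
    norm_num
  have hT := D.tip h hw (F.le4 _) o1 o2
  obtain ⟨A₁, hA₁, hne1, hne2⟩ := F.mixed D d1 d4 hT
  refine F.next D d1 d2 d3 (fun h6 => ?_) hA₁ hT hne1 hne2 (D.fl_mem h o2 (D.fl2 h hw o1))
  have h7 : (y - z) * (w * (1 - 2 * w)) = 0 := by linear_combination h6
  rcases mul_eq_zero.1 h7 with h8 | h8
  · exact hyz h8
  · rcases mul_eq_zero.1 h8 with h9 | h9
    · exact w0 h9
    · exact w4 (by linear_combination -h9)

/-- **The arcs come to one of the two directions.** -/
theorem meets (F : Hub U T) (D : DS T z y A B) {w : ℂ} (hw : w ^ 2 = w - 1)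
    (hside : ∃ m ∈ T z \ A, ∀ᶠ p in 𝓝 z, 1 < dist p y → m ∉ T p)
    (o1 : OffS T z (z + (y - z) * w)) (o2 : OffS T z (z + (y - z) * w ^ 2)) : False := by
  have h := F.irr
  have hn : ‖y - z‖ = 1 := by rw [← dist_eq_norm]; exact D.d
  have hwn := om_norm hw
  have hw' : (1 - w) ^ 2 = (1 - w) - 1 := by linear_combination hw
  obtain ⟨w0, w1, w2, w3, w4⟩ := om_ne hw
  have hyz : y - z ≠ 0 := by
    intro h5; rw [h5, norm_zero] at hn; exact zero_ne_one hn
  -- the partner of `z`
  have Dr := F.next_rot D hw o1 o2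
  -- the partner of `y`
  have e1 : y + (z - y) * (1 - w) = z + (y - z) * w := by ring
  have e2 : y + (z - y) * (1 - w) ^ 2 = y + (y - z) * w := by
    linear_combination (z - y) * hw
  have Ds : DS T y (y + (y - z) * w) B A := by
    have := F.next_rot D.symm hw' (by rw [e1]; exact D.off2 h hw o2) (by
      rw [e2]
      have := D.off h o1
      rwa [show z + (y - z) * w + (y - z) = y + (y - z) * w by ring] at this)
    rwa [e2] at this
  set r := z + (y - z) * w ^ 2 with hr
  set t := 2 * z - y with ht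
  have dt : dist t z = 1 := by
    rw [dist_eq_norm, ht, show 2 * z - y - z = -(y - z) by ring, norm_neg, hn]
  have dtr : dist t r = 1 := by
    rw [dist_eq_norm, ht, hr,
      show 2 * z - y - (z + (y - z) * w ^ 2) = -((y - z) * w) by linear_combination -(y - z) * hw,
      norm_neg, norm_mul, hn, hwn, one_mul]
  -- `t` on the circle about `z`
  have f1 : Fl T z t B := by
    have := D.fl_rot h hw o2 (D.fl2 h hw o1)
    rwa [show z + (r - z) * w = t by rw [hr, ht]; linear_combination (y - z) * (w + 1) * hw] at this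
  have hBt : B ⊆ T t := D.fl_mem h (D.off_y' h) f1
  -- `t` on the circle about `r`
  have f2 : Fl T r t A := by
    have := Dr.symm.fl_rot h hw' (Dr.symm.off_y h) (Dr.symm.fl_y h)
    rwa [show r + (z - r) * (1 - w) = t by
      rw [hr, ht]; linear_combination (y - z) * (w + 1) * hw] at this
  have o3 : OffS T r t := by
    -- direction `- (y - z) w` at `z`
    have h1 := Ds.off_y' h
    have h2 := D.symm.off h h1
    have h3 := Dr.off h h2
    rwa [show 2 * y - (y + (y - z) * w) + (z - y) + (r - z) = t by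
      rw [hr, ht]; linear_combination (y - z) * hw] at h3
  have hAt : A ⊆ T t := Dr.symm.fl_mem h o3 f2
  have hTt := D.union (F.le4 t) hAt hBt
  obtain ⟨At, hAt', hne, -⟩ := F.mixed Dr dt dtr hTt
  obtain ⟨m, hm, hmev⟩ := hside
  obtain ⟨m', hm', hmm'⟩ : ∃ m' ∈ T z \ A, ∀ i ∈ T z \ A, i = m ∨ i = m' := by
    obtain ⟨a, b, hab, hC⟩ := Set.ncard_eq_two.1 D.hz.cardC
    rw [hC] at hm ⊢
    rcases hm with rfl | hm
    · exact ⟨b, by simp, fun i hi => hi⟩
    · have hm : m = b := hm
      subst hm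
      exact ⟨a, by simp, fun i hi => hi.symm⟩
  -- the circle about `t` carries `m'` near `z`
  have key : ∀ᶠ q in 𝓝[sphere t 1] z, m' ∈ T q := by
    filter_upwards [mem_nhdsWithin_of_mem_nhds hmev, mem_nhdsWithin_of_mem_nhds (h.nhd z),
      self_mem_nhdsWithin] with q h1 h2 h3
    by_cases hqz : q = z
    · rw [hqz]; exact hm'.1
    have h3 : dist q t = 1 := h3
    have h4 : 1 < dist q y := by
      have h5 : dist q t ^ 2 + dist q y ^ 2 = 2 * dist q z ^ 2 + 2 := by
        have h6 := parallelogram_law_with_norm ℝ (q - z) (y - z)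
        rw [show q - z + (y - z) = q - t by rw [ht]; ring,
          show q - z - (y - z) = q - y by ring, ← dist_eq_norm, ← dist_eq_norm, ← dist_eq_norm,
          hn] at h6
        nlinarith
      have h6 : 0 < dist q z := dist_pos.2 hqz
      rw [h3] at h5
      nlinarith [dist_nonneg (x := q) (y := y)]
    have h5 := h1 h4
    by_contra hcon
    have h6 : T q ⊆ A := by
      intro i hi
      by_contra hiA
      rcases hmm' i ⟨h2 hi, hiA⟩ with rfl | rfl
      · exact h5 hi
      · exact hcon hi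
    have h7 := hAt'.h1 q h3 (h6.trans (by rw [hTt]; exact subset_union_left))
    exact hne (Set.eq_of_subset_of_ncard_le (h7.trans h6) (by rw [hAt'.cardA, D.hz.cardA])
      (Set.toFinite _))
  have hmr : m' ∈ T r := by
    have : m' ∈ T r \ B := by rw [← Dr.C]; exact hm'
    exact this.1
  rcases h.wp (by rw [dist_comm]; exact dt) key (by rw [dist_comm]; exact Dr.d) hmr with h1 | h1
  · have h2 : (y - z) * w = 0 := by
      rw [hr, ht] at h1; linear_combination h1 - (y - z) * hw
    rcases mul_eq_zero.1 h2 with h3 | h3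
    · exact hyz h3
    · exact w0 h3
  · have h2 : (y - z) * (w - 2) = 0 := by
      rw [hr, ht] at h1; linear_combination h1 - (y - z) * hw
    rcases mul_eq_zero.1 h2 with h3 | h3
    · exact hyz h3
    · exact w2 (by linear_combination h3)

/-- **Corner lemma** -/
theorem corner (F : Hub U T) (P : DP T z y A B) {w : ℂ} (hwz : dist w z = 1)
    (hwy : dist w y = 1) : w - z ∈ closure (Dir T z) ∨ w - y ∈ closure (Dir T z) := by
  by_contra hcon
  push Not at hcon
  have hn : ‖y - z‖ = 1 := by rw [← dist_eq_norm, dist_comm]; exact P.d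
  have hyz : y - z ≠ 0 := by
    intro h5; rw [h5, norm_zero] at hn; exact zero_ne_one hn
  set v := (w - z) / (y - z) with hv
  have e1 : (y - z) * v = w - z := by rw [hv]; field_simp
  have h1 : ‖v‖ = 1 := by
    rw [hv, norm_div, hn, div_one, ← dist_eq_norm]; exact hwz
  have h2 : ‖v - 1‖ = 1 := by
    have : v - 1 = (w - y) / (y - z) := by
      rw [hv]; field_simp; ring
    rw [this, norm_div, hn, div_one, ← dist_eq_norm]; exact hwy
  have hom := om_of h1 h2
  have e2 : (y - z) * v ^ 2 = w - y := by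
    rw [hom, mul_sub, e1]; ring
  refine F.meets P.toDS hom (P.hz.side F.irr P.hy P.hC (by rw [dist_comm]; exact P.d)) ?_ ?_
  · rw [e1]; exact offS_of_dir hcon.1
  · rw [e2]; exact offS_of_dir hcon.2

theorem loc (F : Hub U T) : H920.Loc T where
  dir_eq P := P.dir_eq F.irr
  not_axis P := P.not_axis F.irr
  ends P _ hξ hcl hn := F.ends P hξ hcl hn
  corner P _ hwz hwy := F.corner P hwz hwy
  repro P _ hξ hne hne' _ _ _ _ _ _ hs hx hTv hv hsA hA' hs' ht hTw hw hsB hB' :=
    F.repro P hξ hne hne' hs hx hTv hv hsA hA' hs' ht hTw hw hsB hB'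
  disj P _ hξ hcl hn _ _ _ hs hTv hv hsA hA' := P.disj920 F.irr hξ hcl hn hs hTv hv hsA hA'

end Hub

namespace H920

variable {z y : ℂ} {A B : Set (Fin 6)}

/-- **no D-star pair**, from the local facts, any frame -/
theorem false_of_loc' (h : Irr U T) (L : Loc T) (P : DP T z y A B) : False := by
  have hpi := Real.pi_pos
  set n : ℂ := y - z with hn
  have hn1 : ‖n‖ = 1 := by rw [hn, ← dist_eq_norm, dist_comm]; exact P.d
  have hS : {x : ℂ | ∃ A B, DP T x (x + n) A B} = ∅ := by
    refine dstar_end _ (DO T n) (fun x _ => DO_open h n x) ?_ ?_ ?_ ?_ ?_ ?_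
    · rintro x ⟨A, B, Q⟩ h'
      have h1 := cl_Dir hn1 h'
      rw [cis_neg_pi_div_two] at h1
      refine (L.not_axis Q).2 ?_
      have e : Complex.I * n * -Complex.I = x + n - x := by
        have : Complex.I * Complex.I = -1 := Complex.I_mul_I
        linear_combination (-n) * this
      rwa [e] at h1
    · rintro x ⟨A, B, Q⟩ h'
      have h1 := cl_Dir hn1 h'
      rw [cis_pi_div_two] at h1
      refine (L.not_axis Q).1 ?_
      have e : Complex.I * n * Complex.I = x - (x + n) := by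
        have : Complex.I * Complex.I = -1 := Complex.I_mul_I
        linear_combination n * this
      rwa [e] at h1
    · rintro x ⟨A, B, Q⟩ b hb1 hb2 hb
      obtain ⟨β, hβ, hcl, hno⟩ : ∃ β, (β = b ∨ β = b + Real.pi) ∧ β ∈ closure (DO T n x) ∧
          β ∉ DO T n x := by
        rcases hb with h' | h'
        · exact ⟨b, Or.inl rfl, h'.1, h'.2⟩
        · exact ⟨b + Real.pi, Or.inr rfl, h'.1, h'.2⟩
      obtain ⟨s, hs, x', hx', hT, -⟩ := L.ends Q (norm_In hn1 β) (cl_Dir hn1 hcl) hno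
      exact Q.hz.hull_psi h hn1 Q.hy Q.hC hb1 hb2 hβ hs (by rw [hT]; simp)
    · rintro x ⟨A, B, Q⟩
      rcases L.corner Q (w := x + Complex.I * n * cis (-(Real.pi / 6))) (dist_In hn1 x _) (by
        rw [corner1]; exact dist_In hn1 _ _) with h' | h'
      · left
        rw [add_sub_cancel_left] at h'
        exact cl_DO hn1 h'
      · right
        rw [corner1, add_sub_cancel_left] at h'
        exact cl_DO hn1 h'
    · rintro x ⟨A, B, Q⟩
      rcases L.corner Q (w := x + Complex.I * n * cis (Real.pi / 6 + Real.pi))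
        (dist_In hn1 x _) (by rw [corner2]; exact dist_In hn1 _ _) with h' | h'
      · right
        rw [add_sub_cancel_left] at h'
        exact cl_DO hn1 h'
      · left
        rw [corner2, add_sub_cancel_left] at h'
        exact cl_DO hn1 h'
    · rintro x ⟨A, B, Q⟩ b hb1 hb2 hcl hno
      set ξ : ℂ := Complex.I * n * cis b with hξ
      have hξ1 : ‖ξ‖ = 1 := norm_In hn1 b
      have c1 : ξ ∈ closure (Dir T x) := cl_Dir hn1 hcl
      have c2 : ¬ T (x + ξ) ⊆ T x := hno
      obtain ⟨s, hs, x', hx', hT, A', hA', hsA, hAs⟩ := L.ends Q hξ1 c1 c2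
      have e1 : Dir T x = Dir T (x + n) := L.dir_eq Q
      have c3 : ξ ∈ closure (Dir T (x + n)) := by rw [← e1]; exact c1
      have c4 : ¬ T (x + n + ξ) ⊆ T (x + n) := by
        intro h'
        have : ξ ∈ Dir T x := by rw [e1]; exact ⟨hξ1, h'⟩
        exact c2 this.2
      obtain ⟨s', hs', t, ht, hT', B', hB', hsB, hBs⟩ := L.ends Q.symm hξ1 c3 c4
      have ne1 : ξ ≠ x - (x + n) := by
        intro h'; rw [h'] at c1; exact (L.not_axis Q).1 c1
      have ne2 : ξ ≠ x + n - x := by
        intro h'; rw [h'] at c1; exact (L.not_axis Q).2 c1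
      have R := L.repro Q hξ1 ne1 ne2 hs hx' hT hA' hsA hAs hs' ht hT' hB' hsB hBs
      obtain ⟨d1, d2, d3⟩ := L.disj Q hξ1 c1 c2 hs hT hA' hsA hAs
      have e2 : -ξ = Complex.I * n * cis (b + Real.pi) := by rw [cis_add_pi, hξ]; ring
      refine ⟨x + ξ, ⟨A', B', ?_⟩, ?_, ?_, ?_⟩
      · have e : x + ξ + n = x + n + ξ := by ring
        rw [e]; exact R
      · rw [Set.disjoint_left] at d1 ⊢
        intro t ht1 ht2
        exact d1 ((mem_DO_iff hn1).1 ht1) ((mem_DO_iff hn1).1 ht2)
      · rw [e2] at d2; exact cl_DO hn1 d2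
      · rw [e2] at d3; exact fun h' => d3 ((mem_DO_iff hn1).1 h')
  have : z ∈ {x : ℂ | ∃ A B, DP T x (x + n) A B} := ⟨A, B, by
    have e : z + n = y := by rw [hn]; ring
    rw [e]; exact P⟩
  rw [hS] at this
  exact this

end H920

namespace Hub

/-- **no D-star pair** in the frame with two-pair points -/
theorem noStar (F : Hub U T) : NoStar T := fun _ _ _ _ h h' d hC =>
  H920.false_of_loc' F.irr F.loc (DP.of F.irr h h' d hC)

/-- a limit point which is a limit of pairs -/
theorem exists_second {z : ℂ} {Q : ℂ → ℂ → Prop} (hf : ∃ᶠ x in 𝓝 z, ∃ p, dist p x = 1 ∧ Q x p) :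
    ∃ q, ∃ᶠ pr : ℂ × ℂ in 𝓝 (z, q), dist pr.2 pr.1 = 1 ∧ Q pr.1 pr.2 := by
  by_contra hcon
  push Not at hcon
  have h1 : ∀ q ∈ closedBall z 2, ∀ᶠ pr : ℂ × ℂ in 𝓝 (z, q),
      ¬ (dist pr.2 pr.1 = 1 ∧ Q pr.1 pr.2) := fun q _ => by
    exact (hcon q).mono fun pr hpr h' => hpr h'.1 h'.2
  have h2 := (isCompact_closedBall z 2).eventually_forall_of_forall_eventually
    (P := fun x p => ¬ (dist p x = 1 ∧ Q x p)) h1
  obtain ⟨x, ⟨p, hp, hQ⟩, hx1, hx2⟩ := (hf.and_eventually
    (h2.and (ball_mem_nhds z one_pos))).exists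
  refine hx1 p ?_ ⟨hp, hQ⟩
  rw [mem_closedBall]
  have := dist_triangle p x z
  have h3 : dist x z < 1 := hx2
  linarith

theorem closed_aux (F : Hub U T) {z : ℂ} {a b c d : Fin 6}
    (hf : ∃ᶠ x in 𝓝 z, x ≠ z ∧ DPt T x a b c d) (hz : Harm T z {a, b}) : False := by
  obtain ⟨x0, -, hx0⟩ := hf.exists
  have hpal : T z = {a, b, c, d} := F.irr.limit_pal F.le4 (by rw [← hx0.pal]; exact hx0.card)
    (hf.mono fun x hx => hx.2.pal)
  obtain ⟨q, hq⟩ := exists_second (z := z)
    (Q := fun x p => x ≠ z ∧ DPt T x a b c d ∧ T p = {c, d}) (hf.mono fun x hx => by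
      obtain ⟨p, hp⟩ := hx.2.arc2
      exact ⟨p, hp.1, hx.1, hx.2, hp.mem⟩)
  obtain ⟨hqz, hTq, hHq⟩ := F.star_of_lim (z := z) (q := q) (a := a) (b := b) (c := c) (d := d)
    (hq.mono fun pr hpr => ⟨hpr.2.1, hpr.2.2.1, hpr.1, hpr.2.2.2⟩) hz
  refine F.noStar z {a, b} q (T z)ᶜ hz hHq (by rw [dist_comm]; exact hqz) ?_
  rw [hTq]
  have e1 : T z \ {a, b} = {c, d} := by
    rw [hpal]
    ext i
    simp only [mem_insert_iff, mem_singleton_iff, Set.mem_sdiff]
    constructor
    · rintro ⟨h1, h2⟩; tauto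
    · rintro (rfl | rfl)
      · exact ⟨by tauto, fun h8 => h8.elim (fun h9 => hx0.ac h9.symm) fun h9 => hx0.bc h9.symm⟩
      · exact ⟨by tauto, fun h8 => h8.elim (fun h9 => hx0.ad h9.symm) fun h9 => hx0.bd h9.symm⟩
  rw [e1]
  symm
  refine Set.union_sdiff_cancel_right ?_
  rintro i ⟨h1, h2⟩
  refine h2 ?_
  rw [hpal]
  rcases h1 with rfl | h1
  · simp
  · rw [mem_singleton_iff] at h1; subst h1; simp

/-- **two-pair points do not accumulate** -/
theorem closed (F : Hub U T) {z : ℂ} {a b c d : Fin 6}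
    (hf : ∃ᶠ x in 𝓝 z, x ≠ z ∧ DPt T x a b c d) : False := by
  obtain ⟨hpal, hpairs, -, hnot⟩ := F.irr.limit_dpt F.le4 hf
  obtain ⟨x0, -, hx0⟩ := hf.exists
  have h4 : (T z).ncard = 4 := by rw [hpal, ← hx0.pal]; exact hx0.card
  rcases F.cases h4 with ⟨A, hA⟩ | ⟨a', b', c', d', hD⟩
  · obtain ⟨p, hp, hJ⟩ := hA.arc
    rcases hpairs p A hA.cardA hA.sub ⟨hp, hJ⟩ with h1 | h1
    · rw [h1] at hA
      exact F.closed_aux hf hA
    · rw [h1] at hA
      exact F.closed_aux (hf.mono fun x hx => ⟨hx.1, hx.2.swap⟩) hA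
  · -- both pairs occur
    obtain ⟨p, hp⟩ := hD.arc1
    obtain ⟨q, hq⟩ := hD.arc2
    have s1 : ({a', b'} : Set (Fin 6)) ⊆ T z := by rw [hD.pal]; rintro i (rfl | rfl) <;> simp
    have s2 : ({c', d'} : Set (Fin 6)) ⊆ T z := by rw [hD.pal]; rintro i (rfl | rfl) <;> simp
    have hne : ({a', b'} : Set (Fin 6)) ≠ {c', d'} := by
      intro h1
      have : a' ∈ ({c', d'} : Set (Fin 6)) := by rw [← h1]; simp
      rcases this with h2 | h2
      · exact hD.ac h2
      · exact hD.ad h2
    rcases hpairs p _ (Set.ncard_pair hD.ab) s1 hp with h1 | h1 <;>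
      rcases hpairs q _ (Set.ncard_pair hD.cd) s2 hq with h2 | h2
    · exact hne (h1.trans h2.symm)
    · exact hnot ⟨⟨p, h1 ▸ hp⟩, ⟨q, h2 ▸ hq⟩⟩
    · exact hnot ⟨⟨q, h2 ▸ hq⟩, ⟨p, h1 ▸ hp⟩⟩
    · exact hne (h1.trans h2.symm)

/-- the set of two-pair points is locally finite: near every point there is no other one -/
theorem discrete (F : Hub U T) (z : ℂ) :
    ∀ᶠ x in 𝓝 z, x ≠ z → ∀ a b c d, ¬ DPt T x a b c d := by
  have h1 : ∀ a b c d, ∀ᶠ x in 𝓝 z, ¬ (x ≠ z ∧ DPt T x a b c d) := fun a b c d => by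
    have := F.closed (z := z) (a := a) (b := b) (c := c) (d := d)
    by_contra hcon
    exact this hcon
  have h2 : ∀ᶠ x in 𝓝 z, ∀ a b c d, ¬ (x ≠ z ∧ DPt T x a b c d) := by
    rw [eventually_all]; intro a
    rw [eventually_all]; intro b
    rw [eventually_all]; intro c
    rw [eventually_all]; intro d
    exact h1 a b c d
  filter_upwards [h2] with x hx hxz a b c d hD
  exact hx a b c d ⟨hxz, hD⟩

end Hub

end Vale.Agent.P032.Six
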