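import Vale.Agent.P032.R2.H479.S3L
import Vale.Agent.P032.R2.H479.Five

/-!
# P032: the world with contacts of type S3 and harmless contacts is empty, orders up to five
-/

open Set Filter Topology Metric

noncomputable section

namespace Vale.Agent.P032.Six

variable {U : Fin 6 → Set ℂ} {T : ℂ → Set (Fin 6)}

/-- no five coloured points -/
theorem S3L.no_five (H : S3L U T) (hmin : Mn U T) (z : ℂ) : (T z).ncard ≠ 5 := by
  intro h5
  refine S5.H450.no_five_good H.irr hmin (fun z a b c d hz => H.okC hz) h5 fun y hy => ?_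
  by_contra h3
  push Not at h3
  have := H.le4 y z (by rw [dist_comm]; exact hy) (by omega)
  omega

/-- **the world is empty** -/
theorem S3L.empty (H : S3L U T) (hmin : Mn U T) (h5 : ∀ z, (T z).ncard ≤ 5) : False := by
  have h4 : ∀ z, (T z).ncard ≤ 4 := by
    intro z
    have h1 := h5 z
    have h2 := H.no_five hmin z
    omega
  exact S3V.empty ⟨H.irr, H.min, h4, H.tie, H.end3⟩ hmin

/-- the frame from `NX` -/
theorem NX.toS3L (N : NX T) (h : Irr U T) (hmin : Mn U T) (h4 : Loc4 T) : S3L U T :=
  ⟨h, fun z hz s hs hne => hmin z hz s hs hne, h4, fun hz _ hyz hy => N.tieL h hmin h4 hz hyz hy,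
    fun hz _ hA _ => N.end3L h4 hz hA⟩

/-- **frames with `NX` and at most five colours are impossible** -/
theorem NX.empty5 (h : Irr U T) (hmin : Mn U T) (h5 : ∀ z, (T z).ncard ≤ 5) (h4 : Loc4 T)
    (N : NX T) : False :=
  (N.toS3L h hmin h4).empty hmin h5

end Vale.Agent.P032.Six
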