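import Vale.Agent.P032.R2.H951.FinalW

/-!
# P032, the statements in the plane without the alternative of a point with a silent colour

`Act` : a point with six colours all of whose points at distance one have at most three colours
has, for every colour `i`, a point with two colours, one of them `i`, at distance one.
`rel7_of` : with `Act`, the statement in the plane for a world given by a relation of pairs, no
bound for the order, no first alternative.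
`resultW7`, `resultE7` : the worlds `WT` and `E3`, written out.
-/

set_option autoImplicit false

open Set Filter Topology Metric

noncomputable section

namespace Vale.Agent.P032.Six

open Vale.Agent.P032.S5.H843 Vale.Agent.P032.S5.H138 Vale.Agent.P032.S5.H926

/-- clean points with six colours have no silent colour -/
def Act : Prop :=
  ∀ (U : Fin 6 → Set ℂ) (T : ℂ → Set (Fin 6)), Irr U T → Mn U T → ∀ z, (T z).ncard = 6 →
    (∀ y, dist y z = 1 → (T y).ncard ≤ 3) →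
      ∀ i, ∃ q, dist q z = 1 ∧ i ∈ T q ∧ (T q).ncard = 2

section plane

variable {U : Fin 6 → Set (EuclideanSpace ℝ (Fin 2))}
  {P : (Fin 6 → Set ℂ) → (ℂ → Set (Fin 6)) → Prop} {RC : (Fin 6 → Set ℂ) → ℂ → ℂ → Prop}
  {RE : (Fin 6 → Set (EuclideanSpace ℝ (Fin 2))) → EuclideanSpace ℝ (Fin 2) →
      EuclideanSpace ℝ (Fin 2) → Prop}

/-- **Statement in the plane without bound for the order and without first alternative.** -/
theorem rel7_of (W : RelW P RC RE) (hact : Act)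
    (H5 : ∀ (V : Fin 6 → Set ℂ) (T : ℂ → Set (Fin 6)), Irr V T → Mn V T → P V T →
      (∀ z, (T z).ncard ≤ 5) → Cl5 T → False)
    (H6 : ∀ (V : Fin 6 → Set ℂ) (T : ℂ → Set (Fin 6)), Irr V T → Mn V T → P V T → Cl5 T →
      ∀ z, (T z).ncard = 6 → (∀ i, ∃ q, dist q z = 1 ∧ i ∈ T q ∧ (T q).ncard = 2) → False)
    (hU : ∀ i, Maximal (fun W : Set (EuclideanSpace ℝ (Fin 2)) =>
      IsOpen W ∧ ∀ x ∈ W, ∀ y ∈ W, dist x y ≠ 1) (U i))
    (hd : Dense (⋃ i, U i)) :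
    ∃ z z', dist z z' = 1 ∧ z ∈ XU U 3 ∧ z' ∈ XU U 3 ∧
      (z ∈ XU U 4 ∨ (z, z') ∈ closure {p : EuclideanSpace ℝ (Fin 2) ×
        EuclideanSpace ℝ (Fin 2) | RE U p.1 p.2}) := by
  have top : ∀ (V : Fin 6 → Set ℂ) (T : ℂ → Set (Fin 6)), Irr V T → Mn V T → P V T →
      (∀ z, (T z).ncard ≤ 6) → Cl5 T → False := by
    intro V T h hmin hP h6 hcl
    by_cases hex : ∃ z, (T z).ncard = 6
    · obtain ⟨z, hz⟩ := hex
      refine H6 V T h hmin hP hcl z hz (hact V T h hmin z hz fun y hy => ?_)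
      by_contra hcon
      exact hcl z y (by rw [dist_comm]; exact hy) (by omega) (by omega)
    · push Not at hex
      refine H5 V T h hmin hP (fun z => ?_) hcl
      have h1 := h6 z
      have h2 := hex z
      omega
  rcases rel5_of W (m := 6) (by norm_num) top hU hd with ⟨z₀, hz₀⟩ | h
  · obtain ⟨z, rfl⟩ := φ.surjective z₀
    refine absurd (fun s hs => ?_ : z ∈ XU (fun i => φ ⁻¹' U i) 6) (notMem_XU6 z)
    rw [hdf, hcl]
    exact hz₀ s hs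
  · exact h

/-- **World `WT`, no bound for the order, no first alternative.** -/
theorem exists_pairW7_of (hact : Act)
    (H5 : ∀ (V : Fin 6 → Set ℂ) (T : ℂ → Set (Fin 6)), Irr V T → Mn V T → WT V T →
      (∀ z, (T z).ncard ≤ 5) → Cl5 T → False)
    (H6 : ∀ (V : Fin 6 → Set ℂ) (T : ℂ → Set (Fin 6)), Irr V T → Mn V T → WT V T → Cl5 T →
      ∀ z, (T z).ncard = 6 → (∀ i, ∃ q, dist q z = 1 ∧ i ∈ T q ∧ (T q).ncard = 2) → False)
    (hU : ∀ i, Maximal (fun W : Set (EuclideanSpace ℝ (Fin 2)) =>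
      IsOpen W ∧ ∀ x ∈ W, ∀ y ∈ W, dist x y ≠ 1) (U i))
    (hd : Dense (⋃ i, U i)) :
    ∃ z z', dist z z' = 1 ∧ z ∈ XU U 3 ∧ z' ∈ XU U 3 ∧
      (z, z') ∈ closure {p : EuclideanSpace ℝ (Fin 2) × EuclideanSpace ℝ (Fin 2) |
        WV U p.1 p.2} := by
  obtain ⟨z, z', h1, h2, h3, h4 | h4⟩ := rel7_of relW_WT hact H5 H6 hU hd
  · exact ⟨z, z', h1, h2, h3, subset_closure (WV_of_XU h1 h4 h3)⟩
  · exact ⟨z, z', h1, h2, h3, h4⟩

/-- **World `E3`, no bound for the order, no first alternative.** -/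
theorem exists_e3V7_of (hact : Act)
    (H5 : ∀ (V : Fin 6 → Set ℂ) (T : ℂ → Set (Fin 6)), Irr V T → Mn V T → E3 T →
      (∀ z, (T z).ncard ≤ 5) → Cl5 T → False)
    (H6 : ∀ (V : Fin 6 → Set ℂ) (T : ℂ → Set (Fin 6)), Irr V T → Mn V T → E3 T → Cl5 T →
      ∀ z, (T z).ncard = 6 → (∀ i, ∃ q, dist q z = 1 ∧ i ∈ T q ∧ (T q).ncard = 2) → False)
    (hU : ∀ i, Maximal (fun W : Set (EuclideanSpace ℝ (Fin 2)) =>
      IsOpen W ∧ ∀ x ∈ W, ∀ y ∈ W, dist x y ≠ 1) (U i))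
    (hd : Dense (⋃ i, U i)) :
    ∃ z z', dist z z' = 1 ∧ z ∈ XU U 3 ∧ z' ∈ XU U 3 ∧
      (z ∈ XU U 4 ∨ (z, z') ∈ closure {p : EuclideanSpace ℝ (Fin 2) ×
        EuclideanSpace ℝ (Fin 2) | EV U p.1 p.2}) :=
  rel7_of relW_E3 hact H5 H6 hU hd

end plane

/-- **World `WT`**, written out, no first alternative. -/
theorem resultW7 (hact : Act)
    (H5 : ∀ (V : Fin 6 → Set ℂ) (T : ℂ → Set (Fin 6)), Irr V T → Mn V T → WT V T →
      (∀ z, (T z).ncard ≤ 5) → Cl5 T → False)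
    (H6 : ∀ (V : Fin 6 → Set ℂ) (T : ℂ → Set (Fin 6)), Irr V T → Mn V T → WT V T → Cl5 T →
      ∀ z, (T z).ncard = 6 → (∀ i, ∃ q, dist q z = 1 ∧ i ∈ T q ∧ (T q).ncard = 2) → False) :
    (∀ V : Fin 6 → Set (EuclideanSpace ℝ (Fin 2)), (∀ i, IsOpen (V i)) →
      (∀ i, ∀ x ∈ V i, ∀ y ∈ V i, dist x y ≠ 1) → Dense (⋃ i, V i) →
      ∃ U : Fin 6 → Set (EuclideanSpace ℝ (Fin 2)), (∀ i, V i ⊆ U i) ∧ Dense (⋃ i, U i) ∧
        ∀ i, Maximal (fun W : Set (EuclideanSpace ℝ (Fin 2)) =>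
          IsOpen W ∧ ∀ x ∈ W, ∀ y ∈ W, dist x y ≠ 1) (U i)) ∧
    (∀ U : Fin 6 → Set (EuclideanSpace ℝ (Fin 2)), Dense (⋃ i, U i) →
      (∀ i, Maximal (fun W : Set (EuclideanSpace ℝ (Fin 2)) =>
        IsOpen W ∧ ∀ x ∈ W, ∀ y ∈ W, dist x y ≠ 1) (U i)) →
      ∃ z z', dist z z' = 1 ∧
        (∀ s : Set (Fin 6), s.ncard ≤ 3 → z ∈ closure ((⋃ j, U j) \ ⋃ i ∈ s, U i)) ∧
        (∀ s : Set (Fin 6), s.ncard ≤ 3 → z' ∈ closure ((⋃ j, U j) \ ⋃ i ∈ s, U i)) ∧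
        (z, z') ∈ closure {p : EuclideanSpace ℝ (Fin 2) × EuclideanSpace ℝ (Fin 2) |
          dist p.1 p.2 = 1 ∧ ∃ Q Q' : Set (Fin 6),
            (p.1 ∉ closure ((⋃ j, U j) \ ⋃ i ∈ Q, U i) ∧
              ∀ s ⊂ Q, p.1 ∈ closure ((⋃ j, U j) \ ⋃ i ∈ s, U i)) ∧
            (p.2 ∉ closure ((⋃ j, U j) \ ⋃ i ∈ Q', U i) ∧
              ∀ s ⊂ Q', p.2 ∈ closure ((⋃ j, U j) \ ⋃ i ∈ s, U i)) ∧
            4 ≤ Q.ncard ∧ 4 ≤ Q'.ncard ∧ 3 ≤ (Q ∩ Q').ncard}) := by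
  refine ⟨fun V hV hfree hd => ?_, fun U hd hU => exists_pairW7_of hact H5 H6 hU hd⟩
  choose U hVU hU using fun i => Vale.Agent.P032.S5.H926.exists_maximal_ge (hV i) (hfree i)
  exact ⟨U, hVU, hd.mono (iUnion_mono hVU), hU⟩

/-- **World `E3`**, written out, no first alternative. -/
theorem resultE7 (hact : Act)
    (H5 : ∀ (V : Fin 6 → Set ℂ) (T : ℂ → Set (Fin 6)), Irr V T → Mn V T → E3 T →
      (∀ z, (T z).ncard ≤ 5) → Cl5 T → False)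
    (H6 : ∀ (V : Fin 6 → Set ℂ) (T : ℂ → Set (Fin 6)), Irr V T → Mn V T → E3 T → Cl5 T →
      ∀ z, (T z).ncard = 6 → (∀ i, ∃ q, dist q z = 1 ∧ i ∈ T q ∧ (T q).ncard = 2) → False) :
    (∀ V : Fin 6 → Set (EuclideanSpace ℝ (Fin 2)), (∀ i, IsOpen (V i)) →
      (∀ i, ∀ x ∈ V i, ∀ y ∈ V i, dist x y ≠ 1) → Dense (⋃ i, V i) →
      ∃ U : Fin 6 → Set (EuclideanSpace ℝ (Fin 2)), (∀ i, V i ⊆ U i) ∧ Dense (⋃ i, U i) ∧
        ∀ i, Maximal (fun W : Set (EuclideanSpace ℝ (Fin 2)) =>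
          IsOpen W ∧ ∀ x ∈ W, ∀ y ∈ W, dist x y ≠ 1) (U i)) ∧
    (∀ U : Fin 6 → Set (EuclideanSpace ℝ (Fin 2)), Dense (⋃ i, U i) →
      (∀ i, Maximal (fun W : Set (EuclideanSpace ℝ (Fin 2)) =>
        IsOpen W ∧ ∀ x ∈ W, ∀ y ∈ W, dist x y ≠ 1) (U i)) →
      ∃ z z', dist z z' = 1 ∧
        (∀ s : Set (Fin 6), s.ncard ≤ 3 → z ∈ closure ((⋃ j, U j) \ ⋃ i ∈ s, U i)) ∧
        (∀ s : Set (Fin 6), s.ncard ≤ 3 → z' ∈ closure ((⋃ j, U j) \ ⋃ i ∈ s, U i)) ∧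
        ((∀ s : Set (Fin 6), s.ncard ≤ 4 → z ∈ closure ((⋃ j, U j) \ ⋃ i ∈ s, U i)) ∨
        (z, z') ∈ closure {p : EuclideanSpace ℝ (Fin 2) × EuclideanSpace ℝ (Fin 2) |
          dist p.1 p.2 = 1 ∧ ∃ a b c d : Fin 6, [a, b, c, d].Nodup ∧
            (p.1 ∉ closure ((⋃ j, U j) \ ⋃ i ∈ ({a, b, c, d} : Set (Fin 6)), U i) ∧
              ∀ s ⊂ ({a, b, c, d} : Set (Fin 6)),
                p.1 ∈ closure ((⋃ j, U j) \ ⋃ i ∈ s, U i)) ∧
            (∃ u v, dist u p.1 = 1 ∧ dist v p.1 = 1 ∧ ∃ r > 0,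
              (∀ y, dist y p.1 = 1 → dist y u < r → y ∈ closure (U a) ∧ y ∈ closure (U b) ∧
                y ∉ closure ((⋃ j, U j) \ ⋃ i ∈ ({a, b} : Set (Fin 6)), U i)) ∧
              ∀ y, dist y p.1 = 1 → dist y v < r → y ∈ closure (U c) ∧ y ∈ closure (U d) ∧
                y ∉ closure ((⋃ j, U j) \ ⋃ i ∈ ({c, d} : Set (Fin 6)), U i)) ∧
            (∃ Q : Set (Fin 6), 4 ≤ Q.ncard ∧
              (p.2 ∉ closure ((⋃ j, U j) \ ⋃ i ∈ Q, U i) ∧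
                ∀ s ⊂ Q, p.2 ∈ closure ((⋃ j, U j) \ ⋃ i ∈ s, U i))) ∧
            ∀ ε > 0, ∃ u, dist u p.1 = 1 ∧ dist u p.2 < ε ∧ ∃ r > 0,
              ∀ y, dist y p.1 = 1 → dist y u < r → y ∈ closure (U a) ∧ y ∈ closure (U b) ∧
                y ∉ closure ((⋃ j, U j) \ ⋃ i ∈ ({a, b} : Set (Fin 6)), U i)})) := by
  refine ⟨fun V hV hfree hd => ?_, fun U hd hU => exists_e3V7_of hact H5 H6 hU hd⟩
  choose U hVU hU using fun i => Vale.Agent.P032.S5.H926.exists_maximal_ge (hV i) (hfree i)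
  exact ⟨U, hVU, hd.mono (iUnion_mono hVU), hU⟩

end Vale.Agent.P032.Six
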