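import Vale.Agent.P032.R2.H479.Final7

/-!
# P032, world `E3`: exceptional pairs `(x, x')` with a minimal set of exactly four elements at `x'`

`EV4` : the relation `EV` with a minimal sufficient set of exactly four elements at `x'`.
`exists_e3V8_of`, `resultE8` : the statements in the plane.
-/

set_option autoImplicit false

open Set Filter Topology Metric

noncomputable section

namespace Vale.Agent.P032.Six

open Vale.Agent.P032.S5.H843 Vale.Agent.P032.S5.H138 Vale.Agent.P032.S5.H926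

/-- `x` is a two-pair point, `x'` at distance one has a minimal sufficient set with exactly four
elements and is a limit of exact arcs of the unit circle about `x` -/
def EV4 {E : Type*} [PseudoMetricSpace E] (U : Fin 6 → Set E) (x x' : E) : Prop :=
  dist x x' = 1 ∧ ∃ a b c d : Fin 6, [a, b, c, d].Nodup ∧ MS U {a, b, c, d} x ∧
    (∃ p q, dist p x = 1 ∧ dist q x = 1 ∧ ∃ r > 0,
      (∀ y, dist y x = 1 → dist y p < r → y ∈ closure (U a) ∧ y ∈ closure (U b) ∧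
        y ∉ closure ((⋃ j, U j) \ ⋃ i ∈ ({a, b} : Set (Fin 6)), U i)) ∧
      ∀ y, dist y x = 1 → dist y q < r → y ∈ closure (U c) ∧ y ∈ closure (U d) ∧
        y ∉ closure ((⋃ j, U j) \ ⋃ i ∈ ({c, d} : Set (Fin 6)), U i)) ∧
    (∃ Q : Set (Fin 6), Q.ncard = 4 ∧ MS U Q x') ∧
    ∀ ε > 0, ∃ p, dist p x = 1 ∧ dist p x' < ε ∧ ∃ r > 0,
      ∀ y, dist y x = 1 → dist y p < r → y ∈ closure (U a) ∧ y ∈ closure (U b) ∧
        y ∉ closure ((⋃ j, U j) \ ⋃ i ∈ ({a, b} : Set (Fin 6)), U i)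

/-- no exact arc of the circle of a two-pair point accumulates at a point with exactly four
colours -/
def E4 (T : ℂ → Set (Fin 6)) : Prop :=
  ∀ {z : ℂ} {a b c d : Fin 6}, DPt T z a b c d → ∀ {y : ℂ}, dist y z = 1 → (T y).ncard = 4 →
    ¬ Acc T z {a, b} y

theorem E4.e3 {T : ℂ → Set (Fin 6)} (h : E4 T) (hcl : Cl5 T) : E3 T :=
  fun {_ _ _ _ _} hz {y} hyz hy hA => by
    rcases hy.eq_or_lt with h4 | h5
    · exact h hz hyz h4.symm hA
    · exact hcl y _ hyz (ncard_DPt hz) h5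

/-- the relation `EV4` from the palettes -/
theorem EV4_of {U : Fin 6 → Set ℂ} {T : ℂ → Set (Fin 6)} (h : Irr U T) (hmin : Mn U T)
    (hd : Dense (⋃ i, U i)) {z y : ℂ} {a b c d : Fin 6} (hz : DPt T z a b c d)
    (hyz : dist y z = 1) (hy : (T y).ncard = 4) (hA : Acc T z {a, b} y) : EV4 U z y := by
  obtain ⟨h1, a', b', c', d', h2, h3, h4, -, h6⟩ := EV_of h hmin hd hz hyz hy.ge hA
  exact ⟨h1, a', b', c', d', h2, h3, h4, ⟨T y, hy, MS_of h hmin hd hy.ge⟩, h6⟩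

section plane

variable {U : Fin 6 → Set (EuclideanSpace ℝ (Fin 2))}

theorem hEV4 (x x' : ℂ) (hx : EV4 (fun i => φ ⁻¹' U i) x x') : EV4 U (φ x) (φ x') := by
  obtain ⟨h1, a, b, c, d, nd, hx, ⟨p, q, hp, hq, r, hr, hr1, hr2⟩, ⟨Q, hQ, hx'⟩, hA⟩ := hx
  have key : ∀ {i j : Fin 6} {r : ℝ} {p : ℂ},
      (∀ y, dist y x = 1 → dist y p < r → y ∈ closure (φ ⁻¹' U i) ∧ y ∈ closure (φ ⁻¹' U j) ∧
        y ∉ closure ((⋃ j, φ ⁻¹' U j) \ ⋃ k ∈ ({i, j} : Set (Fin 6)), φ ⁻¹' U k)) →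
      ∀ y, dist y (φ x) = 1 → dist y (φ p) < r → y ∈ closure (U i) ∧ y ∈ closure (U j) ∧
        y ∉ closure ((⋃ j, U j) \ ⋃ k ∈ ({i, j} : Set (Fin 6)), U k) := by
    intro i j r p h y hy hyp
    obtain ⟨y', rfl⟩ := φ.surjective y
    rw [φ.dist_map] at hy hyp
    have := h y' hy hyp
    rw [hdf, hcl, hcl, hcl] at this
    exact this
  refine ⟨by rw [φ.dist_map]; exact h1, a, b, c, d, nd, hMS hx,
    ⟨φ p, φ q, by rw [φ.dist_map]; exact hp, by rw [φ.dist_map]; exact hq, r, hr, key hr1,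
      key hr2⟩, ⟨Q, hQ, hMS hx'⟩, fun ε hε => ?_⟩
  obtain ⟨p, hp, hpε, r, hr, hA⟩ := hA ε hε
  exact ⟨φ p, by rw [φ.dist_map]; exact hp, by rw [φ.dist_map]; exact hpε, r, hr, key hA⟩

/-- the world `E4` -/
theorem relW_E4 : RelW (fun _ T => E4 T) EV4 EV4 where
  one := fun _ _ _ h => h.1
  tr := fun _ x x' h => hEV4 x x' h
  world := fun _ _ hT hmin hd h => fun {z _ _ _ _} hz {y} hyz hy hA =>
    h z y (ncard_DPt hz) hy.ge (EV4_of hT hmin hd hz hyz hy hA)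

/-- **World `E3`, no bound for the order, no first alternative**, minimal sets with four
elements. -/
theorem exists_e3V8_of (hact : Act)
    (H5 : ∀ (V : Fin 6 → Set ℂ) (T : ℂ → Set (Fin 6)), Irr V T → Mn V T → E3 T →
      (∀ z, (T z).ncard ≤ 5) → Cl5 T → False)
    (H6 : ∀ (V : Fin 6 → Set ℂ) (T : ℂ → Set (Fin 6)), Irr V T → Mn V T → E3 T → Cl5 T →
      ∀ z, (T z).ncard = 6 → (∀ i, ∃ q, dist q z = 1 ∧ i ∈ T q ∧ (T q).ncard = 2) → False)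
    (hU : ∀ i, Maximal (fun W : Set (EuclideanSpace ℝ (Fin 2)) =>
      IsOpen W ∧ ∀ x ∈ W, ∀ y ∈ W, dist x y ≠ 1) (U i))
    (hd : Dense (⋃ i, U i)) :
    ∃ z z', dist z z' = 1 ∧ z ∈ XU U 3 ∧ z' ∈ XU U 3 ∧
      (z ∈ XU U 4 ∨ (z, z') ∈ closure {p : EuclideanSpace ℝ (Fin 2) ×
        EuclideanSpace ℝ (Fin 2) | EV4 U p.1 p.2}) :=
  rel7_of relW_E4 hact (fun V T h hm h4 h5 hcl => H5 V T h hm (E4.e3 h4 hcl) h5 hcl)
    (fun V T h hm h4 hcl => H6 V T h hm (E4.e3 h4 hcl) hcl) hU hd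

end plane

/-- **World `E3`**, written out, no first alternative, minimal sets with exactly four elements. -/
theorem resultE8 (hact : Act)
    (H5 : ∀ (V : Fin 6 → Set ℂ) (T : ℂ → Set (Fin 6)), Irr V T → Mn V T → E3 T →
      (∀ z, (T z).ncard ≤ 5) → Cl5 T → False)
    (H6 : ∀ (V : Fin 6 → Set ℂ) (T : ℂ → Set (Fin 6)), Irr V T → Mn V T → E3 T → Cl5 T →
      ∀ z, (T z).ncard = 6 → (∀ i, ∃ q, dist q z = 1 ∧ i ∈ T q ∧ (T q).ncard = 2) → False) :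
    (∀ V : Fin 6 → Set (EuclideanSpace ℝ (Fin 2)), (∀ i, IsOpen (V i)) →
      (∀ i, ∀ x ∈ V i, ∀ y ∈ V i, dist x y ≠ 1) → Dense (⋃ i, V i) →
      ∃ U : Fin 6 → Set (EuclideanSpace ℝ (Fin 2)), (∀ i, V i ⊆ U i) ∧ Dense (⋃ i, U i) ∧
        ∀ i, Maximal (fun W : Set (EuclideanSpace ℝ (Fin 2)) =>
          IsOpen W ∧ ∀ x ∈ W, ∀ y ∈ W, dist x y ≠ 1) (U i)) ∧
    (∀ U : Fin 6 → Set (EuclideanSpace ℝ (Fin 2)), Dense (⋃ i, U i) →
      (∀ i, Maximal (fun W : Set (EuclideanSpace ℝ (Fin 2)) =>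
        IsOpen W ∧ ∀ x ∈ W, ∀ y ∈ W, dist x y ≠ 1) (U i)) →
      ∃ z z', dist z z' = 1 ∧
        (∀ s : Set (Fin 6), s.ncard ≤ 3 → z ∈ closure ((⋃ j, U j) \ ⋃ i ∈ s, U i)) ∧
        (∀ s : Set (Fin 6), s.ncard ≤ 3 → z' ∈ closure ((⋃ j, U j) \ ⋃ i ∈ s, U i)) ∧
        ((∀ s : Set (Fin 6), s.ncard ≤ 4 → z ∈ closure ((⋃ j, U j) \ ⋃ i ∈ s, U i)) ∨
        (z, z') ∈ closure {p : EuclideanSpace ℝ (Fin 2) × EuclideanSpace ℝ (Fin 2) |
          dist p.1 p.2 = 1 ∧ ∃ a b c d : Fin 6, [a, b, c, d].Nodup ∧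
            (p.1 ∉ closure ((⋃ j, U j) \ ⋃ i ∈ ({a, b, c, d} : Set (Fin 6)), U i) ∧
              ∀ s ⊂ ({a, b, c, d} : Set (Fin 6)),
                p.1 ∈ closure ((⋃ j, U j) \ ⋃ i ∈ s, U i)) ∧
            (∃ u v, dist u p.1 = 1 ∧ dist v p.1 = 1 ∧ ∃ r > 0,
              (∀ y, dist y p.1 = 1 → dist y u < r → y ∈ closure (U a) ∧ y ∈ closure (U b) ∧
                y ∉ closure ((⋃ j, U j) \ ⋃ i ∈ ({a, b} : Set (Fin 6)), U i)) ∧
              ∀ y, dist y p.1 = 1 → dist y v < r → y ∈ closure (U c) ∧ y ∈ closure (U d) ∧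
                y ∉ closure ((⋃ j, U j) \ ⋃ i ∈ ({c, d} : Set (Fin 6)), U i)) ∧
            (∃ Q : Set (Fin 6), Q.ncard = 4 ∧
              (p.2 ∉ closure ((⋃ j, U j) \ ⋃ i ∈ Q, U i) ∧
                ∀ s ⊂ Q, p.2 ∈ closure ((⋃ j, U j) \ ⋃ i ∈ s, U i))) ∧
            ∀ ε > 0, ∃ u, dist u p.1 = 1 ∧ dist u p.2 < ε ∧ ∃ r > 0,
              ∀ y, dist y p.1 = 1 → dist y u < r → y ∈ closure (U a) ∧ y ∈ closure (U b) ∧
                y ∉ closure ((⋃ j, U j) \ ⋃ i ∈ ({a, b} : Set (Fin 6)), U i)})) := by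
  refine ⟨fun V hV hfree hd => ?_, fun U hd hU => exists_e3V8_of hact H5 H6 hU hd⟩
  choose U hVU hU using fun i => Vale.Agent.P032.S5.H926.exists_maximal_ge (hV i) (hfree i)
  exact ⟨U, hVU, hd.mono (iUnion_mono hVU), hU⟩

end Vale.Agent.P032.Six
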