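import Vale.Agent.P032.S5.H306.Ends
import Vale.Agent.P032.S5.H306.Repro
import Vale.Agent.P032.R2.H479.Hub

/-!
# P032: the end of a D-star pair is again a D-star pair, in the frame with two-pair points

As `H306/ReproL.lean`, with the hypothesis `harmless` only on the two circles.
-/

open Set Filter Topology Metric

noncomputable section

namespace Vale.Agent.P032.Six

variable {U : Fin 6 → Set ℂ} {T : ℂ → Set (Fin 6)}

namespace DP

variable {z y : ℂ} {A B : Set (Fin 6)}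

/-- one half of the reproduction lemma -/
theorem repro_auxH (h : Irr U T) (hmin : MinF U T) (P : DP T z y A B) {ξ : ℂ} (hξ : ‖ξ‖ = 1) (hne : ξ ≠ z - y)
    (hne' : ξ ≠ y - z) {s x s' t : Fin 6} {A' B' : Set (Fin 6)} (hs : s ∈ T z \ A) (hx : x ∈ B)
    (hTv : T (z + ξ) = A ∪ {s, x}) (hv : Harm T (z + ξ) A') (hsA : s ∈ A')
    (hA' : A' ⊆ insert s A) (hs' : s' ∈ T y \ B) (ht : t ∈ A) (hTw : T (y + ξ) = B ∪ {s', t})
    (hw : Harm T (y + ξ) B') (hsB : s' ∈ B')
    (hloc : ∀ᶠ x in 𝓝 (y + ξ), dist x y = 1 → (T x).ncard = 4 → ∃ A'', Harm T x A'') : t ∉ A' := by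
  intro htA
  set v := z + ξ with hvdef
  set w := y + ξ with hwdef
  have hdvw : dist w v = 1 := by
    rw [hvdef, hwdef, dist_add_right, dist_comm]; exact P.d
  have hdwy : dist w y = 1 := by
    rw [hwdef, dist_eq_norm, add_sub_cancel_left]; exact hξ
  have hyv : y ≠ v := fun h1 => hne' (by rw [hvdef] at h1; linear_combination -h1)
  have hyv2 : y + v ≠ 2 * w := fun h1 => hne (by
    rw [hvdef, hwdef] at h1; linear_combination -h1)
  have hzy : z ≠ y := by
    rintro rfl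
    have := P.d
    rw [dist_self] at this
    exact absurd this (by norm_num)
  -- colours
  have hAB : Disjoint A B := P.disj
  have htB : t ∉ B := fun h1 => Set.disjoint_left.1 hAB ht h1
  have hxA : x ∉ A := fun h1 => Set.disjoint_left.1 hAB h1 hx
  have hxt : x ≠ t := fun h1 => hxA (h1 ▸ ht)
  have hst : s ≠ t := fun h1 => hs.2 (h1 ▸ ht)
  have hs'A : s' ∉ A := by
    intro h1
    have := hs'.1
    rw [P.cy] at this
    exact this h1
  obtain ⟨t', ht', ht't⟩ : ∃ t' ∈ A, t' ≠ t := by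
    by_contra hcon
    push Not at hcon
    have := Set.ncard_le_ncard (show A ⊆ {t} from fun i hi => hcon i hi) (Set.toFinite _)
    rw [P.hz.cardA, Set.ncard_singleton] at this
    omega
  have hA2 : A = {t, t'} := by
    refine (Set.eq_of_subset_of_ncard_le (s := {t, t'}) ?_ ?_ (Set.toFinite _)).symm
    · rintro i (rfl | rfl)
      · exact ht
      · exact ht'
    · rw [P.hz.cardA, Set.ncard_pair (Ne.symm ht't)]
  have hA'2 : A' = {t, s} := by
    refine (Set.eq_of_subset_of_ncard_le (s := {t, s}) ?_ ?_ (Set.toFinite _)).symm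
    · rintro i (rfl | rfl)
      · exact htA
      · exact hsA
    · rw [hv.cardA, Set.ncard_pair (Ne.symm hst)]
  -- `T w' ⊆ T y` for palettes without `t`
  have hsubY : ∀ S : Set (Fin 6), S ⊆ T w → t ∉ S → S ⊆ T y := by
    intro S hS htS i hi
    have h1 := hS hi
    rw [hTw] at h1
    rcases h1 with h1 | h1 | h1
    · exact P.hy.sub h1
    · rw [h1]; exact hs'.1
    · rw [mem_singleton_iff] at h1
      exact absurd (h1 ▸ hi) htS
  -- step 1
  have hfarnhds : ∀ᶠ pw in 𝓝 (v, w), pw.1 ≠ y ∧ pw.1 + y ≠ 2 * pw.2 := by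
    have c1 : Continuous fun pw : ℂ × ℂ => pw.1 := continuous_fst
    have c2 : Continuous fun pw : ℂ × ℂ => pw.1 + y - 2 * pw.2 := by fun_prop
    have e1 := c1.continuousAt.eventually (isOpen_ne.mem_nhds
      (show (fun pw : ℂ × ℂ => pw.1) (v, w) ≠ y from Ne.symm hyv))
    have e2 := c2.continuousAt.eventually (isOpen_ne.mem_nhds
      (show (fun pw : ℂ × ℂ => pw.1 + y - 2 * pw.2) (v, w) ≠ 0 from fun h1 => hyv2 (by
        simp only at h1
        linear_combination h1)))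
    filter_upwards [e1, e2] with pw h1 h2
    exact ⟨h1, fun h3 => h2 (by rw [h3]; ring)⟩
  obtain ⟨Nv, hNv, Nw, hNw, hNN⟩ := mem_nhds_prod_iff.1 hfarnhds
  have hstep1 : ∀ᶠ p in 𝓝 v, T p ≠ {t, x} := by
    have hNw2 : {w' : ℂ | w' ∈ Nw ∧ T w' ⊆ T w ∧ (4 ≤ (T w').ncard → T w' = T w) ∧
        (∀ A'', Harm T w' A'' → T w' = T w ∧ A'' = B') ∧
        (dist w' y = 1 → (T w').ncard = 4 → ∃ A'', Harm T w' A'')} ∈ 𝓝 w :=
      Filter.inter_mem hNw ((h.nhd w).and ((hw.full h).and ((hw.nhd h).and hloc)))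
    filter_upwards [cross_near306 hdwy hdvw hyv hyv2 hNw2, hNv] with p hp hpN hTp
    obtain ⟨w', ⟨hw'N, hw'sub, hw'full, hw'harm, hw'loc⟩, hw'y, hw'p⟩ := hp
    obtain ⟨hpy, hpy2⟩ := hNN (mk_mem_prod hpN hw'N)
    simp only at hpy hpy2
    have htp : t ∈ T p := by rw [hTp]; simp
    have hxp : x ∈ T p := by rw [hTp]; simp
    -- both colours
    have hboth : t ∈ T w' ∧ x ∈ T w' := by
      by_contra hcon
      by_cases htw : t ∈ T w'
      · -- no `x`
        have hxw : x ∉ T w' := fun h1 => hcon ⟨htw, h1⟩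
        have harc : ∀ᶠ q in 𝓝[sphere y 1] w', t ∈ Pal U q := by
          filter_upwards [mem_nhdsWithin_of_mem_nhds (h.nhd w'), self_mem_nhdsWithin]
            with q hq1 hq2
          by_contra htq
          have h1 : t ∉ T q := fun h2 => htq (h.sub q h2)
          have h3 := P.hy.h1 q hq2 (hsubY _ (hq1.trans hw'sub) h1)
          exact hxw (hq1 (h3 hx))
        rcases h.mx.partner_line hw'y harc hw'p (h.sub p htp) with h1 | h1
        · exact hpy h1
        · exact hpy2 h1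
      · have h1 := P.hy.h1 w' hw'y (hsubY _ hw'sub htw)
        have harc : ∀ᶠ q in 𝓝[sphere y 1] w', x ∈ Pal U q := by
          filter_upwards [mem_nhdsWithin_of_mem_nhds (h.nhd w'), self_mem_nhdsWithin]
            with q hq1 hq2
          exact h.sub q (P.hy.h1 q hq2 (hq1.trans (hsubY _ hw'sub htw)) hx)
        rcases h.mx.partner_line hw'y harc hw'p (h.sub p hxp) with h1 | h1
        · exact hpy h1
        · exact hpy2 h1
    have hsub : T p ⊆ T w' := by
      rw [hTp]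
      rintro i (rfl | rfl)
      · exact hboth.1
      · exact hboth.2
    have hpw' : dist p w' = 1 := by rw [dist_comm]; exact hw'p
    by_cases h4 : 4 ≤ (T w').ncard
    · have h5 : T w' = T w := hw'full h4
      have h6 : (T w').ncard = 4 := by rw [h5]; exact hw.card
      obtain ⟨A'', hA''⟩ := hw'loc hw'y h6
      obtain ⟨-, h7⟩ := hw'harm A'' hA''
      have h8 := hA''.h1 p hpw' hsub
      rw [h7] at h8
      have h9 := h8 hsB
      rw [hTp] at h9
      rcases h9 with h9 | h9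
      · exact hs'A (h9 ▸ ht)
      · rw [mem_singleton_iff] at h9
        exact hs'.2 (h9 ▸ hx)
    · exact h.not_sub (x := w') (y := p) hpw' (by omega) hsub
  -- step 2
  have hstep2 : ∀ᶠ p in 𝓝 v, ∀ b ∈ T p, t ∈ T p → b = t ∨ t' ∈ T p := by
    filter_upwards [h.nhd v, hv.layerE h, hstep1] with p h1 h2 h3 b hb htp
    by_contra hcon
    push Not at hcon
    obtain ⟨hbt, ht'p⟩ := hcon
    have hsp : s ∉ T p := by
      intro hsp
      have h4 : T p = T v := h2 (by
        rw [hA'2]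
        rintro i (rfl | rfl)
        · exact htp
        · exact hsp)
      refine ht'p ?_
      rw [h4, hTv]
      exact Or.inl ht'
    have hmem : ∀ i ∈ T p, i = t ∨ i = x := by
      intro i hi
      have h4 := h1 hi
      rw [hTv, hA2] at h4
      rcases h4 with (h4 | h4) | h4 | h4
      · exact Or.inl h4
      · exact absurd (h4 ▸ hi) ht'p
      · exact absurd (h4 ▸ hi) hsp
      · exact Or.inr h4
    refine h3 (Subset.antisymm (fun i hi => hmem i hi) ?_)
    have hbx : b = x := (hmem b hb).resolve_left hbt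
    rintro i (rfl | hi)
    · exact htp
    · rw [mem_singleton_iff] at hi
      rw [hi, ← hbx]; exact hb
  -- step 3
  obtain ⟨p0, hp0, hJ⟩ := hv.arc
  have ht'v : t' ∈ T v := by rw [hTv]; exact Or.inl ht'
  have htv : t ∈ T v := by rw [hTv]; exact Or.inl ht
  have h5 := h.sole (h.sub v ht'v) hstep2 hp0 (hJ.mono fun q hq => h.sub q (by rw [hq]; exact htA))
  refine hmin v (by rw [hv.card]) (T v \ {t}) sdiff_subset (fun hcon => ?_)
    (h.suf_of_single (Ne.symm ht't) ht'v h5)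
  have : t ∈ T v \ {t} := by rw [hcon]; exact htv
  exact this.2 rfl

/-- **Reproduction.** -/
theorem reproH (h : Irr U T) (hmin : MinF U T) (P : DP T z y A B) {ξ : ℂ} (hξ : ‖ξ‖ = 1) (hne : ξ ≠ z - y)
    (hne' : ξ ≠ y - z) {s x s' t : Fin 6} {A' B' : Set (Fin 6)} (hs : s ∈ T z \ A) (hx : x ∈ B)
    (hTv : T (z + ξ) = A ∪ {s, x}) (hv : Harm T (z + ξ) A') (hsA : s ∈ A')
    (hA' : A' ⊆ insert s A) (hs' : s' ∈ T y \ B) (ht : t ∈ A) (hTw : T (y + ξ) = B ∪ {s', t})
    (hw : Harm T (y + ξ) B') (hsB : s' ∈ B') (hB' : B' ⊆ insert s' B)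
    (hlocv : ∀ᶠ x in 𝓝 (z + ξ), dist x z = 1 → (T x).ncard = 4 → ∃ A'', Harm T x A'')
    (hlocw : ∀ᶠ x in 𝓝 (y + ξ), dist x y = 1 → (T x).ncard = 4 → ∃ A'', Harm T x A'') :
    DP T (z + ξ) (y + ξ) A' B' := by
  have h1 : t ∉ A' := P.repro_auxH h hmin hξ hne hne' hs hx hTv hv hsA hA' hs' ht hTw hw hsB hlocw
  have h2 : x ∉ B' :=
    P.symm.repro_auxH h hmin hξ hne' hne hs' ht hTw hw hsB hB' hs hx hTv hv hsA hlocv
  have key : ∀ {A A' S : Set (Fin 6)} {s x t : Fin 6}, A.ncard = 2 → A'.ncard = 2 → t ∈ A →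
      s ∉ A → x ∉ A → x ≠ s → A' ⊆ insert s A → s ∈ A' → t ∉ A' → S = A ∪ {s, x} →
      S \ A' = {t, x} := by
    intro A A' S s x t hA hA' ht hs hx hxs hsub hsA htA hS
    obtain ⟨t', ht', ht't⟩ : ∃ t' ∈ A, t' ≠ t := by
      by_contra hcon
      push Not at hcon
      have := Set.ncard_le_ncard (show A ⊆ {t} from fun i hi => hcon i hi) (Set.toFinite _)
      rw [hA, Set.ncard_singleton] at this
      omega
    have hA2 : A = {t, t'} := by
      refine (Set.eq_of_subset_of_ncard_le (s := {t, t'}) ?_ ?_ (Set.toFinite _)).symm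
      · rintro i (rfl | rfl)
        · exact ht
        · exact ht'
      · rw [hA, Set.ncard_pair (Ne.symm ht't)]
    have hst' : s ≠ t' := fun h3 => hs (h3 ▸ ht')
    have hA'2 : A' = {s, t'} := by
      refine Set.eq_of_subset_of_ncard_le ?_ (by rw [hA', Set.ncard_pair hst']) (Set.toFinite _)
      intro i hi
      have h3 := hsub hi
      rw [hA2] at h3
      rcases h3 with h3 | h3 | h3
      · exact Or.inl h3
      · exact absurd (h3 ▸ hi) htA
      · exact Or.inr h3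
    have hxt' : x ≠ t' := fun h3 => hx (h3 ▸ ht')
    have hts : t ≠ s := fun h3 => hs (h3 ▸ ht)
    rw [hS, hA2, hA'2]
    ext i
    simp only [Set.mem_sdiff, Set.mem_union, mem_insert_iff, mem_singleton_iff]
    constructor
    · rintro ⟨(h3 | h3) | h3 | h3, h4⟩
      · exact Or.inl h3
      · exact absurd (Or.inr h3) h4
      · exact absurd (Or.inl h3) h4
      · exact Or.inr h3
    · rintro (rfl | rfl)
      · exact ⟨Or.inl (Or.inl rfl), fun h3 => h3.elim hts (fun h4 => ht't h4.symm)⟩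
      · exact ⟨Or.inr (Or.inr rfl), fun h3 => h3.elim hxs hxt'⟩
  have hAB := P.disj
  have hxA : x ∉ A := fun h3 => Set.disjoint_left.1 hAB h3 hx
  have htB : t ∉ B := fun h3 => Set.disjoint_left.1 hAB ht h3
  have hsB' : s ∉ B := by
    have h3 : s ∈ T y \ B := P.hC ▸ hs
    exact h3.2
  have hs'A : s' ∉ A := by
    have h3 : s' ∈ T z \ A := P.hC ▸ hs'
    exact h3.2
  have e1 : T (z + ξ) \ A' = {t, x} :=
    key P.hz.cardA hv.cardA ht hs.2 hxA (fun h3 => hsB' (h3 ▸ hx)) hA' hsA h1 hTv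
  have e2 : T (y + ξ) \ B' = {x, t} :=
    key P.hy.cardA hw.cardA hx hs'.2 htB (fun h3 => hs'A (h3 ▸ ht)) hB' hsB h2 hTw
  exact DP.of h hv hw (by rw [dist_add_right]; exact P.d) (by rw [e1, e2, Set.pair_comm])

end DP

namespace Hub

variable {z y : ℂ} {A B : Set (Fin 6)}

/-- an end of the arcs of a D-star pair is not a two-pair point -/
theorem end_harm (F : Hub U T) (P : DP T z y A B) {ξ : ℂ} (hξ : ‖ξ‖ = 1)
    (hcl : ξ ∈ closure (Dir T z)) (hn : ¬ T (z + ξ) ⊆ T z) (h4 : (T (z + ξ)).ncard = 4) :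
    ∃ A', Harm T (z + ξ) A' := by
  rcases F.cases h4 with h1 | ⟨a, b, c, d, hD⟩
  · exact h1
  · exfalso
    have hAv := P.memA306 F.irr hcl
    obtain ⟨a', b', c', d', hD', hS⟩ := hD.first
      (F.tie hD (y := z) (by rw [dist_comm, dist_eq_norm, add_sub_cancel_left]; exact hξ)
        P.hz.card).1
    have hA : A = {a', b'} := by
      rw [← hS]
      refine Set.eq_of_subset_of_ncard_le (fun i hi => ⟨P.hz.sub hi, hAv hi⟩) ?_ (Set.toFinite _)
      rw [hS, Set.ncard_pair hD'.ab, P.hz.cardA]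
    have hc : ContinuousAt (fun ξ' : ℂ => z + ξ') ξ :=
      (continuous_const.add continuous_id).continuousAt
    obtain ⟨ξ', hξ', hξ''⟩ := (mem_closure_iff_frequently.1 hcl).and_eventually
      (hc.eventually (F.irr.iso hD')) |>.exists
    have h3 := P.hz.h1 (z + ξ') (by rw [dist_eq_norm, add_sub_cancel_left]; exact hξ'.1) hξ'.2
    rw [hA] at h3
    refine hξ'' (fun h4 => hn ?_) ⟨F.irr.sub _ (h3 (by simp)), F.irr.sub _ (h3 (by simp))⟩
    have h5 : z + ξ' = z + ξ := h4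
    rw [← h5]; exact hξ'.2

/-- **Ends.** -/
theorem ends (F : Hub U T) (P : DP T z y A B) {ξ : ℂ} (hξ : ‖ξ‖ = 1)
    (hcl : ξ ∈ closure (Dir T z)) (hn : ¬ T (z + ξ) ⊆ T z) :
    ∃ s ∈ T z \ A, ∃ x ∈ B, T (z + ξ) = A ∪ {s, x} ∧
      ∃ A', Harm T (z + ξ) A' ∧ s ∈ A' ∧ A' ⊆ insert s A := by
  have hcl' : ξ ∈ closure (Dir T y) := by rw [← P.dirEq306 F.irr]; exact hcl
  have hn' : ¬ T (y + ξ) ⊆ T y := fun h1 => by
    have : ξ ∈ Dir T y := ⟨hξ, h1⟩
    rw [← P.dirEq306 F.irr] at this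
    exact hn this.2
  exact P.ends306 F.irr hξ hcl hn (F.le4 _) (F.le4 _) (F.end_harm P hξ hcl hn)
    (F.end_harm P.symm hξ hcl' hn')

/-- near an end of the arcs of a D-star pair there are no two-pair points on the circle -/
theorem loc_end (F : Hub U T) (P : DP T z y A B) {ξ : ℂ} {s x : Fin 6} {A' : Set (Fin 6)}
    (hs : s ∈ T z \ A) (hTv : T (z + ξ) = A ∪ {s, x}) (hv : Harm T (z + ξ) A') :
    ∀ᶠ w in 𝓝 (z + ξ), dist w z = 1 → (T w).ncard = 4 → ∃ A'', Harm T w A'' := by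
  filter_upwards [hv.full F.irr] with w hw hwz hw4
  rcases F.cases hw4 with h1 | ⟨a, b, c, d, hD⟩
  · exact h1
  · exfalso
    refine F.not_three (z := w) (y := z) (by rw [dist_comm]; exact hwz) P.hz.card ?_ hD
    have h1 : insert s A ⊆ T z ∩ T w := by
      rw [hw hw4.ge, hTv]
      rintro i (rfl | hi)
      · exact ⟨hs.1, Or.inr (by simp)⟩
      · exact ⟨P.hz.sub hi, Or.inl hi⟩
    have h2 := Set.ncard_le_ncard h1 (Set.toFinite _)
    rwa [Set.ncard_insert_of_notMem hs.2 (Set.toFinite _), P.hz.cardA] at h2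

/-- **Reproduction.** -/
theorem repro (F : Hub U T) (P : DP T z y A B) {ξ : ℂ} (hξ : ‖ξ‖ = 1) (hne : ξ ≠ z - y)
    (hne' : ξ ≠ y - z) {s x s' t : Fin 6} {A' B' : Set (Fin 6)} (hs : s ∈ T z \ A) (hx : x ∈ B)
    (hTv : T (z + ξ) = A ∪ {s, x}) (hv : Harm T (z + ξ) A') (hsA : s ∈ A')
    (hA' : A' ⊆ insert s A) (hs' : s' ∈ T y \ B) (ht : t ∈ A) (hTw : T (y + ξ) = B ∪ {s', t})
    (hw : Harm T (y + ξ) B') (hsB : s' ∈ B') (hB' : B' ⊆ insert s' B) :
    DP T (z + ξ) (y + ξ) A' B' :=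
  P.reproH F.irr F.min hξ hne hne' hs hx hTv hv hsA hA' hs' ht hTw hw hsB hB'
    (F.loc_end P hs hTv hv) (F.loc_end P.symm hs' hTw hw)

end Hub


end Vale.Agent.P032.Six
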