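import Vale.Agent.P032.R2.H479.Star
import Vale.Agent.P032.R2.H479.Repro
import Vale.Agent.P032.S5.H25.Corner

/-!
# P032: D-star pairs in the frame with two-pair points: the corner lemma
-/

open Set Filter Topology Metric

noncomputable section

namespace Vale.Agent.P032.Six

/-- the second common point of the circles about a harmless point and about a complementary face:
palettes `{a, b}` near the harmless point and four-coloured points on the second circle -/
theorem Fc.pair_freq {k : ℕ} {U : Fin k → Set ℂ} {T : ℂ → Set (Fin k)} (h : Irr U T)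
    {u u' q : ℂ} {s B : Set (Fin k)} (F : Fc T u s)
    (F' : Fc T u' sᶜ) (hne : u ≠ u') (hs : s.ncard = 3) (hq : dist q u = 1)
    (hq' : dist q u' = 1) (hne2 : u + u' ≠ 2 * q) (hq4 : (T q).ncard = 4) (hB : Harm T u B)
    (hmin : ∀ r, r ⊆ T u → r ≠ T u → ¬ ∀ᶠ w in 𝓝 u, Suf U r w)
    (hsub : ¬ T u \ B ⊆ T q) :
    ∃ a b, a ∈ B ∧ b ∈ T u \ B ∧ a ∈ T q ∧ b ∈ T q ∧ a ≠ b ∧ a ∈ s ∧ b ∈ s ∧
      ∃ᶠ pr : ℂ × ℂ in 𝓝 (u, q), T pr.1 = {a, b} ∧ dist pr.2 u' = 1 ∧ dist pr.2 pr.1 = 1 ∧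
        T pr.1 ⊆ T pr.2 ∧ 4 ≤ (T pr.2).ncard := by
  obtain ⟨c1, c2⟩ := F.four_le h F' hne hq hq' hne2
  have h5 := Set.ncard_inter_add_ncard_sdiff_eq_ncard (T q) s (Set.toFinite _)
  rw [Set.sdiff_eq, hq4] at h5
  have hc : (T q ∩ s).ncard = 2 := by omega
  obtain ⟨g, hg, hJ⟩ := hB.arc
  have hgB : T g = B := hJ.self_of_nhdsWithin hg
  obtain ⟨x, hxB, hxs⟩ : ∃ x ∈ B, x ∉ s := by
    have := F.full g hg
    rw [hgB] at this
    exact Set.not_subset.1 this
  have hTu : T u = insert x s := by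
    symm
    refine Set.eq_of_subset_of_ncard_le (insert_subset (hB.sub hxB) F.sub) ?_ (Set.toFinite _)
    rw [hB.card, Set.ncard_insert_of_notMem hxs (Set.toFinite _), hs]
  have hCs : T u \ B ⊆ s := by
    rintro i ⟨hi, hiB⟩
    rw [hTu] at hi
    rcases hi with rfl | hi
    · exact absurd hxB hiB
    · exact hi
  obtain ⟨m, hmC, hmq⟩ := Set.not_subset.1 hsub
  obtain ⟨b, hbm, hC2⟩ := ncard_two_other hB.cardC hmC
  obtain ⟨a, hax, hB2⟩ := ncard_two_other hB.cardA hxB
  have haB : a ∈ B := by rw [hB2]; simp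
  have hbC : b ∈ T u \ B := by rw [hC2]; simp
  have has : a ∈ s := by
    have := hB.sub haB
    rw [hTu] at this
    exact this.resolve_left hax
  have hbs : b ∈ s := hCs hbC
  have hab : a ≠ b := fun e => hbC.2 (e ▸ haB)
  -- the two common colours
  have hqs : ∀ i ∈ T q, i ∈ s → i = a ∨ i = b := by
    intro i hi his
    have h6 : i ∈ T u := F.sub his
    by_cases hiB : i ∈ B
    · rw [hB2] at hiB
      rcases hiB with h7 | h7
      · exact absurd (h7 ▸ his) hxs
      · exact Or.inl h7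
    · have h7 : i ∈ T u \ B := ⟨h6, hiB⟩
      rw [hC2] at h7
      rcases h7 with h8 | h8
      · exact absurd (h8 ▸ hi) hmq
      · exact Or.inr h8
  have heq : ({a, b} : Set (Fin k)) = T q ∩ s := by
    symm
    refine Set.eq_of_subset_of_ncard_le (fun i hi => hqs i hi.1 hi.2) ?_ (Set.toFinite _)
    rw [hc, Set.ncard_pair hab]
  have haq : a ∈ T q := by
    have : a ∈ T q ∩ s := by rw [← heq]; simp
    exact this.1
  have hbq : b ∈ T q := by
    have : b ∈ T q ∩ s := by rw [← heq]; simp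
    exact this.1
  have hfr := hB.contact h hmin haB hbC.1 hbC.2
  refine ⟨a, b, haB, hbC, haq, hbq, hab, has, hbs, ?_⟩
  intro hcon
  rw [nhds_prod_eq] at hcon
  obtain ⟨V0, hV0, W0, hW0, hVW0⟩ := Filter.mem_prod_iff.1 hcon
  -- neighbourhoods
  have hopen : {p : ℂ × ℂ | p.1 ≠ u' ∧ p.1 + u' ≠ 2 * p.2} ∈ 𝓝 u ×ˢ 𝓝 q := by
    rw [← nhds_prod_eq]
    refine IsOpen.mem_nhds ?_ ⟨hne, hne2⟩
    exact (isOpen_ne_fun continuous_fst continuous_const).inter
      (isOpen_ne_fun (continuous_fst.add continuous_const)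
        (continuous_const.mul continuous_snd))
  obtain ⟨V, hV, W, hW, hVW⟩ := Filter.mem_prod_iff.1 hopen
  have hNq : {y | T y ⊆ T q} ∩ (W ∩ W0) ∈ 𝓝 q :=
    inter_mem (h.nhd q) (inter_mem hW hW0)
  obtain ⟨w, hTw, ⟨y, ⟨hy1, hyW, hyW0⟩, hyu', hyw⟩, hwV, hwV0⟩ :=
    (hfr.and_eventually ((exists_cross hne hq hq' hne2 hNq).and
      (inter_mem hV hV0 : V ∩ V0 ∈ 𝓝 u))).exists
  have hy1 : T y ⊆ T q := hy1
  obtain ⟨hwu', hwy2⟩ := hVW (Set.mk_mem_prod hwV hyW)
  simp only at hwu' hwy2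
  have haw : a ∈ Pal U w := h.sub w (by rw [hTw]; simp)
  have hbw : b ∈ Pal U w := h.sub w (by rw [hTw]; simp)
  have hay : a ∈ T y := by
    by_contra hcon
    have ht : T y ⊆ insert b sᶜ := by
      intro i hi
      by_cases his : i ∈ s
      · rcases hqs i (hy1 hi) his with h7 | h7
        · exact absurd (h7 ▸ hi) hcon
        · exact Or.inl h7
      · exact Or.inr his
    rcases F'.lemmaX h hyu' ht hyw hbw with h7 | h7
    · exact hwu' h7
    · exact hwy2 h7
  have hby : b ∈ T y := by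
    by_contra hcon
    have ht : T y ⊆ insert a sᶜ := by
      intro i hi
      by_cases his : i ∈ s
      · rcases hqs i (hy1 hi) his with h7 | h7
        · exact Or.inl h7
        · exact absurd (h7 ▸ hi) hcon
      · exact Or.inr his
    rcases F'.lemmaX h hyu' ht hyw haw with h7 | h7
    · exact hwu' h7
    · exact hwy2 h7
  have hTwy : T w ⊆ T y := by
    rw [hTw]
    rintro i (rfl | rfl) <;> assumption
  have hwy : dist w y = 1 := by rw [dist_comm]; exact hyw
  have h4y : 4 ≤ (T y).ncard := by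
    by_contra hcon
    exact h.not_sub hwy (by omega) hTwy
  exact hVW0 (Set.mk_mem_prod hwV0 hyW0) ⟨hTw, hyu', hyw, hTwy, h4y⟩

/-- four different elements -/
theorem four_distinct {α : Type*} {a b c d : α} (h : ({a, b, c, d} : Set α).ncard = 4) :
    a ≠ b ∧ a ≠ c ∧ a ≠ d ∧ b ≠ c ∧ b ≠ d ∧ c ≠ d := by
  have key : ∀ x y w : α, ({a, b, c, d} : Set α) ⊆ {x, y, w} → False := by
    intro x y w hs
    have h1 := Set.ncard_le_ncard hs (Set.toFinite _)
    have h2 := Set.ncard_insert_le x ({y, w} : Set α)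
    have h3 := Set.ncard_insert_le y ({w} : Set α)
    rw [Set.ncard_singleton] at h3
    omega
  refine ⟨?_, ?_, ?_, ?_, ?_, ?_⟩
  · rintro rfl; exact key a c d (by intro i hi; simp at hi ⊢; tauto)
  · rintro rfl; exact key a b d (by intro i hi; simp at hi ⊢; tauto)
  · rintro rfl; exact key a b c (by intro i hi; simp at hi ⊢; tauto)
  · rintro rfl; exact key a b d (by intro i hi; simp at hi ⊢; tauto)
  · rintro rfl; exact key a b c (by intro i hi; simp at hi ⊢; tauto)
  · rintro rfl; exact key a b c (by intro i hi; simp at hi ⊢; tauto)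

variable {U : Fin 6 → Set ℂ} {T : ℂ → Set (Fin 6)}

/-- a two-pair point from its palettes -/
theorem DPt.of {z : ℂ} {a b c d : Fin 6} (hT : T z = {a, b, c, d}) (h4 : (T z).ncard = 4)
    (h1 : ∃ p, Arc T z p {a, b}) (h2 : ∃ p, Arc T z p {c, d}) : DPt T z a b c d := by
  rw [hT] at h4
  obtain ⟨ab, ac, ad, bc, bd, cd⟩ := four_distinct h4
  exact ⟨hT, ac, ad, bc, bd, ab, cd, h1, h2⟩

/-- the two pairs as sets -/
theorem DPt.relabel {z : ℂ} {a b c d a' b' c' d' : Fin 6} (h : DPt T z a b c d)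
    (h1 : ({a', b'} : Set (Fin 6)) = {a, b} ∧ ({c', d'} : Set (Fin 6)) = {c, d} ∨
      ({a', b'} : Set (Fin 6)) = {c, d} ∧ ({c', d'} : Set (Fin 6)) = {a, b}) :
    DPt T z a' b' c' d' := by
  rcases h1 with ⟨h2, h3⟩ | ⟨h2, h3⟩
  · refine DPt.of ?_ h.card (by rw [h2]; exact h.arc1) (by rw [h3]; exact h.arc2)
    rw [h.pal]
    have e : ({a, b, c, d} : Set (Fin 6)) = {a, b} ∪ {c, d} := by
      ext i; simp only [mem_insert_iff, mem_singleton_iff, mem_union]; tauto
    have e' : ({a', b', c', d'} : Set (Fin 6)) = {a', b'} ∪ {c', d'} := by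
      ext i; simp only [mem_insert_iff, mem_singleton_iff, mem_union]; tauto
    rw [e, e', h2, h3]
  · refine DPt.of ?_ h.card (by rw [h2]; exact h.arc2) (by rw [h3]; exact h.arc1)
    rw [h.pal]
    have e : ({a, b, c, d} : Set (Fin 6)) = {a, b} ∪ {c, d} := by
      ext i; simp only [mem_insert_iff, mem_singleton_iff, mem_union]; tauto
    have e' : ({a', b', c', d'} : Set (Fin 6)) = {a', b'} ∪ {c', d'} := by
      ext i; simp only [mem_insert_iff, mem_singleton_iff, mem_union]; tauto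
    rw [e, e', h2, h3, union_comm]

namespace DS

variable {z y : ℂ} {A B : Set (Fin 6)}

/-- **Triangle**, one half, only an exact arc -/
theorem tri_arc (h : Irr U T) (D : DS T z y A B) {w : ℂ} (hwz : dist w z = 1) (hwy : dist w y = 1)
    {p0 : ℂ} (hp : Arc T w p0 B) : False := by
  obtain ⟨hp0, hJ⟩ := hp
  obtain ⟨q1, hq1, hq1w, hq1z, hq1z2, hN⟩ := exists_generic (y := z) hp0 hJ
  have hN2 : {q | T q = B} ∩ {q | q + z ≠ 2 * w} ∈ 𝓝[sphere w 1] q1 := by
    refine inter_mem hN (mem_nhdsWithin_of_mem_nhds ?_)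
    exact (isOpen_ne_fun (by fun_prop) (by fun_prop)).mem_nhds hq1z2
  obtain ⟨p, ⟨hpB, hpz2⟩, hpw, hpy, hpy2, hN3⟩ := exists_generic (y := y) hq1w hN2
  have hpB : T p = B := hpB
  have hJp : ∀ᶠ q in 𝓝[sphere w 1] p, B ⊆ T q := by
    filter_upwards [hN3] with q hq
    have : T q = B := hq.1
    rw [this]
  set x := z + (p - w) with hx
  have hxz : dist x z = 1 := by
    rw [dist_eq_norm, hx, add_sub_cancel_left, ← dist_eq_norm]; exact hpw
  have hpx : dist p x = 1 := by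
    rw [dist_eq_norm, hx, show p - (z + (p - w)) = w - z by ring, ← dist_eq_norm]; exact hwz
  have hxT : T x ⊆ T z := by
    intro i hi
    rcases D.cov i with hB | hz
    · exfalso
      rcases h.wp hpw (hJp.mono fun q hq => hq hB) hpx hi with h1 | h1
      · exact hpz2 (by show p + z = 2 * w; rw [hx] at h1; linear_combination h1)
      · have h2 : z = p := by rw [hx] at h1; linear_combination h1
        have h3 := D.hz.card
        rw [h2, hpB, D.hy.cardA] at h3
        omega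
    · exact hz
  have hx' := D.same h hxz hxT
  have hx'y : dist (x + (y - z)) y = 1 := by
    rw [dist_eq_norm, show x + (y - z) - y = x - z by ring, ← dist_eq_norm]; exact hxz
  obtain ⟨e, he⟩ := D.neB
  have hd : dist (x + (y - z)) p = 1 := by
    rw [dist_eq_norm, hx, show z + (p - w) + (y - z) - p = -(w - y) by ring, norm_neg,
      ← dist_eq_norm]
    exact hwy
  rcases h.wp hx'y ((D.hy.near_sub h hx').mono fun q hq => hq he) hd
    (by rw [hpB]; exact he) with h1 | h1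
  · exact hpy h1
  · exact hpy2 (by rw [hx] at h1; linear_combination -h1)

end DS

namespace Hub

variable {z y : ℂ} {A B : Set (Fin 6)}

/-- a common point of the two circles of a star with palette `A ∪ B` is harmless, its pair is
mixed -/
theorem mixed (F : Hub U T) (D : DS T z y A B) {w : ℂ} (hwz : dist w z = 1)
    (hwy : dist w y = 1) (hT : T w = A ∪ B) :
    ∃ A₁, Harm T w A₁ ∧ A₁ ≠ A ∧ A₁ ≠ B := by
  have hw4 : (T w).ncard = 4 := by
    rw [hT, Set.ncard_union_eq ((D.dis.mono_right D.hz.sub).symm) (Set.toFinite _)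
      (Set.toFinite _), D.hz.cardA, D.hy.cardA]
  rcases F.cases hw4 with ⟨A₁, hA₁⟩ | ⟨a, b, c, d, hD⟩
  · exact ⟨A₁, hA₁, D.symm.tri F.irr hwy hwz hA₁, D.tri F.irr hwz hwy hA₁⟩
  · exfalso
    obtain ⟨a', b', c', d', hD', hS⟩ := hD.first
      (F.tie hD (y := z) (by rw [dist_comm]; exact hwz) D.hz.card).1
    have hA : A = {a', b'} := by
      rw [← hS]
      refine Set.eq_of_subset_of_ncard_le (fun i hi => ⟨D.hz.sub hi, ?_⟩) ?_ (Set.toFinite _)
      · rw [hT]; exact Or.inl hi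
      · rw [hS, Set.ncard_pair hD'.ab, D.hz.cardA]
    obtain ⟨p, hp⟩ := hD'.arc1
    rw [← hA] at hp
    exact D.symm.tri_arc F.irr hwy hwz hp

/-- the next point of the hexagon is again a partner -/
theorem next (F : Hub U T) (D : DS T z y A B) {w r : ℂ} {A₁ : Set (Fin 6)}
    (hwz : dist w z = 1) (hrz : dist r z = 1) (hrw : dist r w = 1)
    (hne2 : w + z ≠ 2 * r) (hw : Harm T w A₁) (hT : T w = A ∪ B)
    (hA₁ : A₁ ≠ A) (hB₁ : A₁ ≠ B) (hBr : B ⊆ T r) : DS T z r A B := by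
  have h := F.irr
  obtain ⟨a, haA, haA₁⟩ := D.mix hw hT hB₁
  obtain ⟨e, heB, heA₁⟩ := D.symm.mix hw (by rw [hT, union_comm]) hA₁
  have haB : a ∉ B := fun hh => Set.disjoint_left.1 D.dis hh (D.hz.sub haA)
  have hea : e ≠ a := fun hh => haB (hh ▸ heB)
  have hwne : w ≠ z := by
    rintro rfl; rw [dist_self] at hwz; exact zero_ne_one hwz
  set s : Set (Fin 6) := T w \ {a} with hs
  have haw : a ∈ T w := hw.sub haA₁
  have hs3 : s.ncard = 3 := by
    rw [hs, Set.ncard_sdiff_singleton_of_mem haw, hw.card]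
  have hBs : B ⊆ s := fun i hi => ⟨by rw [hT]; exact Or.inr hi, fun h1 => haB (h1 ▸ hi)⟩
  have hsc : sᶜ ⊆ T z := by
    intro i hi
    rcases D.cov i with h1 | h1
    · exact absurd (hBs h1) hi
    · exact h1
  have hsc3 : sᶜ.ncard = 3 := by
    have := Set.ncard_add_ncard_compl s (Set.toFinite _) (Set.toFinite _)
    rw [Nat.card_eq_fintype_card, Fintype.card_fin] at this
    omega
  have Fw : Fc T w s := fc_harmless sdiff_subset hw.h1 fun hcon => (hcon haA₁).2 rfl
  obtain ⟨a', ha'A, ha'a, -⟩ := D.symm.other haA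
  have ha's : a' ∈ s := ⟨by rw [hT]; exact Or.inl ha'A, ha'a⟩
  have Fz : Fc T z sᶜ := fc_harmless hsc D.hz.h1 fun hcon => hcon ha'A ha's
  have hr4 : (T r).ncard = 4 := le_antisymm (F.le4 r) (Fw.four_le' h Fz hwne hrw hrz hne2)
  obtain ⟨c1, c2⟩ := Fw.four_le h Fz hwne hrw hrz hne2
  have hc := Set.ncard_inter_add_ncard_sdiff_eq_ncard (T r) s (Set.toFinite _)
  rw [Set.sdiff_eq, hr4] at hc
  have hrs : T r ∩ s = B := by
    refine (Set.eq_of_subset_of_ncard_le (t := T r ∩ s) (fun i hi => ⟨hBr hi, hBs hi⟩) ?_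
      (Set.toFinite _)).symm
    rw [D.hy.cardA]; omega
  have ha'B : a' ∉ B := fun hh => Set.disjoint_left.1 D.dis hh (D.hz.sub ha'A)
  have ha'r : a' ∉ T r := by
    intro hh
    have : a' ∈ T r ∩ s := ⟨hh, ha's⟩
    rw [hrs] at this
    exact ha'B this
  have hA₁2 : ∀ i ∈ A₁, i = a ∨ i = e := by
    have h1 : ({a, e} : Set (Fin 6)) = A₁ := by
      refine Set.eq_of_subset_of_ncard_le ?_ ?_ (Set.toFinite _)
      · rintro i (rfl | rfl)
        · exact haA₁
        · exact heA₁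
      · rw [hw.cardA, Set.ncard_pair (Ne.symm hea)]
    intro i hi
    rw [← h1] at hi
    exact hi
  have ha'A₁ : a' ∉ A₁ := by
    intro hh
    rcases hA₁2 a' hh with h1 | h1
    · exact ha'a h1
    · exact ha'B (h1 ▸ heB)
  have hwr : dist w r = 1 := by rw [dist_comm]; exact hrw
  have hzr : dist z r = 1 := by rw [dist_comm]; exact hrz
  -- `r` is not a two-pair point
  obtain ⟨Ar, hAr⟩ : ∃ Ar, Harm T r Ar := by
    rcases F.cases hr4 with h1 | ⟨a1, b1, c1', d1, hD⟩
    · exact h1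
    · exfalso
      obtain ⟨k1, k2⟩ := F.tie hD hwr hw.card
      have hcard : (T w ∩ T r).ncard = 2 := by
        rcases k1 with k1 | k1
        · rw [k1, Set.ncard_pair hD.ab]
        · rw [k1, Set.ncard_pair hD.cd]
      have hwrB : T w ∩ T r = B := by
        symm
        refine Set.eq_of_subset_of_ncard_le (fun i hi => ⟨by rw [hT]; exact Or.inr hi, hBr hi⟩)
          (by rw [hcard, D.hy.cardA]) (Set.toFinite _)
      obtain ⟨p, hp, hJ⟩ := hw.arc
      rcases k2 p A₁ hw.cardA hw.sub ⟨hp, hJ⟩ with k3 | k3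
      · exact hB₁ (k3.trans hwrB)
      · have : e ∈ T w \ T r := k3 ▸ heA₁
        exact this.2 (hBr heB)
  -- first half
  obtain ⟨a0, b0, ha0, hb0, ha0r, hb0r, hab0, ha0s, hb0s, hfr⟩ :=
    Fw.pair_freq h Fz hwne hs3 hrw hrz hne2 hr4 hw (F.min w (by rw [hw.card]))
      (fun hcon => ha'r (hcon ⟨by rw [hT]; exact Or.inl ha'A, ha'A₁⟩))
  have hB0 : B = {a0, b0} := by
    refine ncard_two_eq D.hy.cardA ?_ ?_ hab0
    · rw [← hrs]; exact ⟨ha0r, ha0s⟩
    · rw [← hrs]; exact ⟨hb0r, hb0s⟩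
  have hArB : Ar = B := by
    by_contra hne
    -- the second pair
    obtain ⟨c0, d0, hcd0, hC0⟩ := Set.ncard_eq_two.1 D.hz.cardC
    have e1 : ∀ᶠ pr : ℂ × ℂ in 𝓝 (w, r), (4 ≤ (T pr.2).ncard → T pr.2 = T r) ∧
        ∀ A', Harm T pr.2 A' → T pr.2 = T r ∧ A' = Ar := by
      have h2 : Tendsto (Prod.snd : ℂ × ℂ → ℂ) (𝓝 (w, r)) (𝓝 r) := continuous_snd.tendsto (w, r)
      exact h2.eventually ((hAr.full h).and (hAr.nhd h))
    have key : ∀ pr : ℂ × ℂ, (T pr.1 = {a0, b0} ∧ dist pr.2 z = 1 ∧ dist pr.2 pr.1 = 1 ∧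
        T pr.1 ⊆ T pr.2 ∧ 4 ≤ (T pr.2).ncard) → ((4 ≤ (T pr.2).ncard → T pr.2 = T r) ∧
        ∀ A', Harm T pr.2 A' → T pr.2 = T r ∧ A' = Ar) →
        T r = {c0, d0, a0, b0} ∧ pr.2 ≠ r ∧ DPt T pr.2 c0 d0 a0 b0 := by
      rintro ⟨x, y'⟩ ⟨m1, m2, m3, m4, m5⟩ ⟨n1, n2⟩
      simp only at m1 m2 m3 m4 m5 n1 n2 ⊢
      have hTy := n1 m5
      have hy4 : (T y').ncard = 4 := le_antisymm (F.le4 y') m5
      have hxy : dist x y' = 1 := by rw [dist_comm]; exact m3
      rcases F.cases hy4 with ⟨A', hA'⟩ | ⟨a1, b1, c1', d1, hD⟩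
      · exfalso
        have h7 := (n2 A' hA').2
        have h8 := hA'.h1 x hxy m4
        rw [m1, ← hB0, h7] at h8
        exact hne (Set.eq_of_subset_of_ncard_le h8 (by rw [hAr.cardA, D.hy.cardA])
          (Set.toFinite _))
      · have hzy : dist z y' = 1 := by rw [dist_comm]; exact m2
        obtain ⟨k1, k2⟩ := F.tie hD hzy D.hz.card
        have hcard : (T z ∩ T y').ncard = 2 := by
          rcases k1 with k1 | k1
          · rw [k1, Set.ncard_pair hD.ab]
          · rw [k1, Set.ncard_pair hD.cd]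
        obtain ⟨p, hp, hJ⟩ := D.hz.arc
        have hAy : A = T z \ T y' := by
          rcases k2 p A D.hz.cardA D.hz.sub ⟨hp, hJ⟩ with k3 | k3
          · exfalso
            have : a' ∈ T z ∩ T y' := k3 ▸ ha'A
            exact ha'r (hTy ▸ this.2)
          · exact k3
        have hCy : T z ∩ T y' = {c0, d0} := by
          rw [← hC0, hAy, Set.sdiff_sdiff_right_self]
        have hBy : {a0, b0} = T y' \ {c0, d0} := by
          rw [← hB0]
          refine Set.eq_of_subset_of_ncard_le (fun i hi => ⟨hTy ▸ hBr hi, fun h7 => ?_⟩) ?_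
            (Set.toFinite _)
          · rw [← hC0] at h7
            exact Set.disjoint_left.1 D.dis hi h7.1
          · rw [Set.ncard_sdiff (by rw [← hCy]; exact inter_subset_right) (Set.toFinite _), hy4,
              Set.ncard_pair hcd0, D.hy.cardA]
        have hpal : T y' = {c0, d0, a0, b0} := by
          have h7 : T y' = {c0, d0} ∪ {a0, b0} := by
            rw [hBy]
            exact (Set.union_sdiff_cancel (by rw [← hCy]; exact inter_subset_right)).symm
          rw [h7]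
          ext i
          simp only [mem_insert_iff, mem_singleton_iff, mem_union]
          tauto
        refine ⟨by rw [← hTy, hpal], fun h7 => ?_, ?_⟩
        · rw [h7] at hD
          exact hAr.not_dpt hD
        · have hcomp : ∀ {i j m n : Fin 6}, T y' = {i, j, m, n} →
              (T y').ncard = 4 → T y' \ {i, j} = {m, n} := by
            intro i j m n hT' h4'
            rw [hT'] at h4'
            obtain ⟨q1, q2, q3, q4, q5, q6⟩ := four_distinct h4'
            rw [hT']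
            ext x
            simp only [mem_insert_iff, mem_singleton_iff, Set.mem_sdiff]
            constructor
            · rintro ⟨h8, h9⟩; tauto
            · rintro (rfl | rfl)
              · exact ⟨by tauto, fun h8 => h8.elim (fun h9 => q2 h9.symm) fun h9 => q4 h9.symm⟩
              · exact ⟨by tauto, fun h8 => h8.elim (fun h9 => q3 h9.symm) fun h9 => q5 h9.symm⟩
          refine hD.relabel ?_
          rcases k1 with k1 | k1
          · left
            refine ⟨by rw [← hCy, k1], ?_⟩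
            rw [hBy, ← hCy, k1]
            exact hcomp hD.pal hy4
          · right
            refine ⟨by rw [← hCy, k1], ?_⟩
            rw [hBy, ← hCy, k1]
            exact hcomp hD.swap.pal hy4
    have hfr2 : ∃ᶠ pr : ℂ × ℂ in 𝓝 (w, r), (T r = {c0, d0, a0, b0} ∧ pr.2 ≠ r ∧
        DPt T pr.2 c0 d0 a0 b0) ∧ dist pr.1 pr.2 = 1 ∧ T pr.1 = {a0, b0} :=
      (hfr.and_eventually e1).mono fun pr hpr =>
        ⟨key pr hpr.1 hpr.2, by rw [dist_comm]; exact hpr.1.2.2.1, hpr.1.1⟩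
    have hfr3 : ∃ᶠ pr : ℂ × ℂ in 𝓝 (r, w), pr.1 ≠ r ∧ DPt T pr.1 c0 d0 a0 b0 ∧
        dist pr.2 pr.1 = 1 ∧ T pr.2 = {a0, b0} := by
      have h2 : Tendsto (Prod.swap : ℂ × ℂ → ℂ × ℂ) (𝓝 (w, r)) (𝓝 (r, w)) :=
        continuous_swap.tendsto (w, r)
      refine h2.frequently (hfr2.mono fun pr hpr => ?_)
      exact ⟨hpr.1.2.1, hpr.1.2.2, hpr.2.1, hpr.2.2⟩
    have hfr4 : ∃ᶠ x in 𝓝 r, x ≠ r ∧ DPt T x c0 d0 a0 b0 := by
      have h1 : Tendsto (Prod.fst : ℂ × ℂ → ℂ) (𝓝 (r, w)) (𝓝 r) := continuous_fst.tendsto (r, w)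
      exact h1.frequently (hfr3.mono fun pr hpr => ⟨hpr.1, hpr.2.1⟩)
    obtain ⟨-, hpairs, -, -⟩ := h.limit_dpt F.le4 hfr4
    obtain ⟨p, hp, hJ⟩ := hAr.arc
    rcases hpairs p Ar hAr.cardA hAr.sub ⟨hp, hJ⟩ with h7 | h7
    · rw [h7] at hAr
      obtain ⟨-, -, h8⟩ := F.star_of_lim hfr3 hAr
      have h9 := hw.unique h8
      have : e ∈ (T r)ᶜ := h9 ▸ heA₁
      exact this (hBr heB)
    · exact hne (h7.trans hB0.symm)
  -- second half
  have hCr : T z \ A ⊆ T r := by
    by_contra hcon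
    have Fw' : Fc T w sᶜᶜ := by rw [compl_compl]; exact Fw
    obtain ⟨a2, b2, ha2, hb2, ha2r, hb2r, hab2, -, -, hfr'⟩ :=
      Fz.pair_freq h Fw' hwne.symm hsc3 hrz hrw (by rw [add_comm]; exact hne2) hr4 D.hz
        (F.min z (by rw [D.hz.card])) hcon
    have e1 : ∀ᶠ pr : ℂ × ℂ in 𝓝 (z, r), (4 ≤ (T pr.2).ncard → T pr.2 = T r) ∧
        ∀ A', Harm T pr.2 A' → T pr.2 = T r ∧ A' = Ar := by
      have h2 : Tendsto (Prod.snd : ℂ × ℂ → ℂ) (𝓝 (z, r)) (𝓝 r) := continuous_snd.tendsto (z, r)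
      exact h2.eventually ((hAr.full h).and (hAr.nhd h))
    obtain ⟨⟨x, y'⟩, ⟨m1, m2, m3, m4, m5⟩, n1, n2⟩ := (hfr'.and_eventually e1).exists
    simp only at m1 m2 m3 m4 m5 n1 n2
    have hTy := n1 m5
    have hy4 : (T y').ncard = 4 := le_antisymm (F.le4 y') m5
    have hxy : dist x y' = 1 := by rw [dist_comm]; exact m3
    have ha2B : a2 ∉ B := fun h7 => Set.disjoint_left.1 D.dis h7 (D.hz.sub ha2)
    rcases F.cases hy4 with ⟨A', hA'⟩ | ⟨a1, b1, c1', d1, hD⟩
    · have h7 := (n2 A' hA').2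
      have h8 := hA'.h1 x hxy m4
      rw [m1, h7, hArB] at h8
      rcases h8 heB with h9 | h9
      · exact ha2B (h9 ▸ heB)
      · rw [mem_singleton_iff] at h9
        exact Set.disjoint_left.1 D.dis (h9 ▸ heB) hb2.1
    · refine F.not_three (z := y') (y := w) (by rw [dist_comm]; exact m2) hw.card ?_ hD
      have h1 : insert a2 B ⊆ T w ∩ T y' := by
        rintro i (rfl | hi)
        · exact ⟨by rw [hT]; exact Or.inl ha2, hTy ▸ ha2r⟩
        · exact ⟨by rw [hT]; exact Or.inr hi, hTy ▸ hBr hi⟩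
      have h2 := Set.ncard_le_ncard h1 (Set.toFinite _)
      rwa [Set.ncard_insert_of_notMem ha2B (Set.toFinite _), D.hy.cardA] at h2
  rw [hArB] at hAr
  refine ⟨D.hz, hAr, hrz, ?_, D.dis⟩
  refine Set.eq_of_subset_of_ncard_le (fun i hi => ⟨hCr hi, fun h7 => ?_⟩)
    (by rw [D.hz.cardC, hAr.cardC]) (Set.toFinite _)
  exact Set.disjoint_left.1 D.dis h7 hi.1

end Hub

end Vale.Agent.P032.Six
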