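import Vale.Agent.P032.R2.H479.Contact
import Vale.Agent.P032.R2.H479.Meet
import Vale.Agent.P032.S5.H205.Contact

/-!
# P032: the world without stopped arcs and without contacts meeting both pairs

`NX T` : no four-coloured point on the circle of a two-pair point `ab | cd` meets both pairs, and no
exact arcs of the circle accumulate at such a point.  With at most four colours everywhere the contacts
of two-pair points are two-pair points of type S3 or harmless with the common pair (`NX.tie`), and
exact arcs end at three-coloured points (`NX.end3`).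
-/

open Set Filter Topology Metric

noncomputable section

namespace Vale.Agent.P032.Six

variable {U : Fin 6 → Set ℂ} {T : ℂ → Set (Fin 6)}

/-- no stopped arcs, no contacts meeting both pairs -/
def NX (T : ℂ → Set (Fin 6)) : Prop :=
  ∀ {z : ℂ} {a b c d : Fin 6}, DPt T z a b c d → ∀ {y : ℂ}, dist y z = 1 → (T y).ncard = 4 →
    ¬ ((T y ∩ {a, b}).Nonempty ∧ (T y ∩ {c, d}).Nonempty) ∧ ¬ Acc T z {a, b} y

/-- the two other colours -/
theorem DPt.exists_two {z : ℂ} {a b c d : Fin 6} (hz : DPt T z a b c d) :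
    ∃ e f, e ≠ f ∧ e ∉ T z ∧ f ∉ T z ∧
      ∀ i : Fin 6, i = a ∨ i = b ∨ i = c ∨ i = d ∨ i = e ∨ i = f := by
  have hc : ((T z)ᶜ).ncard = 2 := by
    have h1 := Set.ncard_add_ncard_compl (T z)
    rw [Nat.card_eq_fintype_card, Fintype.card_fin, hz.card] at h1
    omega
  obtain ⟨e, f, hef, hE⟩ := Set.ncard_eq_two.1 hc
  have he : e ∈ (T z)ᶜ := by rw [hE]; simp
  have hf : f ∈ (T z)ᶜ := by rw [hE]; simp
  refine ⟨e, f, hef, he, hf, fun i => ?_⟩
  by_cases hi : i ∈ T z
  · rw [hz.pal] at hi
    rcases hi with h1 | h1 | h1 | h1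
    · exact Or.inl h1
    · exact Or.inr (Or.inl h1)
    · exact Or.inr (Or.inr (Or.inl h1))
    · exact Or.inr (Or.inr (Or.inr (Or.inl h1)))
  · have h2 : i ∈ (T z)ᶜ := hi
    rw [hE] at h2
    rcases h2 with h1 | h1
    · exact Or.inr (Or.inr (Or.inr (Or.inr (Or.inl h1))))
    · exact Or.inr (Or.inr (Or.inr (Or.inr (Or.inr h1))))

/-- points with the two colours of a pair near a point of the circle are on the circle -/
theorem Irr.on_circle (h : Irr U T) {z y : ℂ} {a b c d : Fin 6} (hz : DPt T z a b c d)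
    (hyz : dist y z = 1) : ∀ᶠ w in 𝓝 y, a ∈ Pal U w → b ∈ Pal U w → dist w z = 1 := by
  rcases h.sides hz hyz with hs | hs
  · filter_upwards [hs] with w hw ha hb
    rcases lt_trichotomy (dist w z) 1 with h1 | h1 | h1
    · exact absurd hb (hw.2 h1)
    · exact h1
    · exact absurd ha (hw.1 h1)
  · filter_upwards [hs] with w hw ha hb
    rcases lt_trichotomy (dist w z) 1 with h1 | h1 | h1
    · exact absurd ha (hw.2 h1)
    · exact h1
    · exact absurd hb (hw.1 h1)

/-- exact points near a point of the circle: exact arcs accumulate -/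
theorem Irr.acc_of_freq (h : Irr U T) {z y : ℂ} {a b c d : Fin 6} (hz : DPt T z a b c d)
    (hyz : dist y z = 1) (hf : ∃ᶠ w in 𝓝 y, T w = {a, b}) : Acc T z {a, b} y := by
  intro V hV
  obtain ⟨w, hw, hwc, hwV⟩ := (hf.and_eventually ((h.on_circle hz hyz).and hV)).exists
  have hwz : dist w z = 1 := hwc (h.sub w (by rw [hw]; simp)) (h.sub w (by rw [hw]; simp))
  refine ⟨w, hwV, hwz, h.pair_open (Set.ncard_pair hz.ab) ?_ hw.subset⟩
  rw [hz.pal]
  rintro i (h1 | h1)
  · left; exact h1
  · right; left; exact h1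

namespace NX

theorem end3 (N : NX T) (h4 : ∀ x, (T x).ncard ≤ 4) {z : ℂ} {a b c d : Fin 6}
    (hz : DPt T z a b c d) {v : ℂ} (hA : Acc T z {a, b} v) : (T v).ncard ≤ 3 := by
  by_contra hcon
  have := h4 v
  exact (N hz hA.dist (by omega)).2 hA

/-- contacts, one side -/
theorem tie_aux (N : NX T) (h : Irr U T) (hmin : Mn U T) (h4 : ∀ x, (T x).ncard ≤ 4) {z : ℂ}
    {a b c d : Fin 6} (hz : DPt T z a b c d) {y : ℂ} (hyz : dist y z = 1)
    (hy : (T y).ncard = 4) (hc : c ∉ T y) (hd : d ∉ T y) :
    T y ∩ T z = {a, b} ∧ ((∃ e f, DPt T y a b e f) ∨ Harm T y {a, b}) := by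
  obtain ⟨e, f, hef, he, hf, hall⟩ := hz.exists_two
  have hea : e ≠ a := by rintro rfl; exact he (by rw [hz.pal]; simp)
  have heb : e ≠ b := by rintro rfl; exact he (by rw [hz.pal]; simp)
  have hfa : f ≠ a := by rintro rfl; exact hf (by rw [hz.pal]; simp)
  have hfb : f ≠ b := by rintro rfl; exact hf (by rw [hz.pal]; simp)
  have hc4 : ({a, b, e, f} : Set (Fin 6)).ncard = 4 := by
    rw [Set.ncard_insert_of_notMem (by simp [hz.ab, hea.symm, hfa.symm]) (Set.toFinite _),
      Set.ncard_insert_of_notMem (by simp [heb.symm, hfb.symm]) (Set.toFinite _),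
      Set.ncard_pair hef]
  have hTy : T y = {a, b, e, f} := by
    refine Set.eq_of_subset_of_ncard_le (fun i hi => ?_) (by rw [hc4, hy]) (Set.toFinite _)
    rcases hall i with h1 | h1 | h1 | h1 | h1 | h1
    · left; exact h1
    · right; left; exact h1
    · exact absurd (h1 ▸ hi) hc
    · exact absurd (h1 ▸ hi) hd
    · right; right; left; exact h1
    · right; right; right; exact h1
  have hint : T y ∩ T z = {a, b} := by
    ext i
    constructor
    · rintro ⟨h1, h2⟩
      rw [hTy] at h1
      rcases h1 with h1 | h1 | h1 | h1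
      · left; exact h1
      · right; exact h1
      · exact absurd (h1 ▸ h2) he
      · rw [mem_singleton_iff] at h1; exact absurd (h1 ▸ h2) hf
    · rintro (h1 | h1)
      · rw [h1]; exact ⟨by rw [hTy]; simp, by rw [hz.pal]; simp⟩
      · rw [mem_singleton_iff] at h1; rw [h1]; exact ⟨by rw [hTy]; simp, by rw [hz.pal]; simp⟩
  refine ⟨hint, ?_⟩
  have hcases : (∃ A, Harm T y A) ∨ ∃ a' b' c' d', DPt T y a' b' c' d' := by
    by_cases hD : ∃ a b c d, DPt T y a b c d
    · exact Or.inr hD
    · left
      exact h.harm_of_noD hmin hy (h.exists_inside hy fun x _ => h4 x)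
        fun a b c d h => hD ⟨a, b, c, d, h⟩
  rcases hcases with ⟨B, hB⟩ | ⟨p, q, r, s, hD⟩
  · -- harmless
    right
    have hnoacc : ¬ ∃ᶠ w in 𝓝 y, T w = {a, b} := fun hfr =>
      (N hz hyz hy).2 (h.acc_of_freq hz hyz hfr)
    have hmy : ∀ s, s ⊆ T y → s ≠ T y → ¬ ∀ᶠ w in 𝓝 y, Suf U s w := hmin y (by rw [hy])
    have hab : a ∈ B ↔ b ∈ B := by
      constructor
      · intro ha
        by_contra hb
        exact hnoacc (hB.contact h hmy ha (by rw [hTy]; simp) hb)
      · intro hb
        by_contra ha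
        refine hnoacc ?_
        have := hB.contact h hmy hb (show a ∈ T y by rw [hTy]; simp) ha
        rwa [pair_comm] at this
    by_cases ha : a ∈ B
    · have : ({a, b} : Set (Fin 6)) = B := by
        refine Set.eq_of_subset_of_ncard_le ?_ (by rw [hB.cardA, Set.ncard_pair hz.ab])
          (Set.toFinite _)
        rintro i (h1 | h1)
        · rw [h1]; exact ha
        · rw [mem_singleton_iff] at h1; rw [h1]; exact hab.1 ha
      rw [this]; exact hB
    · exfalso
      have hb : b ∉ B := fun hb => ha (hab.2 hb)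
      have hBef : B = {e, f} := by
        refine Set.eq_of_subset_of_ncard_le (fun i hi => ?_)
          (by rw [hB.cardA, Set.ncard_pair hef]) (Set.toFinite _)
        have h1 := hB.sub hi
        rw [hTy] at h1
        rcases h1 with h1 | h1 | h1 | h1
        · exact absurd (h1 ▸ hi) ha
        · exact absurd (h1 ▸ hi) hb
        · left; exact h1
        · right; exact h1
      rw [hBef] at hB
      refine h.no_harm_contact (fun z hz s hs hne => hmin z hz s hs hne) h4 hz hyz hTy hall he hf hB
        (fun v hA _ => N.end3 h4 hz.swap hA) fun w a' b' c' d' hD hyw => ?_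
      by_contra h3
      push Not at h3
      refine (N hD hyw hy).1 ?_
      have hT : T y ∩ T w ⊆ {a', b'} ∪ {c', d'} := by
        rintro i ⟨-, h2⟩
        rw [hD.pal] at h2
        rcases h2 with h2 | h2 | h2 | h2
        · exact Or.inl (Or.inl h2)
        · exact Or.inl (Or.inr h2)
        · exact Or.inr (Or.inl h2)
        · exact Or.inr (Or.inr h2)
      constructor
      · by_contra hne
        rw [Set.not_nonempty_iff_eq_empty] at hne
        have : T y ∩ T w ⊆ {c', d'} := fun i hi => (hT hi).resolve_left fun h5 => by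
          have : i ∈ T y ∩ {a', b'} := ⟨hi.1, h5⟩
          rw [hne] at this; exact this
        have := Set.ncard_le_ncard this (Set.toFinite _)
        rw [Set.ncard_pair hD.cd] at this
        omega
      · by_contra hne
        rw [Set.not_nonempty_iff_eq_empty] at hne
        have : T y ∩ T w ⊆ {a', b'} := fun i hi => (hT hi).resolve_right fun h5 => by
          have : i ∈ T y ∩ {c', d'} := ⟨hi.1, h5⟩
          rw [hne] at this; exact this
        have := Set.ncard_le_ncard this (Set.toFinite _)
        rw [Set.ncard_pair hD.ab] at this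
        omega
  · -- two-pair
    left
    have hzy : dist z y = 1 := by rw [dist_comm]; exact hyz
    have hnb := (N hD hzy hz.card).1
    have haz : a ∈ T z := by rw [hz.pal]; simp
    have hbz : b ∈ T z := by rw [hz.pal]; simp
    have hay : a ∈ T y := by rw [hTy]; simp
    have hby : b ∈ T y := by rw [hTy]; simp
    -- `a` and `b` are in the same pair
    have key : ∀ {p q r s : Fin 6}, DPt T y p q r s →
        ¬ ((T z ∩ {p, q}).Nonempty ∧ (T z ∩ {r, s}).Nonempty) → (a = p ∨ a = q) →
        ∃ e f, DPt T y a b e f := by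
      intro p q r s hD hnb hap
      have hb : b = p ∨ b = q := by
        by_contra hcon
        push Not at hcon
        have h1 := hby
        rw [hD.pal] at h1
        refine hnb ⟨⟨a, haz, hap⟩, ⟨b, hbz, ?_⟩⟩
        rcases h1 with h1 | h1 | h1 | h1
        · exact absurd h1 hcon.1
        · exact absurd h1 hcon.2
        · left; exact h1
        · right; exact h1
      refine ⟨r, s, hD.relabel (Or.inl ⟨?_, rfl⟩)⟩
      refine Set.eq_of_subset_of_ncard_le ?_ (by rw [Set.ncard_pair hz.ab, Set.ncard_pair hD.ab])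
        (Set.toFinite _)
      rintro i (h1 | h1)
      · rw [h1]; exact hap
      · rw [mem_singleton_iff] at h1; rw [h1]; exact hb
    have h1 := hay
    rw [hD.pal] at h1
    rcases h1 with h1 | h1 | h1 | h1
    · exact key hD hnb (Or.inl h1)
    · exact key hD hnb (Or.inr h1)
    · exact key hD.swap (fun h2 => hnb ⟨h2.2, h2.1⟩) (Or.inl h1)
    · exact key hD.swap (fun h2 => hnb ⟨h2.2, h2.1⟩) (Or.inr h1)

/-- **Contacts.** -/
theorem tie (N : NX T) (h : Irr U T) (hmin : Mn U T) (h4 : ∀ x, (T x).ncard ≤ 4) {z : ℂ}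
    {a b c d : Fin 6} (hz : DPt T z a b c d) {y : ℂ} (hyz : dist y z = 1)
    (hy : (T y).ncard = 4) :
    (T y ∩ T z = {a, b} ∧ ((∃ e f, DPt T y a b e f) ∨ Harm T y {a, b})) ∨
      (T y ∩ T z = {c, d} ∧ ((∃ e f, DPt T y c d e f) ∨ Harm T y {c, d})) := by
  have hnb := (N hz hyz hy).1
  by_cases hcd : (T y ∩ {c, d}).Nonempty
  · right
    have hab : ¬ (T y ∩ {a, b}).Nonempty := fun h1 => hnb ⟨h1, hcd⟩
    exact N.tie_aux h hmin h4 hz.swap hyz hy (fun h1 => hab ⟨a, h1, by simp⟩)
      fun h1 => hab ⟨b, h1, by simp⟩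
  · left
    exact N.tie_aux h hmin h4 hz hyz hy (fun h1 => hcd ⟨c, h1, by simp⟩)
      fun h1 => hcd ⟨d, h1, by simp⟩

end NX

end Vale.Agent.P032.Six
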