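import Vale.Agent.P032.R2.H479.Shrink

/-!
# P032: a limit of two-pair points is one point of a D-star pair
-/

open Set Filter Topology Metric

noncomputable section

namespace Vale.Agent.P032.Six

variable {U : Fin 6 → Set ℂ} {T : ℂ → Set (Fin 6)}

/-- in a bounded region close points have at most four colours together -/
theorem Irr.close (h : Irr U T) (h4 : ∀ x, (T x).ncard ≤ 4) (z : ℂ) (R : ℝ) :
    ∃ δ > 0, ∀ x y, dist x z ≤ R → dist y x < δ → (T x ∪ T y).ncard ≤ 4 := by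
  have h1 : ∀ x0 : ℂ, ∃ N : Set ℂ, IsOpen N ∧ x0 ∈ N ∧ ∀ w ∈ N, T w ⊆ T x0 := by
    intro x0
    obtain ⟨N, hN, hNo, hxN⟩ := _root_.mem_nhds_iff.1 (h.nhd x0)
    exact ⟨N, hNo, hxN, fun w hw => hN hw⟩
  choose N hNo hxN hN using h1
  obtain ⟨δ, hδ, hb⟩ := lebesgue_number_lemma_of_metric (isCompact_closedBall z R) hNo
    (fun x _ => mem_iUnion.2 ⟨x, hxN x⟩)
  refine ⟨δ, hδ, fun x y hx hy => ?_⟩
  obtain ⟨i, hi⟩ := hb x (mem_closedBall.2 hx)
  have h2 : T x ∪ T y ⊆ T i := union_subset (hN i x (hi (mem_ball_self hδ)))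
    (hN i y (hi (mem_ball.2 hy)))
  exact (Set.ncard_le_ncard h2 (Set.toFinite _)).trans (h4 i)

theorem norm_cis_sub_one (s : ℝ) : ‖cis s - 1‖ ≤ |s| := by
  have h1 := Real.norm_exp_I_mul_ofReal_sub_one_le (x := s)
  rw [mul_comm] at h1
  exact h1

theorem dist_rot_le {x p : ℂ} (hp : dist p x = 1) (s : ℝ) : dist (x + (p - x) * cis s) p ≤ |s| := by
  rw [dist_eq_norm, show x + (p - x) * cis s - p = (p - x) * (cis s - 1) by ring, norm_mul,
    ← dist_eq_norm, hp, one_mul]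
  exact norm_cis_sub_one s

/-- two arcs of length at most `π / 3` at both sides of a point have different ends -/
theorem rot_ne {x p : ℂ} (hp : dist p x = 1) {l₁ l₂ : ℝ} (h1 : 0 < l₁) (h1' : l₁ ≤ Real.pi / 3)
    (h2 : 0 < l₂) (h2' : l₂ ≤ Real.pi / 3) :
    x + (p - x) * cis (-(1 * l₁)) ≠ x + (p - x) * cis (-(-1 * l₂)) := by
  intro h
  have hne : p - x ≠ 0 := by
    intro h0
    rw [dist_eq_norm, h0, norm_zero] at hp
    exact zero_ne_one hp
  have h3 : cis (-(1 * l₁)) = cis (-(-1 * l₂)) := mul_left_cancel₀ hne (add_left_cancel h)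
  have h4 : cis (l₁ + l₂) = 1 := by
    have e : l₁ + l₂ = -(-1 * l₂) + l₁ := by ring
    rw [e, cis_add394, ← h3, ← cis_add394, show -(1 * l₁) + l₁ = 0 by ring, cis_zero394]
  have h5 : Real.cos (l₁ + l₂) = 1 := by
    have := congrArg Complex.re h4
    rwa [cis, Complex.exp_ofReal_mul_I_re, Complex.one_re] at this
  have hpi := Real.pi_pos
  have h6 : Real.cos (l₁ + l₂) < Real.cos 0 :=
    Real.cos_lt_cos_of_nonneg_of_le_pi le_rfl (by linarith) (by linarith)
  rw [Real.cos_zero] at h6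
  linarith

theorem Irr.two_five (h : Irr U T) {x v V : ℂ} {a b c d : Fin 6} (h4 : ∀ x, (T x).ncard ≤ 4)
    (hx : DPt T x a b c d) (hv : dist v x = 1) (hV : dist V x = 1) (hc : T v = (T V)ᶜ)
    (hv3 : (T v).ncard = 3) (ha : a ∈ T V) (hb : b ∈ T V) (hvc : c ∈ T v) (hvd : d ∈ T v) :
    (T V).ncard = 3 ∧ V ≠ v ∧ V + v ≠ 2 * x ∧ (T (V + v - x) ∩ T V).ncard = 2 ∧
      (T (V + v - x)).ncard = 4 := by
  have hV3 : (T V).ncard = 3 := by
    have h1 := Set.ncard_add_ncard_compl (T V)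
    rw [Nat.card_eq_fintype_card, Fintype.card_fin, ← hc, hv3] at h1
    omega
  have hne : V ≠ v := by
    rintro rfl
    have : a ∈ (T V)ᶜ := hc ▸ ha
    exact this ha
  have hop : V + v ≠ 2 * x := by
    intro h0
    have e : 2 * x - V = v := by linear_combination -h0
    exact h.anti hx hV (h.sub _ ha) (h.sub _ hb) (h.sub _ (by rw [e]; exact hvc))
      (h.sub _ (by rw [e]; exact hvd))
  obtain ⟨g1, g2, g3, -⟩ := rh_geo hV hv hne hop
  obtain ⟨k1, k2⟩ := five_count h (h4 _) hV3.le hv3.le hc hne g1 g2 g3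
  exact ⟨hV3, hne, hop, k1, k2⟩

/-- **one centre per pair**: two ends with the same letter and one complementary end -/
theorem Irr.corner_inj (h : Irr U T) (h4 : ∀ x, (T x).ncard ≤ 4) {x v v' V : ℂ} {a b c d : Fin 6}
    (hx : DPt T x a b c d) (hv : dist v x = 1) (hv' : dist v' x = 1) (hV : dist V x = 1)
    (hc : T v = (T V)ᶜ) (hc' : T v' = (T V)ᶜ) (hv3 : (T v).ncard = 3) (ha : a ∈ T V)
    (hb : b ∈ T V) (hvc : c ∈ T v) (hvd : d ∈ T v)
    (hU : (T (V + v - x) ∪ T (V + v' - x)).ncard ≤ 4) : v = v' := by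
  have hvv : T v' = T v := by rw [hc, hc']
  obtain ⟨hV3, hne, hop, hP2, hw4⟩ := h.two_five h4 hx hv hV hc hv3 ha hb hvc hvd
  obtain ⟨-, hne', hop', hP2', hw4'⟩ := h.two_five h4 hx hv' hV hc' (by rw [hvv]; exact hv3) ha hb
    (by rw [hvv]; exact hvc) (by rw [hvv]; exact hvd)
  obtain ⟨g1, g2, g3, -⟩ := rh_geo hV hv hne hop
  obtain ⟨g1', g2', g3', -⟩ := rh_geo hV hv' hne' hop'
  have e1 : T (V + v - x) = T (V + v - x) ∪ T (V + v' - x) :=
    Set.eq_of_subset_of_ncard_le subset_union_left (by omega) (Set.toFinite _)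
  have e2 : T (V + v' - x) = T (V + v - x) ∪ T (V + v' - x) :=
    Set.eq_of_subset_of_ncard_le subset_union_right (by omega) (Set.toFinite _)
  have e3 : T (V + v' - x) = T (V + v - x) := by rw [e2, ← e1]
  have hd1 : (T V \ (T (V + v - x) ∩ T V)).ncard = 1 := by
    rw [Set.ncard_sdiff inter_subset_right (Set.toFinite _)]; omega
  obtain ⟨r, hr⟩ := Set.ncard_eq_one.1 hd1
  have hr' : r ∈ T V \ (T (V + v - x) ∩ T V) := by rw [hr]; rfl
  have hTV : T V = insert r (T (V + v - x) ∩ T V) := by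
    ext i
    constructor
    · intro hi
      by_cases hiP : i ∈ T (V + v - x) ∩ T V
      · exact Or.inr hiP
      · left
        have : i ∈ T V \ (T (V + v - x) ∩ T V) := ⟨hi, hiP⟩
        rw [hr] at this
        exact this
    · rintro (rfl | hi)
      · exact hr'.1
      · exact hi.2
  have key := h.rh_unique (u := V) (u' := v) (q := V + v - x) (u'' := v') (p := V + v' - x)
    (P := T (V + v - x) ∩ T V) (r := r) hv3.le (fun i => by rw [hc]; exact em _) hne g1 g2 g3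
    (by rw [hvv]; exact hv3.le) (fun i => by rw [hc']; exact em _) hne' g1' g2' g3' hTV hr'.2 hP2.le
    (by rw [← Set.ncard_pos (Set.toFinite _), hP2]; norm_num) rfl (by rw [e3])
  linear_combination -key

namespace Hub

/-- the arcs shrink -/
theorem shrink (F : Hub U T) {z q : ℂ} {a b c d : Fin 6} (hab : a ≠ b)
    (hz : Harm T z {a, b}) (hpal : T z = {a, b, c, d})
    (hf : ∃ᶠ x in 𝓝 z, x ≠ z ∧ a ∈ T x ∧ b ∈ T x) {ε : ℝ} (hε : 0 < ε) {o : ℝ}
    (ho : o = 1 ∨ o = -1) :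
    ∀ᶠ pr : ℂ × ℂ in 𝓝 (z, q), ¬ (dist pr.2 pr.1 = 1 ∧
      ∀ t ∈ Ioo 0 ε, T (pr.1 + (pr.2 - pr.1) * cis (-(o * t))) = {c, d}) := by
  by_contra hcon
  have hcon' : ∃ᶠ pr : ℂ × ℂ in 𝓝 (z, q), dist pr.2 pr.1 = 1 ∧
      ∀ t ∈ Ioo 0 ε, T (pr.1 + (pr.2 - pr.1) * cis (-(o * t))) = {c, d} := hcon
  obtain ⟨p0, hp0, hJ0⟩ := hz.arc
  have key : ∃ g, dist g z = 1 ∧ ∀ᶠ q' in 𝓝[sphere z 1] g, c ∈ T q' ∧ d ∈ T q' := by
    rcases ho with rfl | rfl
    · refine F.irr.lim_arc (q := q) (α := -ε) (β := 0) (by linarith)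
        (hcon'.mono fun pr hpr => ⟨hpr.1, fun s hs => ?_⟩)
      have h1 := hpr.2 (-s) ⟨by linarith [hs.2], by linarith [hs.1]⟩
      rw [one_mul, neg_neg] at h1
      rw [h1]
      simp
    · refine F.irr.lim_arc (q := q) (α := 0) (β := ε) hε
        (hcon'.mono fun pr hpr => ⟨hpr.1, fun s hs => ?_⟩)
      have h1 := hpr.2 s hs
      rw [neg_one_mul, neg_neg] at h1
      rw [h1]
      simp
  obtain ⟨g, hg, hgJ⟩ := key
  exact F.irr.no_arc hpal hab ⟨hp0, hJ0⟩ hf hg hgJ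

/-- **limits of two-pair points are in D-star pairs** -/
theorem star_of_lim (F : Hub U T) {z q : ℂ} {a b c d : Fin 6}
    (hf : ∃ᶠ pr : ℂ × ℂ in 𝓝 (z, q), pr.1 ≠ z ∧ DPt T pr.1 a b c d ∧ dist pr.2 pr.1 = 1 ∧
      T pr.2 = {c, d}) (hz : Harm T z {a, b}) :
    dist q z = 1 ∧ T q = {c, d} ∪ (T z)ᶜ ∧ Harm T q (T z)ᶜ := by
  have h := F.irr
  have hpi := Real.pi_pos
  obtain ⟨⟨x0, p0⟩, -, hx0, -, -⟩ := hf.exists
  have hfx : ∃ᶠ x in 𝓝 z, x ≠ z ∧ DPt T x a b c d := by
    have h1 : Tendsto (Prod.fst : ℂ × ℂ → ℂ) (𝓝 (z, q)) (𝓝 z) := continuous_fst.tendsto (z, q)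
    exact h1.frequently (hf.mono fun pr hpr => ⟨hpr.1, hpr.2.1⟩)
  have hpal : T z = {a, b, c, d} := h.limit_pal F.le4 (by rw [← hx0.pal]; exact hx0.card)
    (hfx.mono fun x hx => hx.2.pal)
  have hab := hx0.ab
  have hfab : ∃ᶠ x in 𝓝 z, x ≠ z ∧ a ∈ T x ∧ b ∈ T x :=
    hfx.mono fun x hx => ⟨hx.1, by rw [hx.2.pal]; simp, by rw [hx.2.pal]; simp⟩
  have hqz : dist q z = 1 := by
    have hc : IsClosed {pr : ℂ × ℂ | dist pr.2 pr.1 = 1} :=
      isClosed_eq (continuous_snd.dist continuous_fst) continuous_const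
    exact hc.mem_of_frequently_of_tendsto (hf.mono fun pr hpr => hpr.2.2.1) tendsto_id
  -- the neighbourhood of `q`
  have hq1 : ∀ᶠ v in 𝓝 q, ∀ a' b' c' d', DPt T q a' b' c' d' → v ≠ q → (T v).ncard ≤ 2 := by
    by_cases hD : ∃ a' b' c' d', DPt T q a' b' c' d'
    · obtain ⟨a', b', c', d', hD⟩ := hD
      exact (h.iso_card hD).mono fun v hv _ _ _ _ _ => hv
    · exact Eventually.of_forall fun v a' b' c' d' hv => absurd ⟨a', b', c', d', hv⟩ hD
  have hq2 : ∀ᶠ v in 𝓝 q, ∀ A, Harm T q A → A ⊆ T v → T v = T q := by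
    by_cases hA : ∃ A, Harm T q A
    · obtain ⟨A, hA⟩ := hA
      exact (hA.layerE h).mono fun v hv A' hA' h1 => hv (by rwa [hA.unique hA'] at h1)
    · exact Eventually.of_forall fun v A hv => absurd ⟨A, hv⟩ hA
  obtain ⟨ρ, hρ, hρb⟩ := Metric.eventually_nhds_iff.1 ((h.nhd q).and (hq1.and hq2))
  obtain ⟨δ, hδ, hδc⟩ := h.close F.le4 z 4
  set ε : ℝ := (ρ / 2) ⊓ (δ / 4) with hε
  have hε0 : 0 < ε := lt_inf_iff.2 ⟨by positivity, by positivity⟩
  have hερ : ε ≤ ρ / 2 := inf_le_left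
  have hεδ : ε ≤ δ / 4 := inf_le_right
  have s1 := F.shrink (q := q) hab hz hpal hfab hε0 (o := 1) (Or.inl rfl)
  have s2 := F.shrink (q := q) hab hz hpal hfab hε0 (o := -1) (Or.inr rfl)
  have s3 : ∀ᶠ pr : ℂ × ℂ in 𝓝 (z, q), dist pr.1 z < 1 ∧ dist pr.2 q < ρ / 2 := by
    have h1 : Tendsto (Prod.fst : ℂ × ℂ → ℂ) (𝓝 (z, q)) (𝓝 z) := continuous_fst.tendsto (z, q)
    have h2 : Tendsto (Prod.snd : ℂ × ℂ → ℂ) (𝓝 (z, q)) (𝓝 q) := continuous_snd.tendsto (z, q)
    exact (h1.eventually (ball_mem_nhds z one_pos)).and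
      (h2.eventually (ball_mem_nhds q (by positivity)))
  obtain ⟨⟨x, p⟩, ⟨hxz, hx, hpx, hTp⟩, t1, t2, t3, t4⟩ :=
    (hf.and_eventually (s1.and (s2.and s3))).exists
  simp only at hxz hx hpx hTp t1 t2 t3 t4
  have hcd2 : ({c, d} : Set (Fin 6)).ncard = 2 := Set.ncard_pair hx.cd
  have hcdx : ({c, d} : Set (Fin 6)) ⊆ T x := by
    rw [hx.pal]; rintro i (rfl | rfl) <;> simp
  obtain ⟨l₁, l10, l13, l1t, l1s, l1A⟩ := h.arc_side (o := 1) (Or.inl rfl) hcd2 hcdx hpx hTp
  obtain ⟨l₂, l20, l23, l2t, l2s, l2A⟩ := h.arc_side (o := -1) (Or.inr rfl) hcd2 hcdx hpx hTp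
  have l1ε : l₁ < ε := by
    by_contra hcon
    push Not at hcon
    exact t1 ⟨hpx, fun t ht => l1t t ⟨ht.1, ht.2.trans_le hcon⟩⟩
  have l2ε : l₂ < ε := by
    by_contra hcon
    push Not at hcon
    exact t2 ⟨hpx, fun t ht => l2t t ⟨ht.1, ht.2.trans_le hcon⟩⟩
  have hne := rot_ne hpx l10 l13 l20 l23
  have b1 := dist_rot_le hpx (-(1 * l₁))
  have b2 := dist_rot_le hpx (-(-1 * l₂))
  rw [one_mul, abs_neg, abs_of_pos l10] at b1
  rw [neg_one_mul, neg_neg, abs_of_pos l20] at b2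
  rw [one_mul] at l1s l1A
  rw [neg_one_mul, neg_neg] at l2s l2A
  rw [one_mul, neg_one_mul, neg_neg] at hne
  set v₁ := x + (p - x) * cis (-l₁) with hv₁
  set v₂ := x + (p - x) * cis l₂ with hv₂
  have d1 : dist v₁ x = 1 := l1A.dist
  have d2 : dist v₂ x = 1 := l2A.dist
  have n1 : (T v₁).ncard ≤ 3 := F.end3 hx.swap l1A l1s
  have n2 : (T v₂).ncard ≤ 3 := F.end3 hx.swap l2A l2s
  -- the third colour
  have third : ∀ v, dist v x = 1 → (T v).ncard ≤ 3 → {c, d} ⊂ T v →
      ∃ g, g ∉ T x ∧ T v = {c, d, g} ∧ (T v).ncard = 3 := by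
    intro v hv hv3 hss
    obtain ⟨g, hgv, hgP⟩ := exists_of_ssubset hss
    have hc3 : ({c, d, g} : Set (Fin 6)).ncard = 3 := by
      refine Set.ncard_eq_three.2 ⟨c, d, g, hx.cd, ?_, ?_, rfl⟩
      · rintro rfl; exact hgP (by simp)
      · rintro rfl; exact hgP (by simp)
    have hTv : T v = {c, d, g} := by
      symm
      refine Set.eq_of_subset_of_ncard_le ?_ (by rw [hc3]; exact hv3) (Set.toFinite _)
      rintro i (rfl | rfl | hi)
      · exact hss.1 (by simp)
      · exact hss.1 (by simp)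
      · rw [mem_singleton_iff] at hi; rw [hi]; exact hgv
    refine ⟨g, fun hgx => ?_, hTv, by rw [hTv, hc3]⟩
    -- the other colour of `{a, b}`
    have hgab : g = a ∨ g = b := by
      rw [hx.pal] at hgx
      rcases hgx with h1 | h1 | h1 | h1
      · exact Or.inl h1
      · exact Or.inr h1
      · exact absurd (Or.inl h1) hgP
      · exact absurd (Or.inr h1) hgP
    obtain ⟨p1, hp1⟩ := hx.arc1
    obtain ⟨y, hy, hyv, hyv2⟩ := hp1.exists_off_line (y := v)
    have hyT : T y = {a, b} := hy.mem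
    rcases hgab with rfl | rfl
    · refine h.third_notMem (z := x) (v := v) (q := y) (d := b) hv hv3 ?_ hy.1
        (h.sub _ (by rw [hyT]; simp)) hyv hyv2
      rw [hx.pal, hTv]
      rintro i (rfl | rfl | rfl | hi)
      · right; simp
      · left; rfl
      · right; simp
      · rw [mem_singleton_iff] at hi; subst hi; right; simp
    · refine h.third_notMem (z := x) (v := v) (q := y) (d := a) hv hv3 ?_ hy.1
        (h.sub _ (by rw [hyT]; simp)) hyv hyv2
      rw [hx.pal, hTv]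
      rintro i (rfl | rfl | rfl | hi)
      · left; rfl
      · right; simp
      · right; simp
      · rw [mem_singleton_iff] at hi; subst hi; right; simp
  obtain ⟨g₁, hg1x, hT1, m1⟩ := third v₁ d1 n1 l1s
  obtain ⟨g₂, hg2x, hT2, m2⟩ := third v₂ d2 n2 l2s
  have hxc : ((T x)ᶜ).ncard = 2 := by
    have h1 := Set.ncard_add_ncard_compl (T x)
    rw [Nat.card_eq_fintype_card, Fintype.card_fin, hx.card] at h1
    omega
  have hTxz : T x = T z := by rw [hx.pal, hpal]
  -- equal letters are impossible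
  have hg12 : g₁ ≠ g₂ := by
    intro hg
    obtain ⟨f, hfg, hfc⟩ := ncard_two_other hxc (p := g₁) hg1x
    have hfx : f ∉ T x := by
      have : f ∈ (T x)ᶜ := by rw [hfc]; simp
      exact this
    obtain ⟨V, hTV, hVA⟩ := F.full hx hfx
    have hall : ∀ i, i ∈ T x ∨ i = g₁ ∨ i = f := by
      intro i
      by_cases hi : i ∈ T x
      · exact Or.inl hi
      · right
        have : i ∈ (T x)ᶜ := hi
        rw [hfc] at this
        exact this
    have hgx : ∀ i ∈ T x, i ≠ g₁ ∧ i ≠ f := fun i hi =>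
      ⟨fun h1 => hg1x (h1 ▸ hi), fun h1 => hfx (h1 ▸ hi)⟩
    have ma : a ∈ T x := by rw [hx.pal]; simp
    have mb : b ∈ T x := by rw [hx.pal]; simp
    have mc : c ∈ T x := by rw [hx.pal]; simp
    have md : d ∈ T x := by rw [hx.pal]; simp
    have hcomp : T v₁ = (T V)ᶜ := by
      rw [hT1, hTV]
      ext i
      simp only [mem_insert_iff, mem_singleton_iff, mem_compl_iff, not_or]
      constructor
      · rintro (rfl | rfl | rfl)
        · exact ⟨(hgx _ mc).2, hx.ac.symm, hx.bc.symm⟩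
        · exact ⟨(hgx _ md).2, hx.ad.symm, hx.bd.symm⟩
        · exact ⟨Ne.symm hfg, fun h1 => hg1x (h1 ▸ ma), fun h1 => hg1x (h1 ▸ mb)⟩
      · rintro ⟨h1, h2, h3⟩
        rcases hall i with h4 | h4 | h4
        · rw [hx.pal] at h4
          rcases h4 with h5 | h5 | h5 | h5
          · exact absurd h5 h2
          · exact absurd h5 h3
          · exact Or.inl h5
          · exact Or.inr (Or.inl h5)
        · exact Or.inr (Or.inr h4)
        · exact absurd h4 h1
    have hcomp' : T v₂ = (T V)ᶜ := by rw [hT2, ← hg, ← hT1]; exact hcomp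
    refine hne (h.corner_inj F.le4 hx d1 d2 hVA.dist hcomp hcomp' m1 (by rw [hTV]; simp)
      (by rw [hTV]; simp) (by rw [hT1]; simp) (by rw [hT1]; simp) (hδc _ _ ?_ ?_))
    · -- in the ball of radius four
      have e1 : dist (V + v₁ - x) x ≤ 2 := by
        have e2 : V + v₁ - x - x = (V - x) + (v₁ - x) := by ring
        rw [dist_eq_norm, e2]
        refine (norm_add_le _ _).trans ?_
        rw [← dist_eq_norm, ← dist_eq_norm, hVA.dist, d1]
        norm_num
      linarith [dist_triangle (V + v₁ - x) x z]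
    · have e2 : dist (V + v₂ - x) (V + v₁ - x) = dist v₂ v₁ := by
        rw [dist_eq_norm, dist_eq_norm]; congr 1; ring
      rw [e2]
      have := dist_triangle v₂ p v₁
      rw [dist_comm p v₁] at this
      linarith
  -- the palette of `q`
  have r1 : dist v₁ q < ρ := by
    have := dist_triangle v₁ p q
    linarith
  have r2 : dist v₂ q < ρ := by
    have := dist_triangle v₂ p q
    linarith
  obtain ⟨u1, u2, u3⟩ := hρb r1
  obtain ⟨w1, w2, w3⟩ := hρb r2
  have hzc : (T z)ᶜ = {g₁, g₂} := by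
    rw [← hTxz]
    exact ncard_two_eq hxc hg1x hg2x hg12
  have hzc2 : ((T z)ᶜ).ncard = 2 := by rw [← hTxz]; exact hxc
  have hdisj : Disjoint ({c, d} : Set (Fin 6)) (T z)ᶜ := by
    rw [Set.disjoint_left]
    intro i hi hi'
    exact hi' (hTxz ▸ hcdx hi)
  have hc4 : (({c, d} : Set (Fin 6)) ∪ (T z)ᶜ).ncard = 4 := by
    rw [Set.ncard_union_eq hdisj (Set.toFinite _) (Set.toFinite _), hcd2, hzc2]
  have hTq : T q = {c, d} ∪ (T z)ᶜ := by
    symm
    refine Set.eq_of_subset_of_ncard_le ?_ (by rw [hc4]; exact F.le4 q) (Set.toFinite _)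
    rintro i (hi | hi)
    · refine u1 ?_
      rw [hT1]
      rcases hi with rfl | hi
      · simp
      · rw [mem_singleton_iff] at hi; subst hi; simp
    · rw [hzc] at hi
      rcases hi with rfl | hi
      · exact u1 (by rw [hT1]; simp)
      · rw [mem_singleton_iff] at hi; subst hi; exact w1 (by rw [hT2]; simp)
  have hq4 : (T q).ncard = 4 := by rw [hTq, hc4]
  have hv1q : v₁ ≠ q := by
    intro h1
    rw [h1, hq4] at m1
    omega
  refine ⟨hqz, hTq, ?_⟩
  rcases F.cases hq4 with ⟨A, hA⟩ | ⟨a', b', c', d', hD⟩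
  · have hA1 : g₁ ∈ A := by
      by_contra hcon
      have h1 : A ⊆ T v₂ := by
        intro i hi
        have h2 := hA.sub hi
        rw [hTq, hzc] at h2
        rw [hT2]
        rcases h2 with (h2 | h2) | h2 | h2
        · left; exact h2
        · right; left; exact h2
        · exact absurd (h2 ▸ hi) hcon
        · right; right; exact h2
      have h3 := w3 A hA h1
      rw [h3, hq4] at m2
      omega
    have hA2 : g₂ ∈ A := by
      by_contra hcon
      have h1 : A ⊆ T v₁ := by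
        intro i hi
        have h2 := hA.sub hi
        rw [hTq, hzc] at h2
        rw [hT1]
        rcases h2 with (h2 | h2) | h2 | h2
        · left; exact h2
        · right; left; exact h2
        · right; right; exact h2
        · exact absurd (h2 ▸ hi) hcon
      have h3 := u3 A hA h1
      rw [h3, hq4] at m1
      omega
    rw [hzc, ← ncard_two_eq hA.cardA hA1 hA2 hg12]
    exact hA
  · have := u2 a' b' c' d' hD hv1q
    omega

end Hub

end Vale.Agent.P032.Six
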