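import Vale.Agent.P032.R2.H479.Loc
import Vale.Agent.P032.S5.H843.Hand6

/-!
# P032: frames with prescribed palettes for the stopped arcs, no bound on the orders

`exists_T_stopQ` : the frame of `exists_T_stop5` with prescribed palettes at finitely many points.
`stop6a` : the statement in the plane without a bound on the orders, with the alternative `Sil`.
-/

open Set Filter Topology Metric

noncomputable section

namespace Vale.Agent.P032.Six

open Vale.Agent.P032.S5.H843 Vale.Agent.P032.S5.H138 Vale.Agent.P032.S5.H926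

/-- **The frame** for the relation `XV`, points of order `> 4` have no points of order `> 3` at
distance one, prescribed palettes at finitely many points. -/
theorem exists_T_stopQ {U : Fin 6 → Set ℂ}
    (hU : ∀ i, Maximal (fun W : Set ℂ => IsOpen W ∧ ∀ x ∈ W, ∀ y ∈ W, dist x y ≠ 1) (U i))
    (hd : Dense (⋃ i, U i)) {m : ℕ} (hm : 5 ≤ m) (h5 : ∀ z, z ∉ XU U m)
    (h54 : ∀ z ∈ XU U 4, ∀ z' ∈ XU U 3, dist z z' ≠ 1)
    (hX : ∀ z ∈ XU U 3, ∀ z' ∈ XU U 3, (z, z') ∉ closure {p : ℂ × ℂ | XV U p.1 p.2})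
    {Q : Set ℂ} (hQ : Q.Finite) {S : ℂ → Set (Fin 6)} (hS : ∀ q ∈ Q, (S q).ncard ≤ 3 ∧
      q ∉ closure ((⋃ j, U j) \ ⋃ i ∈ S q, U i)) :
    ∃ T, Irr U T ∧ Mn U T ∧ (∀ z, (T z).ncard ≤ m) ∧ (∀ q ∈ Q, T q ⊆ S q) ∧ Loc4 T ∧ NX T := by
  classical
  have hK1 : ∀ p ∈ closure {p : ℂ × ℂ | XV U p.1 p.2}, dist p.1 p.2 = 1 := by
    intro p hp
    have hc : IsClosed {p : ℂ × ℂ | dist p.1 p.2 = 1} :=
      isClosed_eq (continuous_fst.dist continuous_snd) continuous_const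
    exact closure_minimal (fun p hp => hp.1) hc hp
  obtain ⟨V0, hV0, hXV0, hfree0⟩ := exists_open_avoid isClosed_closure (isClosed_XU U 3) hK1 hX
  obtain ⟨W5, V1, hW5, hV1, hXW5, hXV1, hfree1⟩ := exists_open_avoid2
    (K := {p : ℂ × ℂ | dist p.1 p.2 = 1})
    (isClosed_eq (continuous_fst.dist continuous_snd) continuous_const)
    (isClosed_XU U 4) (isClosed_XU U 3) (fun p hp => hp) (fun x hx y hy => h54 x hx y hy)
  set V := V0 ∩ V1 with hVdef
  have hV : IsOpen V := hV0.inter hV1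
  have hXV : XU U 3 ⊆ V := fun x hx => ⟨hXV0 hx, hXV1 hx⟩
  have hfree : ∀ x ∈ V, ∀ y ∈ V, (x, y) ∉ closure {p : ℂ × ℂ | XV U p.1 p.2} :=
    fun x hx y hy => hfree0 x hx.1 y hy.1
  set W := W5 ∩ V with hWdef
  have hW : IsOpen W := hW5.inter hV
  have h43 : XU U 4 ⊆ XU U 3 := fun z hz s hs => hz s (by omega)
  have hXW : XU U 4 ⊆ W := fun x hx => ⟨hXW5 hx, hXV (h43 hx)⟩
  have hWV : ∀ x ∈ W, ∀ y ∈ V, dist x y ≠ 1 := fun x hx y hy => hfree1 x hx.1 y hy.2
  set N : ℂ → ℕ := fun x => if x ∈ W then m else if x ∈ V then 4 else 3 with hNdef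
  have hNs : ∀ x, ∀ᶠ w in 𝓝 x, N x ≤ N w := by
    intro x
    by_cases hx : x ∈ W
    · filter_upwards [hW.mem_nhds hx] with w hw
      simp only [hNdef, if_pos hx, if_pos hw, le_refl]
    · by_cases hx' : x ∈ V
      · filter_upwards [hV.mem_nhds hx'] with w hw
        simp only [hNdef, if_neg hx, if_pos hx', if_pos hw]
        split_ifs <;> omega
      · filter_upwards with w
        simp only [hNdef, if_neg hx, if_neg hx']
        split_ifs <;> omega
  have hN3 : ∀ x, 3 ≤ N x := by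
    intro x
    simp only [hNdef]
    split_ifs <;> omega
  have hex : ∀ n z, z ∉ XU U n → ∃ s : Set (Fin 6), s.ncard ≤ n ∧
      ∀ᶠ w in 𝓝 z, ∃ i ∈ s, w ∈ U i ∨ (w ∈ XX U ∧ i ∈ Pal U w) := by
    intro n z hz
    simp only [XU, mem_ofPred_eq] at hz
    push Not at hz
    obtain ⟨s, hs, hsz⟩ := hz
    exact ⟨s, hs, suf_of_notMem hd hsz⟩
  obtain ⟨T, hT, hmin, hle, hTQ⟩ := exists_frameQ (Mx_of_maximal hU hd)
    (fun i x hx => (mem_iff_of_maximal (hU i) x).2 hx) hNs hN3 (fun z _ => by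
      by_cases hz : z ∈ W
      · obtain ⟨s, h1, h2⟩ := hex m z (h5 z)
        exact ⟨s, by simpa only [hNdef, if_pos hz] using h1, h2⟩
      · by_cases hz' : z ∈ V
        · obtain ⟨s, h1, h2⟩ := hex 4 z fun h => hz (hXW h)
          exact ⟨s, by simpa only [hNdef, if_neg hz, if_pos hz'] using h1, h2⟩
        · obtain ⟨s, h1, h2⟩ := hex 3 z fun h => hz' (hXV h)
          exact ⟨s, by simpa only [hNdef, if_neg hz, if_neg hz'] using h1, h2⟩) hQ (S := S)
    (fun q hq => ⟨(hS q hq).1.trans (hN3 q), suf_of_notMem hd (hS q hq).2⟩)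
  have hV4 : ∀ v, 4 ≤ (T v).ncard → v ∈ V := by
    intro v hv
    by_contra hcon
    have hcon' : v ∉ W := fun h => hcon h.2
    have h1 := hle v
    simp only [hNdef, if_neg hcon', if_neg hcon] at h1
    omega
  have hW5 : ∀ v, 5 ≤ (T v).ncard → v ∈ W := by
    intro v hv
    by_contra hcon
    have h1 := hle v
    simp only [hNdef, if_neg hcon, if_pos (hV4 v (by omega))] at h1
    omega
  refine ⟨T, hT, hmin, fun z => (hle z).trans ?_, hTQ, fun z y hyz hz => ?_,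
    fun {z a b c d} hz {y} hyz hy => ?_⟩
  · simp only [hNdef]
    split_ifs <;> omega
  · by_contra hcon
    push Not at hcon
    exact hWV y (hW5 y (by omega)) z (hV4 z hz) hyz
  · have key : (((T y ∩ {a, b}).Nonempty ∧ (T y ∩ {c, d}).Nonempty) ∨ Acc T z {a, b} y) →
        False := fun hX =>
      hfree z (hV4 z (ncard_DPt hz)) y (hV4 y (by rw [hy]))
        (subset_closure (XV_of hT hmin hd hz hyz hy hX))
    exact ⟨fun h1 => key (Or.inl h1), fun h1 => key (Or.inr h1)⟩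

/-- no order bound, with the alternative `Sil` -/
theorem stop6a
    (top5 : ∀ (V : Fin 6 → Set ℂ) (T : ℂ → Set (Fin 6)), Irr V T → Mn V T →
      (∀ z, (T z).ncard ≤ 5) →
      (∀ z y, dist y z = 1 → 4 ≤ (T z).ncard → (T y).ncard ≤ 4) → NX T → False)
    (top6 : ∀ (V : Fin 6 → Set ℂ) (T : ℂ → Set (Fin 6)), Irr V T → Mn V T → Loc4 T → NX T →
      ∀ z, (T z).ncard = 6 → (∀ i, ∃ q, dist q z = 1 ∧ i ∈ T q ∧ (T q).ncard = 2) → False)
    {U : Fin 6 → Set (EuclideanSpace ℝ (Fin 2))} (hd : Dense (⋃ i, U i))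
    (hU : ∀ i, Maximal (fun W : Set (EuclideanSpace ℝ (Fin 2)) =>
      IsOpen W ∧ ∀ x ∈ W, ∀ y ∈ W, dist x y ≠ 1) (U i)) :
    (∃ z, Sil U z) ∨
    ∃ z z', dist z z' = 1 ∧ z ∈ XU U 3 ∧ z' ∈ XU U 3 ∧
      (z ∈ XU U 4 ∨ (z, z') ∈ closure {p : EuclideanSpace ℝ (Fin 2) × EuclideanSpace ℝ (Fin 2) |
        XV U p.1 p.2}) := by
  rcases exists_stopV5_of top5 hU hd with ⟨z₀, hz₀⟩ | h
  swap
  · exact Or.inr h
  by_contra hcon
  rw [not_or] at hcon
  have hd' : Dense (⋃ i, φ ⁻¹' U i) := by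
    rw [← preimage_iUnion]
    exact hd.preimage φ.toHomeomorph.isOpenMap
  obtain ⟨z, rfl⟩ := φ.surjective z₀
  -- transfer of `XU` to the complex plane
  have hzX : z ∈ XU (fun i => φ ⁻¹' U i) 5 := by
    intro s hs
    rw [hdf, hcl]
    exact hz₀ s hs
  have hS : ∀ i : Fin 6, ∃ q j, dist q z = 1 ∧
      q ∉ closure ((⋃ k, φ ⁻¹' U k) \ ⋃ k ∈ ({i, j} : Set (Fin 6)), φ ⁻¹' U k) := by
    intro i
    by_contra hc
    push Not at hc
    refine hcon.1 ⟨φ z, hz₀, i, fun q hq j => ?_⟩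
    obtain ⟨q, rfl⟩ := φ.surjective q
    rw [φ.dist_map] at hq
    have h1 := hc q j hq
    rw [hdf, hcl] at h1
    exact h1
  choose q₀ j hq₀ hj using hS
  obtain ⟨q, hqA, hqi⟩ := exists_distinct
    (fun i => {p | dist p z = 1 ∧
      p ∈ (closure ((⋃ k, φ ⁻¹' U k) \ ⋃ k ∈ ({i, j i} : Set (Fin 6)), φ ⁻¹' U k))ᶜ})
    (fun i => infinite_circle (hq₀ i) isClosed_closure.isOpen_compl (hj i))
  set S : ℂ → Set (Fin 6) := fun p => {k | ∃ i, q i = p ∧ (k = i ∨ k = j i)} with hSdef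
  have hSq : ∀ i, S (q i) = {i, j i} := by
    intro i
    ext k
    simp only [hSdef, mem_ofPred_eq, mem_insert_iff, mem_singleton_iff]
    constructor
    · rintro ⟨i', h1, h2⟩
      rw [hqi h1] at h2
      exact h2
    · exact fun h => ⟨i, rfl, h⟩
  have h2 : ∀ i, (S (q i)).ncard ≤ 2 := fun i => by
    rw [hSq]
    exact (Set.ncard_insert_le _ _).trans (by rw [Set.ncard_singleton])
  have hcl1 : ∀ z z' : ℂ, (z, z') ∈ closure {p : ℂ × ℂ | XV (fun i => φ ⁻¹' U i) p.1 p.2} →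
      (φ z, φ z') ∈ closure {p : EuclideanSpace ℝ (Fin 2) × EuclideanSpace ℝ (Fin 2) |
        XV U p.1 p.2} := by
    intro z z' hz
    have hc : Continuous (Prod.map φ φ) := φ.continuous.prodMap φ.continuous
    have h1 := image_closure_subset_closure_image hc (mem_image_of_mem _ hz)
    refine closure_mono ?_ h1
    rintro _ ⟨p, hp, rfl⟩
    exact hXV _ _ hp
  have hdist : ∀ p ∈ closure {p : ℂ × ℂ | XV (fun i => φ ⁻¹' U i) p.1 p.2},
      dist p.1 p.2 = 1 := by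
    intro p hp
    have hc : IsClosed {p : ℂ × ℂ | dist p.1 p.2 = 1} :=
      isClosed_eq (continuous_fst.dist continuous_snd) continuous_const
    exact closure_minimal (fun p hp => hp.1) hc hp
  obtain ⟨T, h, hmin, -, hTQ, hloc, hN⟩ := exists_T_stopQ (U := fun i => φ ⁻¹' U i)
    (fun i => maximal_preimage (hU i) φ) hd' (m := 6) (by norm_num)
    (fun z hz => by
      have h1 := hz univ (by rw [Set.ncard_univ, Nat.card_eq_fintype_card, Fintype.card_fin])
      have h2 : (⋃ j, φ ⁻¹' U j) \ ⋃ i ∈ (univ : Set (Fin 6)), φ ⁻¹' U i = ∅ := by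
        rw [sdiff_eq_empty]
        exact fun x hx => by
          obtain ⟨j, hj⟩ := mem_iUnion.1 hx
          exact mem_iUnion₂.2 ⟨j, mem_univ j, hj⟩
      rw [h2, closure_empty] at h1
      exact h1)
    (fun z hz z' hz' h => hcon.2 ⟨φ z, φ z', by rw [φ.dist_map]; exact h,
      hXU 3 z fun s hs => hz s (by omega), hXU 3 z' hz', Or.inl (hXU 4 z hz)⟩)
    (fun z hz z' hz' h => hcon.2 ⟨φ z, φ z', by rw [φ.dist_map]; exact hdist _ h, hXU 3 z hz,
      hXU 3 z' hz', Or.inr (hcl1 z z' h)⟩)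
    (Q := range q) (finite_range q) (S := S) (by
      rintro _ ⟨i, rfl⟩
      refine ⟨(h2 i).trans (by norm_num), ?_⟩
      rw [hSq]
      exact (hqA i).2)
  have h6 := univ_of_XU h hzX
  refine top6 _ T h hmin hloc hN z h6 fun i => ⟨q i, (hqA i).1, ?_⟩
  have h3 := hTQ (q i) ⟨i, rfl⟩
  have h4 := two_le6 h h6 (hqA i).1
  have h5 := h2 i
  have h7 : T (q i) = S (q i) := Set.eq_of_subset_of_ncard_le h3 (by omega) (Set.toFinite _)
  have h8 := Set.ncard_le_ncard h3 (Set.toFinite _)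
  refine ⟨?_, by omega⟩
  rw [h7, hSq]
  exact mem_insert _ _

end Vale.Agent.P032.Six
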