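import Vale.Agent.P032.R2.H479.NX
import Vale.Agent.P032.R2.H479.Top

/-!
# P032: stopped arcs, statement in the plane

`XV U x x'` : `x` is a two-pair point, `x'` is a point at distance one near which four of the sets
suffice and no three of these four, and these four contain a set of both pairs of `x`, or `x'` is a
limit of exact arcs of the unit circle about `x`.
`exists_stopV_of` : if frames with `NX` are impossible then every maximal family has a point of order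
`> 4`, or two points of order `> 3` at distance one which are a limit of such pairs.
-/

open Set Filter Topology Metric

noncomputable section

namespace Vale.Agent.P032.Six

open Vale.Agent.P032.S5.H843 Vale.Agent.P032.S5.H138 Vale.Agent.P032.S5.H926

/-- `x` is a two-pair point with a stopped arc or a contact with both pairs at `x'` -/
def XV {E : Type*} [PseudoMetricSpace E] (U : Fin 6 → Set E) (x x' : E) : Prop :=
  dist x x' = 1 ∧ ∃ a b c d : Fin 6, [a, b, c, d].Nodup ∧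
    x ∉ closure ((⋃ j, U j) \ ⋃ i ∈ ({a, b, c, d} : Set (Fin 6)), U i) ∧
    (∀ s ⊂ ({a, b, c, d} : Set (Fin 6)), x ∈ closure ((⋃ j, U j) \ ⋃ i ∈ s, U i)) ∧
    (∃ p q, dist p x = 1 ∧ dist q x = 1 ∧ ∃ r > 0,
      (∀ y, dist y x = 1 → dist y p < r → y ∈ closure (U a) ∧ y ∈ closure (U b) ∧
        y ∉ closure ((⋃ j, U j) \ ⋃ i ∈ ({a, b} : Set (Fin 6)), U i)) ∧
      ∀ y, dist y x = 1 → dist y q < r → y ∈ closure (U c) ∧ y ∈ closure (U d) ∧
        y ∉ closure ((⋃ j, U j) \ ⋃ i ∈ ({c, d} : Set (Fin 6)), U i)) ∧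
    ∃ Q : Set (Fin 6), Q.ncard = 4 ∧ x' ∉ closure ((⋃ j, U j) \ ⋃ i ∈ Q, U i) ∧
      (∀ s ⊂ Q, x' ∈ closure ((⋃ j, U j) \ ⋃ i ∈ s, U i)) ∧
      (((Q ∩ {a, b}).Nonempty ∧ (Q ∩ {c, d}).Nonempty) ∨
        ∀ ε > 0, ∃ p, dist p x = 1 ∧ dist p x' < ε ∧ ∃ r > 0,
          ∀ y, dist y x = 1 → dist y p < r → y ∈ closure (U a) ∧ y ∈ closure (U b) ∧
            y ∉ closure ((⋃ j, U j) \ ⋃ i ∈ ({a, b} : Set (Fin 6)), U i))

/-- neighbourhoods of a closed set avoiding a closed relation of bounded range -/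
theorem exists_open_avoid {K : Set (ℂ × ℂ)} {X : Set ℂ} (hK : IsClosed K) (hX : IsClosed X)
    (hK1 : ∀ p ∈ K, dist p.1 p.2 = 1) (hfree : ∀ x ∈ X, ∀ y ∈ X, (x, y) ∉ K) :
    ∃ V, IsOpen V ∧ X ⊆ V ∧ ∀ x ∈ V, ∀ y ∈ V, (x, y) ∉ K := by
  have hrad : ∀ L : Set (ℂ × ℂ), IsClosed L → (∀ p ∈ L, dist p.1 p.2 = 1) →
      (∀ x ∈ X, ∀ y ∈ X, (x, y) ∉ L) → ∀ x, ∃ r : ℝ, 0 < r ∧ (x ∈ X → ∀ y ∈ X, ∀ x' y',
        (x', y') ∈ L → dist x x' < r → dist y y' < r → False) := by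
    intro L hL hL1 hLf x
    by_cases hx : x ∈ X
    · have hC : IsCompact (({x} : Set ℂ) ×ˢ (X ∩ closedBall x 3)) :=
        isCompact_singleton.prod ((isCompact_closedBall x 3).inter_left hX)
      have hdis : Disjoint (({x} : Set ℂ) ×ˢ (X ∩ closedBall x 3)) L := by
        rw [Set.disjoint_left]
        rintro ⟨u, v⟩ ⟨hu, hv⟩ huv
        rw [mem_singleton_iff] at hu
        simp only at hu hv
        rw [hu] at huv
        exact hLf x hx v hv.1 huv
      obtain ⟨δ, hδ, hdd⟩ := hdis.exists_thickenings hC hL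
      refine ⟨min δ 1, lt_min hδ one_pos, fun _ y hy x' y' hL' hxx hyy => ?_⟩
      have hin : (x', y') ∈ thickening δ (({x} : Set ℂ) ×ˢ (X ∩ closedBall x 3)) := by
        rw [mem_thickening_iff]
        refine ⟨(x, y), ⟨rfl, hy, ?_⟩, ?_⟩
        · rw [mem_closedBall]
          have h1 := dist_triangle4 y y' x' x
          have h2 : dist y' x' = 1 := by rw [dist_comm]; exact hL1 _ hL'
          have h3 := hxx.trans_le (min_le_right δ 1)
          have h4 := hyy.trans_le (min_le_right δ 1)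
          rw [dist_comm] at h3
          linarith
        · rw [Prod.dist_eq]
          refine max_lt ?_ ?_
          · rw [dist_comm]; exact hxx.trans_le (min_le_left _ _)
          · rw [dist_comm]; exact hyy.trans_le (min_le_left _ _)
      exact Set.disjoint_left.1 hdd hin (self_subset_thickening hδ _ hL')
    · exact ⟨1, one_pos, fun h => absurd h hx⟩
  choose r hr0 hr using hrad K hK hK1 hfree
  choose t ht0 ht using hrad (Prod.swap ⁻¹' K) (hK.preimage continuous_swap)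
    (fun p hp => by rw [dist_comm]; exact hK1 _ hp) (fun x hx y hy h => hfree y hy x hx h)
  refine ⟨⋃ x ∈ X, ball x (min (r x) (t x)), isOpen_biUnion fun x _ => isOpen_ball,
    fun x hx => mem_iUnion₂.2 ⟨x, hx, mem_ball_self (lt_min (hr0 x) (ht0 x))⟩,
    fun p hp q hq hpq => ?_⟩
  obtain ⟨x, hx, hpx⟩ := mem_iUnion₂.1 hp
  obtain ⟨y, hy, hqy⟩ := mem_iUnion₂.1 hq
  rw [mem_ball, dist_comm] at hpx hqy
  rcases le_total (min (r x) (t x)) (min (r y) (t y)) with h1 | h1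
  · exact ht y hy x hx q p hpq (hqy.trans_le (min_le_right _ _))
      ((hpx.trans_le h1).trans_le (min_le_right _ _))
  · exact hr x hx y hy p q hpq (hpx.trans_le (min_le_left _ _))
      ((hqy.trans_le h1).trans_le (min_le_left _ _))

/-- the relation from the palettes -/
theorem XV_of {U : Fin 6 → Set ℂ} {T : ℂ → Set (Fin 6)} (h : Irr U T) (hmin : Mn U T)
    (hd : Dense (⋃ i, U i)) {z y : ℂ} {a b c d : Fin 6} (hz : DPt T z a b c d)
    (hyz : dist y z = 1) (hy : (T y).ncard = 4)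
    (hX : ((T y ∩ {a, b}).Nonempty ∧ (T y ∩ {c, d}).Nonempty) ∨ Acc T z {a, b} y) :
    XV U z y := by
  have hm : ∀ x, 4 ≤ (T x).ncard → ∀ s ⊂ T x, x ∈ closure ((⋃ j, U j) \ ⋃ i ∈ s, U i) := by
    intro x hx s hs
    by_contra hcon
    exact hmin x hx s hs.subset hs.ne (suf_of_notMem hd hcon)
  obtain ⟨p, hp1, hp2⟩ := hz.arc1
  obtain ⟨q, hq1, hq2⟩ := hz.arc2
  obtain ⟨r, hr, h1⟩ := arc_radius h hp2
  obtain ⟨r', hr', h2⟩ := arc_radius h hq2
  refine ⟨by rw [dist_comm]; exact hyz, a, b, c, d, ?_, ?_, ?_, ?_, T y, hy, Irr_suff h y,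
    hm y (by rw [hy]), ?_⟩
  · simp [hz.ab, hz.ac, hz.ad, hz.bc, hz.bd, hz.cd]
  · rw [← hz.pal]; exact Irr_suff h z
  · intro s hs
    rw [← hz.pal] at hs
    exact hm z (ncard_DPt hz) s hs
  · exact ⟨p, q, hp1, hq1, min r r', lt_min hr hr',
      fun y hy hyp => h1 y hy (hyp.trans_le (min_le_left _ _)),
      fun y hy hyp => h2 y hy (hyp.trans_le (min_le_right _ _))⟩
  · refine hX.imp id fun hA ε hε => ?_
    obtain ⟨p, hpV, hpz, hp⟩ := hA (ball y ε) (ball_mem_nhds y hε)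
    obtain ⟨r, hr, h3⟩ := arc_radius h hp
    exact ⟨p, hpz, mem_ball.1 hpV, r, hr, h3⟩

/-- the relation holds for limits of order `> 3` only -/
theorem exists_T_stop {U : Fin 6 → Set ℂ}
    (hU : ∀ i, Maximal (fun W : Set ℂ => IsOpen W ∧ ∀ x ∈ W, ∀ y ∈ W, dist x y ≠ 1) (U i))
    (hd : Dense (⋃ i, U i)) (h4 : ∀ z, z ∉ XU U 4)
    (hX : ∀ z ∈ XU U 3, ∀ z' ∈ XU U 3, (z, z') ∉ closure {p : ℂ × ℂ | XV U p.1 p.2}) :
    ∃ T, Irr U T ∧ Mn U T ∧ (∀ z, (T z).ncard ≤ 4) ∧ NX T := by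
  classical
  have hK1 : ∀ p ∈ closure {p : ℂ × ℂ | XV U p.1 p.2}, dist p.1 p.2 = 1 := by
    intro p hp
    have hc : IsClosed {p : ℂ × ℂ | dist p.1 p.2 = 1} :=
      isClosed_eq (continuous_fst.dist continuous_snd) continuous_const
    exact closure_minimal (fun p hp => hp.1) hc hp
  obtain ⟨V, hV, hXV, hfree⟩ := exists_open_avoid isClosed_closure (isClosed_XU U 3) hK1 hX
  set N : ℂ → ℕ := fun x => if x ∈ V then 4 else 3 with hNdef
  have hNs : ∀ x, ∀ᶠ w in 𝓝 x, N x ≤ N w := by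
    intro x
    by_cases hx : x ∈ V
    · filter_upwards [hV.mem_nhds hx] with w hw
      simp only [hNdef, if_pos hx, if_pos hw, le_refl]
    · filter_upwards with w
      simp only [hNdef, if_neg hx]
      split_ifs <;> omega
  have hN3 : ∀ x, 3 ≤ N x := by
    intro x
    simp only [hNdef]
    split_ifs <;> omega
  have hex : ∀ n z, z ∉ XU U n → ∃ s : Set (Fin 6), s.ncard ≤ n ∧
      ∀ᶠ w in 𝓝 z, ∃ i ∈ s, w ∈ U i ∨ (w ∈ XX U ∧ i ∈ Pal U w) := by
    intro n z hz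
    simp only [XU, mem_ofPred_eq] at hz
    push Not at hz
    obtain ⟨s, hs, hsz⟩ := hz
    exact ⟨s, hs, suf_of_notMem hd hsz⟩
  obtain ⟨T, hT, hmin, hle⟩ := exists_frameN (Mx_of_maximal hU hd)
    (fun i x hx => (mem_iff_of_maximal (hU i) x).2 hx) hNs hN3 (fun z _ => by
      by_cases hz : z ∈ V
      · obtain ⟨s, h1, h2⟩ := hex 4 z (h4 z)
        exact ⟨s, by simpa only [hNdef, if_pos hz] using h1, h2⟩
      · obtain ⟨s, h1, h2⟩ := hex 3 z fun h => hz (hXV h)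
        exact ⟨s, by simpa only [hNdef, if_neg hz] using h1, h2⟩)
  have hV4 : ∀ v, 4 ≤ (T v).ncard → v ∈ V := by
    intro v hv
    by_contra hcon
    have h1 := hle v
    simp only [hNdef, if_neg hcon] at h1
    omega
  refine ⟨T, hT, hmin, fun z => (hle z).trans ?_, fun {z a b c d} hz {y} hyz hy => ?_⟩
  · simp only [hNdef]
    split_ifs <;> omega
  · have key : (((T y ∩ {a, b}).Nonempty ∧ (T y ∩ {c, d}).Nonempty) ∨ Acc T z {a, b} y) →
        False := fun hX =>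
      hfree z (hV4 z (ncard_DPt hz)) y (hV4 y (by rw [hy]))
        (subset_closure (XV_of hT hmin hd hz hyz hy hX))
    exact ⟨fun h1 => key (Or.inl h1), fun h1 => key (Or.inr h1)⟩

section plane

variable {U : Fin 6 → Set (EuclideanSpace ℝ (Fin 2))}

theorem hXV (x x' : ℂ) (hx : XV (fun i => φ ⁻¹' U i) x x') : XV U (φ x) (φ x') := by
  obtain ⟨h1, a, b, c, d, nd, hx, hcx, ⟨p, q, hp, hq, r, hr, hr1, hr2⟩, Q, hQ, hx', hcx', hX⟩ := hx
  rw [hdf, hcl] at hx hx'
  have key : ∀ {i j : Fin 6} {r : ℝ} {p : ℂ},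
      (∀ y, dist y x = 1 → dist y p < r → y ∈ closure (φ ⁻¹' U i) ∧ y ∈ closure (φ ⁻¹' U j) ∧
        y ∉ closure ((⋃ j, φ ⁻¹' U j) \ ⋃ k ∈ ({i, j} : Set (Fin 6)), φ ⁻¹' U k)) →
      ∀ y, dist y (φ x) = 1 → dist y (φ p) < r → y ∈ closure (U i) ∧ y ∈ closure (U j) ∧
        y ∉ closure ((⋃ j, U j) \ ⋃ k ∈ ({i, j} : Set (Fin 6)), U k) := by
    intro i j r p h y hy hyp
    obtain ⟨y', rfl⟩ := φ.surjective y
    rw [φ.dist_map] at hy hyp
    have := h y' hy hyp
    rw [hdf, hcl, hcl, hcl] at this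
    exact this
  refine ⟨by rw [φ.dist_map]; exact h1, a, b, c, d, nd, hx, fun s hs => ?_,
    ⟨φ p, φ q, by rw [φ.dist_map]; exact hp, by rw [φ.dist_map]; exact hq, r, hr, key hr1,
      key hr2⟩, Q, hQ, hx', fun s hs => ?_, ?_⟩
  · have := hcx s hs
    rw [hdf, hcl] at this
    exact this
  · have := hcx' s hs
    rw [hdf, hcl] at this
    exact this
  · refine hX.imp id fun hA ε hε => ?_
    obtain ⟨p, hp, hpε, r, hr, hA⟩ := hA ε hε
    exact ⟨φ p, by rw [φ.dist_map]; exact hp, by rw [φ.dist_map]; exact hpε, r, hr, key hA⟩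

/-- **Stopped arcs, statement in the plane.** -/
theorem exists_stopV_of
    (top : ∀ (V : Fin 6 → Set ℂ) (T : ℂ → Set (Fin 6)), Irr V T → Mn V T →
      (∀ z, (T z).ncard ≤ 4) → NX T → False)
    (hU : ∀ i, Maximal (fun W : Set (EuclideanSpace ℝ (Fin 2)) =>
      IsOpen W ∧ ∀ x ∈ W, ∀ y ∈ W, dist x y ≠ 1) (U i))
    (hd : Dense (⋃ i, U i)) :
    (∃ z, z ∈ XU U 4) ∨ ∃ z z', dist z z' = 1 ∧ z ∈ XU U 3 ∧ z' ∈ XU U 3 ∧
      (z, z') ∈ closure {p : EuclideanSpace ℝ (Fin 2) × EuclideanSpace ℝ (Fin 2) |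
        XV U p.1 p.2} := by
  by_contra hcon
  push Not at hcon
  obtain ⟨h4, hX⟩ := hcon
  have hcl1 : ∀ z z' : ℂ, (z, z') ∈ closure {p : ℂ × ℂ | XV (fun i => φ ⁻¹' U i) p.1 p.2} →
      (φ z, φ z') ∈ closure {p : EuclideanSpace ℝ (Fin 2) × EuclideanSpace ℝ (Fin 2) |
        XV U p.1 p.2} := by
    intro z z' hz
    have hc : Continuous (Prod.map φ φ) := φ.continuous.prodMap φ.continuous
    have h1 := image_closure_subset_closure_image hc (mem_image_of_mem _ hz)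
    refine closure_mono ?_ h1
    rintro _ ⟨p, hp, rfl⟩
    exact hXV _ _ hp
  have hdist : ∀ p ∈ closure {p : ℂ × ℂ | XV (fun i => φ ⁻¹' U i) p.1 p.2},
      dist p.1 p.2 = 1 := by
    intro p hp
    have hc : IsClosed {p : ℂ × ℂ | dist p.1 p.2 = 1} :=
      isClosed_eq (continuous_fst.dist continuous_snd) continuous_const
    exact closure_minimal (fun p hp => hp.1) hc hp
  obtain ⟨T, h1, h2, h3, h5⟩ := exists_T_stop (U := fun i => φ ⁻¹' U i)
    (fun i => maximal_preimage (hU i) φ) (by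
      rw [← preimage_iUnion]
      exact hd.preimage φ.toHomeomorph.isOpenMap)
    (fun z hz => h4 (φ z) (hXU 4 z hz))
    (fun z hz z' hz' h => hX (φ z) (φ z') (by rw [φ.dist_map]; exact hdist _ h) (hXU 3 z hz)
      (hXU 3 z' hz') (hcl1 z z' h))
  exact top _ T h1 h2 h3 h5

end plane

end Vale.Agent.P032.Six
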